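import Mathlib

namespace Vale.Agent.Lib.P064

/-- The probability that the binomial random graph `G(n,p)` on the vertex set `Fin n` equals the
graph `G`: `p ^ e(G) * (1 - p) ^ (C(n,2) - e(G))`. -/
noncomputable def gnpProb (n : ℕ) (p : ℝ) (G : SimpleGraph (Fin n)) : ℝ :=
  p ^ G.edgeSet.ncard * (1 - p) ^ (n.choose 2 - G.edgeSet.ncard)

/-- `E N(G(n,p), F)`: the expectation, over the random graph `G(n,p)`, of the number of subgraphs
of `G(n,p)` isomorphic to `F`. -/
noncomputable def expectedCopies (n : ℕ) (p : ℝ) {U : Type*} (F : SimpleGraph U) : ℝ :=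
  ∑ G : SimpleGraph (Fin n), gnpProb n p G * (G.copyCount F : ℝ)

/-- The expectation threshold `p_E(n,H)`: the least `p` in `[0,1]` such that every subgraph `F`
of `H` has `E N(G(n,p), F) ≥ 1/2`. -/
noncomputable def pE (n : ℕ) {W : Type*} (H : SimpleGraph W) : ℝ :=
  sInf {p : ℝ | 0 ≤ p ∧ p ≤ 1 ∧ ∀ F : H.Subgraph, 1 / 2 ≤ expectedCopies n p F.coe}

/-- The threshold `p̃_E(n,H)`: the least `p` in `[0,1]` such that every subgraph `F` of `H` has
`E N(G(n,p), F) ≥ N(H,F) / 2`, where `N(H,F)` is the number of subgraphs of `H` isomorphic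
to `F`. -/
noncomputable def pEtilde (n : ℕ) {W : Type*} [Fintype W] (H : SimpleGraph W) : ℝ :=
  sInf {p : ℝ | 0 ≤ p ∧ p ≤ 1 ∧
    ∀ F : H.Subgraph, (H.copyCount F.coe : ℝ) / 2 ≤ expectedCopies n p F.coe}

end Vale.Agent.Lib.P064
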