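import Mathlib
import Vale.Agent.Lib.P064.Defs

namespace Vale.Agent.Lib.P064

/-- `Pr(N(G(n,p), H) > 0)`: the probability that the random graph `G(n,p)` contains a copy
of `H`. -/
noncomputable def containProb (n : ℕ) (p : ℝ) {W : Type*} (H : SimpleGraph W) : ℝ :=
  ∑ G : SimpleGraph (Fin n), gnpProb n p G * (if 0 < G.copyCount H then 1 else 0)

/-- The threshold `p_c(n,H)`: the least `p` in `[0,1]` with `Pr(N(G(n,p), H) > 0) ≥ 1/2`. -/
noncomputable def pc (n : ℕ) {W : Type*} (H : SimpleGraph W) : ℝ :=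
  sInf {p : ℝ | 0 ≤ p ∧ p ≤ 1 ∧ 1 / 2 ≤ containProb n p H}

end Vale.Agent.Lib.P064
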