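import Mathlib
import Vale.Agent.Lib.P064.Defs

namespace Vale.Agent.Lib.P064

open Finset

theorem sum_powerset_superset {α : Type*} [DecidableEq α] (X E₀ : Finset α) (h : E₀ ⊆ X) (p : ℝ) :
    ∑ A ∈ X.powerset.filter (fun A => E₀ ⊆ A), p ^ A.card * (1 - p) ^ (X.card - A.card)
      = p ^ E₀.card := by
  have h1 : ∑ A ∈ X.powerset.filter (fun A => E₀ ⊆ A), p ^ A.card * (1 - p) ^ (X.card - A.card)
      = ∑ B ∈ (X \ E₀).powerset, p ^ E₀.card * (p ^ B.card * (1 - p) ^ ((X \ E₀).card - B.card)) := by
    symm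
    apply Finset.sum_nbij' (fun B => E₀ ∪ B) (fun A => A \ E₀)
    · intro B hB
      rw [Finset.mem_powerset] at hB
      rw [Finset.mem_filter, Finset.mem_powerset]
      exact ⟨Finset.union_subset h (hB.trans Finset.sdiff_subset), Finset.subset_union_left⟩
    · intro A hA
      rw [Finset.mem_filter, Finset.mem_powerset] at hA
      rw [Finset.mem_powerset]
      exact Finset.sdiff_subset_sdiff hA.1 (Finset.Subset.refl _)
    · intro B hB
      rw [Finset.mem_powerset] at hB
      have hdisj : Disjoint E₀ B := by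
        rw [Finset.disjoint_left]
        intro x hx hxB
        exact (Finset.mem_sdiff.mp (hB hxB)).2 hx
      rw [Finset.union_sdiff_cancel_left hdisj]
    · intro A hA
      rw [Finset.mem_filter, Finset.mem_powerset] at hA
      exact Finset.union_sdiff_of_subset hA.2
    · intro B hB
      rw [Finset.mem_powerset] at hB
      have hdisj : Disjoint E₀ B := by
        rw [Finset.disjoint_left]
        intro x hx hxB
        exact (Finset.mem_sdiff.mp (hB hxB)).2 hx
      have hc : (E₀ ∪ B).card = E₀.card + B.card := Finset.card_union_of_disjoint hdisj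
      have hX : X.card = E₀.card + (X \ E₀).card := by
        rw [Finset.card_sdiff_of_subset h]
        have := Finset.card_le_card h
        omega
      have hB' : B.card ≤ (X \ E₀).card := Finset.card_le_card hB
      rw [hc, hX, pow_add]
      have : E₀.card + (X \ E₀).card - (E₀.card + B.card) = (X \ E₀).card - B.card := by omega
      rw [this]
      ring
  rw [h1, ← Finset.mul_sum, Finset.sum_pow_mul_eq_add_pow]
  simp

open Classical in
theorem sum_gnpProb_ge (n : ℕ) (p : ℝ) (G₀ : SimpleGraph (Fin n)) :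
    ∑ G : SimpleGraph (Fin n), (if G₀ ≤ G then gnpProb n p G else 0) = p ^ G₀.edgeSet.ncard := by
  have hN : n.choose 2 = (⊤ : SimpleGraph (Fin n)).edgeFinset.card := by
    rw [SimpleGraph.card_edgeFinset_top_eq_card_choose_two, Fintype.card_fin]
  have hcard : ∀ G : SimpleGraph (Fin n), G.edgeSet.ncard = G.edgeFinset.card := by
    intro G
    rw [Set.ncard_eq_toFinset_card']
    rfl
  have hsub : G₀.edgeFinset ⊆ (⊤ : SimpleGraph (Fin n)).edgeFinset :=
    SimpleGraph.edgeFinset_mono le_top
  rw [hcard G₀, ← sum_powerset_superset _ _ hsub p, Finset.sum_filter]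
  apply Finset.sum_nbij' (fun G : SimpleGraph (Fin n) => G.edgeFinset)
    (fun A : Finset (Sym2 (Fin n)) => SimpleGraph.fromEdgeSet (A : Set (Sym2 (Fin n))))
  · intro G _
    rw [Finset.mem_powerset]
    exact SimpleGraph.edgeFinset_mono le_top
  · intro A _
    exact Finset.mem_univ _
  · intro G _
    rw [SimpleGraph.coe_edgeFinset, SimpleGraph.fromEdgeSet_edgeSet]
  · intro A hA
    rw [Finset.mem_powerset] at hA
    apply Finset.coe_injective
    rw [SimpleGraph.coe_edgeFinset, SimpleGraph.edgeSet_fromEdgeSet]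
    ext e
    constructor
    · intro he
      exact he.1
    · intro he
      refine ⟨he, ?_⟩
      have := hA he
      rw [SimpleGraph.mem_edgeFinset] at this
      exact (SimpleGraph.not_isDiag_of_mem_edgeSet _ this)
  · intro G _
    have h1 : G₀ ≤ G ↔ G₀.edgeFinset ⊆ G.edgeFinset := SimpleGraph.edgeFinset_subset_edgeFinset.symm
    by_cases hG : G₀ ≤ G
    · rw [if_pos hG, if_pos (h1.mp hG), gnpProb, hcard G, hN]
    · rw [if_neg hG, if_neg (fun h => hG (h1.mpr h))]

theorem copyCount_eq_ncard {V : Type*} {U : Type*} [Fintype V] (G : SimpleGraph V)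
    (F : SimpleGraph U) :
    G.copyCount F = {G' : G.Subgraph | Nonempty (F ≃g G'.coe)}.ncard := by
  classical
  rw [SimpleGraph.copyCount, ← Set.ncard_coe_finset]
  congr 1
  ext T
  simp only [Finset.coe_filter, Finset.mem_univ, true_and, Set.mem_ofPred_eq]

theorem copyCount_eq_ncard_top {V : Type*} {U : Type*} [Fintype V] (G : SimpleGraph V)
    (F : SimpleGraph U) :
    G.copyCount F = {T : (⊤ : SimpleGraph V).Subgraph |
      Nonempty (F ≃g T.coe) ∧ T.spanningCoe ≤ G}.ncard := by
  rw [copyCount_eq_ncard]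
  apply Set.ncard_congr (fun (G' : G.Subgraph) _ => G'.map (SimpleGraph.Hom.ofLE (le_top : G ≤ ⊤)))
  · intro G' hG'
    obtain ⟨e⟩ := hG'
    refine ⟨⟨e.trans ((SimpleGraph.Copy.ofLE G ⊤ le_top).isoSubgraphMap G')⟩, ?_⟩
    intro a b hab
    obtain ⟨a', b', h, rfl, rfl⟩ := hab
    exact G'.adj_sub h
  · intro G₁ G₂ _ _ h
    have hadj : ∀ (A B : G.Subgraph),
        A.map (SimpleGraph.Hom.ofLE (le_top : G ≤ ⊤)) = B.map (SimpleGraph.Hom.ofLE (le_top : G ≤ ⊤)) →
        ∀ x y, A.Adj x y → B.Adj x y := by
      intro A B hAB x y hxy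
      have h1 : (A.map (SimpleGraph.Hom.ofLE (le_top : G ≤ ⊤))).Adj x y := ⟨x, y, hxy, rfl, rfl⟩
      rw [hAB] at h1
      obtain ⟨x', y', hxy', hx', hy'⟩ := h1
      have hx'' : x' = x := hx'
      have hy'' : y' = y := hy'
      rw [← hx'', ← hy'']
      exact hxy'
    apply SimpleGraph.Subgraph.ext
    · have := congrArg SimpleGraph.Subgraph.verts h
      simpa using this
    · funext x y
      exact propext ⟨hadj G₁ G₂ h x y, hadj G₂ G₁ h.symm x y⟩
  · intro T hT
    obtain ⟨⟨e⟩, hle⟩ := hT
    let G' : G.Subgraph :=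
      { verts := T.verts
        Adj := T.Adj
        adj_sub := fun {v w} h => hle h
        edge_vert := fun {v w} h => T.edge_vert h
        symm := T.symm }
    have e' : F ≃g G'.coe := e
    refine ⟨G', ⟨e'⟩, ?_⟩
    apply SimpleGraph.Subgraph.ext
    · simp [G']
    · funext x y
      apply propext
      constructor
      · rintro ⟨x', y', h, rfl, rfl⟩
        exact h
      · intro h
        exact ⟨x, y, h, rfl, rfl⟩

theorem edgeSet_ncard_of_iso_coe {V : Type*} {U : Type*} {G : SimpleGraph V} (F : SimpleGraph U)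
    (T : G.Subgraph) (e : F ≃g T.coe) : T.spanningCoe.edgeSet.ncard = F.edgeSet.ncard := by
  rw [SimpleGraph.Subgraph.edgeSet_spanningCoe, ← SimpleGraph.Subgraph.image_coe_edgeSet_coe,
    Set.ncard_image_of_injective _ (Sym2.map.injective Subtype.val_injective)]
  exact (Set.ncard_congr' e.mapEdgeSet).symm

/-- The finite set of copies of `F` in the complete graph. -/
noncomputable def topCopies {V : Type*} {U : Type*} [Fintype V] (F : SimpleGraph U) :
    Finset (⊤ : SimpleGraph V).Subgraph :=
  (Set.toFinite {T : (⊤ : SimpleGraph V).Subgraph | Nonempty (F ≃g T.coe)}).toFinset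

theorem mem_topCopies {V : Type*} {U : Type*} [Fintype V] (F : SimpleGraph U)
    (T : (⊤ : SimpleGraph V).Subgraph) : T ∈ topCopies F ↔ Nonempty (F ≃g T.coe) := by
  simp [topCopies]

theorem card_topCopies {V : Type*} {U : Type*} [Fintype V] (F : SimpleGraph U) :
    (topCopies (V := V) F).card = (⊤ : SimpleGraph V).copyCount F := by
  rw [copyCount_eq_ncard, topCopies, Set.ncard_eq_toFinset_card _ (Set.toFinite _)]

open Classical in
theorem mul_copyCount_eq_sum_top {V : Type*} {U : Type*} [Fintype V] (G : SimpleGraph V)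
    (F : SimpleGraph U) (c : ℝ) :
    c * (G.copyCount F : ℝ)
      = ∑ T ∈ topCopies (V := V) F, (if T.spanningCoe ≤ G then c else 0) := by
  have h : G.copyCount F = ((topCopies (V := V) F).filter (fun T => T.spanningCoe ≤ G)).card := by
    rw [copyCount_eq_ncard_top, ← Set.ncard_coe_finset]
    congr 1
    ext T
    simp only [Finset.coe_filter, mem_topCopies, Set.mem_ofPred_eq]
  rw [h, Finset.card_filter, Nat.cast_sum, Finset.mul_sum]
  apply Finset.sum_congr rfl
  intro T _
  split_ifs <;> simp

open Classical in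
theorem expectedCopies_eq (n : ℕ) (p : ℝ) {U : Type*} (F : SimpleGraph U) :
    expectedCopies n p F
      = ((⊤ : SimpleGraph (Fin n)).copyCount F : ℝ) * p ^ F.edgeSet.ncard := by
  unfold expectedCopies
  rw [Finset.sum_congr rfl (fun G _ => mul_copyCount_eq_sum_top G F (gnpProb n p G)),
    Finset.sum_comm]
  rw [Finset.sum_congr rfl (fun T hT => by
    obtain ⟨e⟩ := (mem_topCopies F T).mp hT
    rw [sum_gnpProb_ge, edgeSet_ncard_of_iso_coe F T e])]
  rw [Finset.sum_const, nsmul_eq_mul, card_topCopies]

end Vale.Agent.Lib.P064
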