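import Mathlib

namespace Vale.Agent.Lib.P064

open Finset

universe u v w

/-- A bound on the number of copies via an encoding of injective homomorphisms. -/
theorem copyCount_le_card_of_enc {V : Type u} {U : Type v} {α : Type w} [Fintype V]
    (G : SimpleGraph V) (F : SimpleGraph U) (S : Finset α) (enc : (U → V) → α)
    (h1 : ∀ ψ : U → V, Function.Injective ψ → (∀ a b, F.Adj a b → G.Adj (ψ a) (ψ b)) →
      enc ψ ∈ S)
    (h2 : ∀ ψ ψ' : U → V, Function.Injective ψ → Function.Injective ψ' →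
      (∀ a b, F.Adj a b → G.Adj (ψ a) (ψ b)) → (∀ a b, F.Adj a b → G.Adj (ψ' a) (ψ' b)) →
      enc ψ = enc ψ' →
      Set.range ψ = Set.range ψ' ∧
        ∀ x y, (∃ a b, F.Adj a b ∧ ψ a = x ∧ ψ b = y) ↔
          (∃ a b, F.Adj a b ∧ ψ' a = x ∧ ψ' b = y)) :
    G.copyCount F ≤ S.card := by
  classical
  rw [SimpleGraph.copyCount]
  refine Finset.card_le_card_of_forall_subsingleton
    (fun (G' : G.Subgraph) (a : α) => ∃ ψ : U → V, Function.Injective ψ ∧
      (∀ a b, F.Adj a b → G.Adj (ψ a) (ψ b)) ∧ Set.range ψ = G'.verts ∧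
      (∀ x y, G'.Adj x y ↔ ∃ a b, F.Adj a b ∧ ψ a = x ∧ ψ b = y) ∧ enc ψ = a) ?_ ?_
  · intro G' hG'
    rw [Finset.mem_filter] at hG'
    obtain ⟨e⟩ := hG'.2
    have hinj : Function.Injective (fun u => ((e u : G'.verts) : V)) := by
      intro a b hab
      exact e.injective (Subtype.ext hab)
    have hhom : ∀ a b, F.Adj a b → G.Adj ((e a : G'.verts) : V) ((e b : G'.verts) : V) := by
      intro a b hab
      have : G'.coe.Adj (e a) (e b) := e.map_rel_iff.mpr hab
      exact G'.adj_sub this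
    refine ⟨enc (fun u => ((e u : G'.verts) : V)), h1 _ hinj hhom, _, hinj, hhom, ?_, ?_, rfl⟩
    · ext x
      constructor
      · rintro ⟨u, rfl⟩
        exact (e u).2
      · intro hx
        refine ⟨e.symm ⟨x, hx⟩, ?_⟩
        simp
    · intro x y
      constructor
      · intro hxy
        have hx : x ∈ G'.verts := G'.edge_vert hxy
        have hy : y ∈ G'.verts := G'.edge_vert hxy.symm
        refine ⟨e.symm ⟨x, hx⟩, e.symm ⟨y, hy⟩, ?_, by simp, by simp⟩
        have : G'.coe.Adj ⟨x, hx⟩ ⟨y, hy⟩ := hxy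
        exact e.symm.map_rel_iff.mpr this
      · rintro ⟨a, b, hab, rfl, rfl⟩
        have : G'.coe.Adj (e a) (e b) := e.map_rel_iff.mpr hab
        exact this
  · intro b _ G₁ hG₁ G₂ hG₂
    obtain ⟨-, ψ₁, hi₁, hh₁, hr₁, ha₁, he₁⟩ := hG₁
    obtain ⟨-, ψ₂, hi₂, hh₂, hr₂, ha₂, he₂⟩ := hG₂
    obtain ⟨hr, ha⟩ := h2 ψ₁ ψ₂ hi₁ hi₂ hh₁ hh₂ (he₁.trans he₂.symm)
    apply SimpleGraph.Subgraph.ext
    · rw [← hr₁, ← hr₂, hr]
    · funext x y
      apply propext
      rw [ha₁, ha₂]
      exact ha x y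

/-- Copy counts are monotone along injective homomorphisms of the host graph. -/
theorem copyCount_le_of_copy {V : Type u} {V' : Type v} {U : Type w} [Fintype V] [Fintype V']
    {G : SimpleGraph V} {G' : SimpleGraph V'} (f : SimpleGraph.Copy G G') (F : SimpleGraph U) :
    G.copyCount F ≤ G'.copyCount F := by
  classical
  rw [SimpleGraph.copyCount, SimpleGraph.copyCount]
  apply Finset.card_le_card_of_injOn (fun K : G.Subgraph => K.map f.toHom)
  · intro K hK
    have hK' := (Finset.mem_filter.mp (Finset.mem_coe.mp hK)).2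
    obtain ⟨e⟩ := hK'
    apply Finset.mem_coe.mpr
    apply Finset.mem_filter.mpr
    exact ⟨Finset.mem_univ _, ⟨e.trans (f.isoSubgraphMap K)⟩⟩
  · intro K₁ _ K₂ _ h
    have hv : f '' K₁.verts = f '' K₂.verts := by
      have := congrArg SimpleGraph.Subgraph.verts h
      simpa using this
    have hadj : ∀ (A B : G.Subgraph), A.map f.toHom = B.map f.toHom →
        ∀ x y, A.Adj x y → B.Adj x y := by
      intro A B hAB x y hxy
      have h1 : (A.map f.toHom).Adj (f x) (f y) := ⟨x, y, hxy, rfl, rfl⟩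
      rw [hAB] at h1
      obtain ⟨x', y', hxy', hx', hy'⟩ := h1
      have hx'' : x' = x := f.injective hx'
      have hy'' : y' = y := f.injective hy'
      rw [← hx'', ← hy'']
      exact hxy'
    apply SimpleGraph.Subgraph.ext
    · exact Set.image_injective.mpr f.injective hv
    · funext x y
      exact propext ⟨hadj K₁ K₂ h x y, hadj K₂ K₁ h.symm x y⟩

/-- A lower bound on the number of copies from an injective family of copies. -/
theorem card_le_copyCount {V : Type u} {U : Type v} {ι : Type w} [Fintype V]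
    (G : SimpleGraph V) (F : SimpleGraph U) (s : Finset ι) (g : ι → G.Subgraph)
    (hg : ∀ i ∈ s, Nonempty (F ≃g (g i).coe)) (hinj : Set.InjOn g s) :
    s.card ≤ G.copyCount F := by
  classical
  rw [SimpleGraph.copyCount]
  apply Finset.card_le_card_of_injOn g
  · intro i hi
    apply Finset.mem_coe.mpr
    apply Finset.mem_filter.mpr
    exact ⟨Finset.mem_univ _, hg i (Finset.mem_coe.mp hi)⟩
  · exact hinj

end Vale.Agent.Lib.P064
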