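import Mathlib

namespace Vale.Agent.Lib.P064

open Finset

/-- The set of vertices covered by a finite set of pairs. -/
def vsupp {W : Type*} (A : Finset (Sym2 W)) : Set W := {w | ∃ e ∈ A, w ∈ e}

theorem sym2_map_injOn {W V : Type*} (ψ : W → V) (X : Set W) (hψ : Set.InjOn ψ X) :
    Set.InjOn (Sym2.map ψ) {e : Sym2 W | ∀ w ∈ e, w ∈ X} := by
  intro e he e' he' h
  induction e using Sym2.inductionOn with
  | hf a b =>
    induction e' using Sym2.inductionOn with
    | hf c d =>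
      have ha : a ∈ X := he a (Sym2.mem_mk_left a b)
      have hb : b ∈ X := he b (Sym2.mem_mk_right a b)
      have hc : c ∈ X := he' c (Sym2.mem_mk_left c d)
      have hd : d ∈ X := he' d (Sym2.mem_mk_right c d)
      rw [Sym2.map_mk, Sym2.map_mk, Sym2.eq_iff] at h
      rcases h with ⟨h1, h2⟩ | ⟨h1, h2⟩
      · rw [hψ ha hc h1, hψ hb hd h2]
      · rw [hψ ha hd h1, hψ hb hc h2]
        exact Sym2.eq_swap

theorem sym2_map_injOn_vsupp {W V : Type*} (ψ : W → V) (A : Finset (Sym2 W))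
    (hψ : Set.InjOn ψ (vsupp A)) : Set.InjOn (Sym2.map ψ) (A : Set (Sym2 W)) := by
  intro e he e' he' h
  apply sym2_map_injOn ψ (vsupp A) hψ _ _ h
  · intro w hw
    exact ⟨e, he, hw⟩
  · intro w hw
    exact ⟨e', he', hw⟩

open Classical in
/-- All images of the edge set `A` under maps into `Fin n` that are injective on the vertices
covered by `A`. -/
noncomputable def ImgE {W : Type*} [Fintype W] (n : ℕ) (A : Finset (Sym2 W)) :
    Finset (Finset (Sym2 (Fin n))) :=
  (Finset.univ.filter (fun ψ : W → Fin n => Set.InjOn ψ (vsupp A))).image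
    (fun ψ => A.image (Sym2.map ψ))

theorem mem_ImgE {W : Type*} [Fintype W] (n : ℕ) (A : Finset (Sym2 W))
    (E : Finset (Sym2 (Fin n))) :
    E ∈ ImgE n A ↔ ∃ ψ : W → Fin n, Set.InjOn ψ (vsupp A) ∧ A.image (Sym2.map ψ) = E := by
  classical
  unfold ImgE
  rw [Finset.mem_image]
  constructor
  · rintro ⟨ψ, hψ, rfl⟩
    exact ⟨ψ, (Finset.mem_filter.mp hψ).2, rfl⟩
  · rintro ⟨ψ, hψ, rfl⟩
    exact ⟨ψ, Finset.mem_filter.mpr ⟨Finset.mem_univ _, hψ⟩, rfl⟩

theorem card_of_mem_ImgE {W : Type*} [Fintype W] (n : ℕ) (A : Finset (Sym2 W))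
    (E : Finset (Sym2 (Fin n))) (h : E ∈ ImgE n A) : E.card = A.card := by
  obtain ⟨ψ, hψ, rfl⟩ := (mem_ImgE n A E).mp h
  exact Finset.card_image_of_injOn (sym2_map_injOn_vsupp ψ A hψ)

theorem ImgE_nonempty {W : Type*} [Fintype W] (n : ℕ) (hW : Fintype.card W ≤ n)
    (A : Finset (Sym2 W)) : (ImgE n A).Nonempty := by
  have h : Fintype.card W ≤ Fintype.card (Fin n) := by
    rw [Fintype.card_fin]
    exact hW
  obtain ⟨f⟩ := Function.Embedding.nonempty_of_card_le h
  exact ⟨_, (mem_ImgE n A _).mpr ⟨f, f.injective.injOn, rfl⟩⟩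

theorem ImgE_subset_of_mem {W : Type*} [Fintype W] (n : ℕ) (A A' : Finset (Sym2 W))
    (E : Finset (Sym2 (Fin n))) (h : E ∈ ImgE n A) (h' : E ∈ ImgE n A') :
    ImgE n A ⊆ ImgE n A' := by
  classical
  obtain ⟨ψ₁, hψ₁, h1⟩ := (mem_ImgE n A E).mp h
  obtain ⟨ψ₂, hψ₂, h2⟩ := (mem_ImgE n A' E).mp h'
  -- every vertex covered by `A'` has a partner covered by `A`
  have hex : ∀ w ∈ vsupp A', ∃ x ∈ vsupp A, ψ₁ x = ψ₂ w := by
    rintro w ⟨e, he, hw⟩
    have hmem : Sym2.map ψ₂ e ∈ A.image (Sym2.map ψ₁) := by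
      rw [h1, ← h2]
      exact Finset.mem_image_of_mem _ he
    obtain ⟨e₁, he₁, heq⟩ := Finset.mem_image.mp hmem
    have hw' : ψ₂ w ∈ Sym2.map ψ₁ e₁ := by
      rw [heq]
      exact Sym2.mem_map.mpr ⟨w, hw, rfl⟩
    obtain ⟨x, hx, hxw⟩ := Sym2.mem_map.mp hw'
    exact ⟨x, ⟨e₁, he₁, hx⟩, hxw⟩
  let θ : W → W := fun w => if hw : ∃ x ∈ vsupp A, ψ₁ x = ψ₂ w then hw.choose else w
  have hθ : ∀ w ∈ vsupp A', θ w ∈ vsupp A ∧ ψ₁ (θ w) = ψ₂ w := by
    intro w hw
    have hw' := hex w hw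
    have : θ w = hw'.choose := dif_pos hw'
    rw [this]
    exact hw'.choose_spec
  have hθinj : Set.InjOn θ (vsupp A') := by
    intro w hw w' hw' hww
    apply hψ₂ hw hw'
    rw [← (hθ w hw).2, ← (hθ w' hw').2, hww]
  have hθmem : ∀ e ∈ A', ∀ x ∈ Sym2.map θ e, x ∈ vsupp A := by
    intro e he x hx
    obtain ⟨w, hw, rfl⟩ := Sym2.mem_map.mp hx
    exact (hθ w ⟨e, he, hw⟩).1
  have hθmap : ∀ e ∈ A', Sym2.map ψ₁ (Sym2.map θ e) = Sym2.map ψ₂ e := by
    intro e he
    rw [Sym2.map_map]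
    apply Sym2.map_congr
    intro w hw
    exact (hθ w ⟨e, he, hw⟩).2
  have hinj₁ := sym2_map_injOn ψ₁ (vsupp A) hψ₁
  have hAA' : A'.image (Sym2.map θ) = A := by
    apply Finset.Subset.antisymm
    · intro e' he'
      obtain ⟨e, he, rfl⟩ := Finset.mem_image.mp he'
      have hmem : Sym2.map ψ₂ e ∈ A.image (Sym2.map ψ₁) := by
        rw [h1, ← h2]
        exact Finset.mem_image_of_mem _ he
      obtain ⟨e₁, he₁, heq⟩ := Finset.mem_image.mp hmem
      have : e₁ = Sym2.map θ e := by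
        apply hinj₁
        · intro w hw
          exact ⟨e₁, he₁, hw⟩
        · exact hθmem e he
        · rw [heq, hθmap e he]
      rw [← this]
      exact he₁
    · intro e₁ he₁
      have hmem : Sym2.map ψ₁ e₁ ∈ A'.image (Sym2.map ψ₂) := by
        rw [h2, ← h1]
        exact Finset.mem_image_of_mem _ he₁
      obtain ⟨e, he, heq⟩ := Finset.mem_image.mp hmem
      have : e₁ = Sym2.map θ e := by
        apply hinj₁
        · intro w hw
          exact ⟨e₁, he₁, hw⟩
        · exact hθmem e he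
        · rw [← heq, hθmap e he]
      rw [this]
      exact Finset.mem_image_of_mem _ he
  intro E' hE'
  obtain ⟨ψ, hψ, rfl⟩ := (mem_ImgE n A E').mp hE'
  rw [mem_ImgE]
  refine ⟨ψ ∘ θ, ?_, ?_⟩
  · intro w hw w' hw' hww
    apply hθinj hw hw'
    exact hψ (hθ w hw).1 (hθ w' hw').1 hww
  · rw [← hAA', Finset.image_image, Sym2.map_comp]

theorem ImgE_eq_of_mem {W : Type*} [Fintype W] (n : ℕ) (A A' : Finset (Sym2 W))
    (E : Finset (Sym2 (Fin n))) (h : E ∈ ImgE n A) (h' : E ∈ ImgE n A') :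
    ImgE n A = ImgE n A' :=
  Finset.Subset.antisymm (ImgE_subset_of_mem n A A' E h h') (ImgE_subset_of_mem n A' A E h' h)

open Classical in
/-- The edges of `H` with at least one endpoint in `S`. -/
noncomputable def inc {W : Type*} [Fintype W] (H : SimpleGraph W) (S : Finset W) :
    Finset (Sym2 W) :=
  Finset.univ.filter (fun e => e ∈ H.edgeSet ∧ ∃ a ∈ S, a ∈ e)

theorem mem_inc {W : Type*} [Fintype W] (H : SimpleGraph W) (S : Finset W) (e : Sym2 W) :
    e ∈ inc H S ↔ e ∈ H.edgeSet ∧ ∃ a ∈ S, a ∈ e := by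
  classical
  unfold inc
  rw [Finset.mem_filter]
  exact ⟨fun h => h.2, fun h => ⟨Finset.mem_univ _, h⟩⟩

theorem mk_mem_inc {W : Type*} [Fintype W] (H : SimpleGraph W) (S : Finset W) (a b : W) :
    s(a, b) ∈ inc H S ↔ H.Adj a b ∧ (a ∈ S ∨ b ∈ S) := by
  rw [mem_inc, SimpleGraph.mem_edgeSet]
  constructor
  · rintro ⟨hab, x, hx, hxe⟩
    refine ⟨hab, ?_⟩
    rcases Sym2.mem_iff.mp hxe with rfl | rfl
    · exact Or.inl hx
    · exact Or.inr hx
  · rintro ⟨hab, ha | hb⟩
    · exact ⟨hab, a, ha, Sym2.mem_mk_left a b⟩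
    · exact ⟨hab, b, hb, Sym2.mem_mk_right a b⟩

open Classical in
/-- The closed neighbourhood of `S` in `H`. -/
noncomputable def cl {W : Type*} [Fintype W] (H : SimpleGraph W) (S : Finset W) : Finset W :=
  Finset.univ.filter (fun b => b ∈ S ∨ ∃ a ∈ S, H.Adj a b)

theorem mem_cl {W : Type*} [Fintype W] (H : SimpleGraph W) (S : Finset W) (b : W) :
    b ∈ cl H S ↔ b ∈ S ∨ ∃ a ∈ S, H.Adj a b := by
  classical
  unfold cl
  rw [Finset.mem_filter]
  exact ⟨fun h => h.2, fun h => ⟨Finset.mem_univ _, h⟩⟩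

theorem vsupp_inc_subset_cl {W : Type*} [Fintype W] (H : SimpleGraph W) (S : Finset W) :
    vsupp (inc H S) ⊆ (cl H S : Set W) := by
  rintro w ⟨e, he, hw⟩
  induction e using Sym2.inductionOn with
  | hf a b =>
    rw [mk_mem_inc] at he
    rw [Finset.mem_coe, mem_cl]
    rcases Sym2.mem_iff.mp hw with rfl | rfl
    · rcases he.2 with ha | hb
      · exact Or.inl ha
      · exact Or.inr ⟨b, hb, he.1.symm⟩
    · rcases he.2 with ha | hb
      · exact Or.inr ⟨a, ha, he.1⟩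
      · exact Or.inl hb

theorem subset_vsupp_inc {W : Type*} [Fintype W] (H : SimpleGraph W) (S : Finset W)
    (hS : ∀ a ∈ S, ∃ b, H.Adj a b) : (S : Set W) ⊆ vsupp (inc H S) := by
  intro a ha
  obtain ⟨b, hab⟩ := hS a ha
  exact ⟨s(a, b), (mk_mem_inc H S a b).mpr ⟨hab, Or.inl ha⟩, Sym2.mem_mk_left a b⟩

theorem card_cl_le {W : Type*} [Fintype W] (H : SimpleGraph W) (S : Finset W) :
    (cl H S).card ≤ S.card + (inc H S).card := by
  classical
  have hsub : cl H S ⊆ S ∪ (cl H S \ S) := by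
    intro x hx
    by_cases hxS : x ∈ S
    · exact Finset.mem_union_left _ hxS
    · exact Finset.mem_union_right _ (Finset.mem_sdiff.mpr ⟨hx, hxS⟩)
  have h1 : (cl H S \ S).card ≤ (inc H S).card := by
    let f : W → Sym2 W := fun b => if hb : ∃ a ∈ S, H.Adj a b then s(hb.choose, b) else s(b, b)
    apply Finset.card_le_card_of_injOn f
    · intro b hb
      rw [Finset.mem_coe, Finset.mem_sdiff, mem_cl] at hb
      have hb' : ∃ a ∈ S, H.Adj a b := by
        rcases hb.1 with h | h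
        · exact absurd h hb.2
        · exact h
      have hf : f b = s(hb'.choose, b) := dif_pos hb'
      rw [Finset.mem_coe, hf, mk_mem_inc]
      exact ⟨hb'.choose_spec.2, Or.inl hb'.choose_spec.1⟩
    · intro b hb c hc hbc
      rw [Finset.mem_coe, Finset.mem_sdiff, mem_cl] at hb hc
      have hb' : ∃ a ∈ S, H.Adj a b := by
        rcases hb.1 with h | h
        · exact absurd h hb.2
        · exact h
      have hc' : ∃ a ∈ S, H.Adj a c := by
        rcases hc.1 with h | h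
        · exact absurd h hc.2
        · exact h
      have hfb : f b = s(hb'.choose, b) := dif_pos hb'
      have hfc : f c = s(hc'.choose, c) := dif_pos hc'
      rw [hfb, hfc, Sym2.eq_iff] at hbc
      rcases hbc with ⟨-, h2⟩ | ⟨h1, -⟩
      · exact h2
      · exfalso
        apply hc.2
        rw [← h1]
        exact hb'.choose_spec.1
  calc (cl H S).card ≤ (S ∪ (cl H S \ S)).card := Finset.card_le_card hsub
    _ ≤ S.card + (cl H S \ S).card := Finset.card_union_le _ _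
    _ ≤ S.card + (inc H S).card := Nat.add_le_add_left h1 _

end Vale.Agent.Lib.P064
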