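import Mathlib
import Vale.Agent.Lib.P064.Config

namespace Vale.Agent.Lib.P064

open Finset

/-- `S` is connected in `H`, stated through the cut condition. -/
def HConn {W : Type*} (H : SimpleGraph W) (S : Finset W) : Prop :=
  ∀ T : Finset W, T ⊆ S → T.Nonempty → T ≠ S → ∃ a ∈ T, ∃ b ∈ S, b ∉ T ∧ H.Adj a b

theorem count_colourings {W : Type*} [Fintype W] [DecidableEq W] (S C : Finset W) (hSC : S ⊆ C)
    (v₀ : ℕ) (hC : C.card ≤ v₀) :
    2 ^ Fintype.card W
      ≤ ((Finset.univ : Finset W).powerset.filter (fun R => R ∩ C = S)).card * 2 ^ v₀ := by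
  have h1 : ((Finset.univ : Finset W) \ C).powerset.card
      ≤ ((Finset.univ : Finset W).powerset.filter (fun R => R ∩ C = S)).card := by
    apply Finset.card_le_card_of_injOn (fun R' => S ∪ R')
    · intro R' hR'
      rw [Finset.mem_coe, Finset.mem_powerset] at hR'
      rw [Finset.mem_coe, Finset.mem_filter, Finset.mem_powerset]
      refine ⟨Finset.subset_univ _, ?_⟩
      ext x
      simp only [Finset.mem_inter, Finset.mem_union]
      constructor
      · rintro ⟨hx | hx, hxC⟩
        · exact hx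
        · exact absurd hxC (Finset.mem_sdiff.mp (hR' hx)).2
      · intro hx
        exact ⟨Or.inl hx, hSC hx⟩
    · intro R₁ hR₁ R₂ hR₂ h
      rw [Finset.mem_coe, Finset.mem_powerset] at hR₁ hR₂
      have key : ∀ R₁ R₂ : Finset W, R₁ ⊆ Finset.univ \ C → S ∪ R₁ = S ∪ R₂ → R₁ ⊆ R₂ := by
        intro R₁ R₂ hR₁ h x hx
        have hx' : x ∈ S ∪ R₂ := by
          rw [← h]
          exact Finset.mem_union_right _ hx
        rcases Finset.mem_union.mp hx' with hxS | hxR
        · exact absurd (hSC hxS) (Finset.mem_sdiff.mp (hR₁ hx)).2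
        · exact hxR
      exact Finset.Subset.antisymm (key R₁ R₂ hR₁ h) (key R₂ R₁ hR₂ h.symm)
  rw [Finset.card_powerset] at h1
  have h2 : ((Finset.univ : Finset W) \ C).card = Fintype.card W - C.card := by
    rw [Finset.card_sdiff_of_subset (Finset.subset_univ _), Finset.card_univ]
  rw [h2] at h1
  have hCW : C.card ≤ Fintype.card W := Finset.card_le_univ C
  calc 2 ^ Fintype.card W ≤ 2 ^ (Fintype.card W - C.card + v₀) :=
        Nat.pow_le_pow_right (by norm_num) (by omega)
    _ = 2 ^ (Fintype.card W - C.card) * 2 ^ v₀ := by rw [pow_add]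
    _ ≤ _ := Nat.mul_le_mul_right _ h1

theorem good_disjoint {W : Type*} [Fintype W] [DecidableEq W] (H : SimpleGraph W)
    (R S S' : Finset W) (hS : HConn H S) (hS' : HConn H S')
    (hRS : R ∩ cl H S = S) (hRS' : R ∩ cl H S' = S') (hne : S ≠ S') :
    Disjoint (inc H S) (inc H S') := by
  have hSR : ∀ x ∈ S, x ∈ R := by
    intro x hx
    rw [← hRS] at hx
    exact (Finset.mem_inter.mp hx).1
  have hS'R : ∀ x ∈ S', x ∈ R := by
    intro x hx
    rw [← hRS'] at hx
    exact (Finset.mem_inter.mp hx).1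
  have hclS : ∀ x ∈ R, x ∈ cl H S → x ∈ S := by
    intro x hxR hx
    rw [← hRS]
    exact Finset.mem_inter.mpr ⟨hxR, hx⟩
  have hclS' : ∀ x ∈ R, x ∈ cl H S' → x ∈ S' := by
    intro x hxR hx
    rw [← hRS']
    exact Finset.mem_inter.mpr ⟨hxR, hx⟩
  rw [Finset.disjoint_left]
  intro e he he'
  induction e using Sym2.inductionOn with
  | hf x y =>
    rw [mk_mem_inc] at he he'
    obtain ⟨hxy, hS1⟩ := he
    obtain ⟨-, hS2⟩ := he'
    -- a common vertex
    have hcommon : ∃ z, z ∈ S ∧ z ∈ S' := by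
      rcases hS1 with hx | hy
      · refine ⟨x, hx, hclS' x (hSR x hx) ?_⟩
        rw [mem_cl]
        rcases hS2 with hx' | hy'
        · exact Or.inl hx'
        · exact Or.inr ⟨y, hy', hxy.symm⟩
      · refine ⟨y, hy, hclS' y (hSR y hy) ?_⟩
        rw [mem_cl]
        rcases hS2 with hx' | hy'
        · exact Or.inr ⟨x, hx', hxy⟩
        · exact Or.inl hy'
    obtain ⟨z, hzS, hzS'⟩ := hcommon
    have hTne : (S ∩ S').Nonempty := ⟨z, Finset.mem_inter.mpr ⟨hzS, hzS'⟩⟩
    by_cases hT : S ∩ S' = S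
    · have hT' : S ∩ S' ≠ S' := by
        intro h
        exact hne (hT.symm.trans h)
      obtain ⟨a, ha, b, hb, hbT, hab⟩ := hS' (S ∩ S') Finset.inter_subset_right hTne hT'
      apply hbT
      refine Finset.mem_inter.mpr ⟨hclS b (hS'R b hb) ?_, hb⟩
      rw [mem_cl]
      exact Or.inr ⟨a, (Finset.mem_inter.mp ha).1, hab⟩
    · obtain ⟨a, ha, b, hb, hbT, hab⟩ := hS (S ∩ S') Finset.inter_subset_left hTne hT
      apply hbT
      refine Finset.mem_inter.mpr ⟨hb, hclS' b (hSR b hb) ?_⟩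
      rw [mem_cl]
      exact Or.inr ⟨a, (Finset.mem_inter.mp ha).2, hab⟩

theorem exists_edge_disjoint_subfamily {W : Type*} [Fintype W] (H : SimpleGraph W)
    (𝒜 : Finset (Finset W)) (v₀ : ℕ) (hconn : ∀ S ∈ 𝒜, HConn H S)
    (hcl : ∀ S ∈ 𝒜, (cl H S).card ≤ v₀) :
    ∃ Pf : Finset (Finset W), Pf ⊆ 𝒜 ∧
      (∀ S ∈ Pf, ∀ S' ∈ Pf, S ≠ S' → Disjoint (inc H S) (inc H S')) ∧
      𝒜.card ≤ 2 ^ v₀ * Pf.card := by
  classical
  let good : Finset W → Finset (Finset W) := fun R => 𝒜.filter (fun S => R ∩ cl H S = S)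
  have hsum : ∑ R ∈ (Finset.univ : Finset W).powerset, 𝒜.card
      ≤ ∑ R ∈ (Finset.univ : Finset W).powerset, (good R).card * 2 ^ v₀ := by
    rw [Finset.sum_const, Finset.card_powerset, Finset.card_univ, smul_eq_mul, ← Finset.sum_mul]
    have h1 : ∑ R ∈ (Finset.univ : Finset W).powerset, (good R).card
        = ∑ S ∈ 𝒜, ((Finset.univ : Finset W).powerset.filter (fun R => R ∩ cl H S = S)).card := by
      simp only [good, Finset.card_filter]
      exact Finset.sum_comm
    rw [h1, Finset.sum_mul, mul_comm]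
    calc 𝒜.card * 2 ^ Fintype.card W = ∑ S ∈ 𝒜, 2 ^ Fintype.card W := by
          rw [Finset.sum_const, smul_eq_mul]
      _ ≤ _ := by
          apply Finset.sum_le_sum
          intro S hS
          apply count_colourings S (cl H S) _ v₀ (hcl S hS)
          intro x hx
          rw [mem_cl]
          exact Or.inl hx
  obtain ⟨R, -, hR⟩ := Finset.exists_le_of_sum_le
    (Finset.powerset_nonempty (Finset.univ : Finset W)) hsum
  refine ⟨good R, Finset.filter_subset _ _, ?_, ?_⟩
  · intro S hS S' hS' hne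
    have h1 := Finset.mem_filter.mp hS
    have h2 := Finset.mem_filter.mp hS'
    exact good_disjoint H R S S' (hconn S h1.1) (hconn S' h2.1) h1.2 h2.2 hne
  · rw [mul_comm]
    exact hR

end Vale.Agent.Lib.P064
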