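import Mathlib

namespace Vale.Agent.Lib.P064

open Finset

theorem pow_self_le_three_pow_mul_factorial (D : ℕ) : (D : ℝ) ^ D ≤ 3 ^ D * (D.factorial : ℝ) := by
  have h1 := Real.pow_div_factorial_le_exp (D : ℝ) (Nat.cast_nonneg D) D
  have h2 : Real.exp (D : ℝ) ≤ 3 ^ D := by
    have : Real.exp (D : ℝ) = Real.exp 1 ^ D := by
      rw [← Real.exp_nat_mul, mul_one]
    rw [this]
    exact pow_le_pow_left₀ (Real.exp_pos 1).le Real.exp_one_lt_three.le D
  have hpos : (0 : ℝ) < (D.factorial : ℝ) := by exact_mod_cast Nat.factorial_pos D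
  rw [div_le_iff₀ hpos] at h1
  calc (D : ℝ) ^ D ≤ Real.exp D * D.factorial := h1
    _ ≤ 3 ^ D * D.factorial := by gcongr

theorem packing_numeric (N r D : ℕ) (q : ℝ) (hq0 : 0 ≤ q) (hr : 0 < r)
    (h : 1 ≤ (N.choose r : ℝ) * q ^ (r * D)) : (r : ℝ) ≤ 3 * N * q ^ D := by
  have hy : (0 : ℝ) ≤ N * q ^ D := by positivity
  have hfpos : (0 : ℝ) < (r.factorial : ℝ) := by exact_mod_cast Nat.factorial_pos r
  have h1 : (N.choose r : ℝ) ≤ (N : ℝ) ^ r / r.factorial := Nat.choose_le_pow_div r N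
  have h2 : (r.factorial : ℝ) ≤ ((N : ℝ) * q ^ D) ^ r := by
    have h3 : 1 ≤ (N : ℝ) ^ r / r.factorial * q ^ (r * D) :=
      h.trans (mul_le_mul_of_nonneg_right h1 (by positivity))
    have h4 : (N : ℝ) ^ r / r.factorial * q ^ (r * D) = ((N : ℝ) * q ^ D) ^ r / r.factorial := by
      rw [mul_pow, ← pow_mul, mul_comm D r]
      ring
    rw [h4, le_div_iff₀ hfpos, one_mul] at h3
    exact h3
  have h5 : (r : ℝ) ^ r ≤ (3 * N * q ^ D) ^ r := by
    calc (r : ℝ) ^ r ≤ 3 ^ r * r.factorial := pow_self_le_three_pow_mul_factorial r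
      _ ≤ 3 ^ r * ((N : ℝ) * q ^ D) ^ r := by gcongr
      _ = (3 * N * q ^ D) ^ r := by rw [← mul_pow]; ring
  exact (pow_le_pow_iff_left₀ (Nat.cast_nonneg r) (by positivity) hr.ne').mp h5

theorem choose_mul_pow_le (n D : ℕ) (q : ℝ) (hq0 : 0 ≤ q) (hD : 24 * (n : ℝ) * q ≤ D) :
    (n.choose D : ℝ) * q ^ D ≤ (1 / 8 : ℝ) ^ D := by
  have hfpos : (0 : ℝ) < (D.factorial : ℝ) := by exact_mod_cast Nat.factorial_pos D
  have h1 : (n.choose D : ℝ) ≤ (n : ℝ) ^ D / D.factorial := Nat.choose_le_pow_div D n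
  have h2 : (n : ℝ) * q ≤ D / 24 := by linarith
  have h3 : ((n : ℝ) * q) ^ D ≤ ((D : ℝ) / 24) ^ D := pow_le_pow_left₀ (by positivity) h2 D
  calc (n.choose D : ℝ) * q ^ D ≤ (n : ℝ) ^ D / D.factorial * q ^ D := by gcongr
    _ = ((n : ℝ) * q) ^ D / D.factorial := by rw [mul_pow]; ring
    _ ≤ ((D : ℝ) / 24) ^ D / D.factorial := by gcongr
    _ = (D : ℝ) ^ D / (24 ^ D * D.factorial) := by rw [div_pow]; field_simp
    _ ≤ (3 ^ D * D.factorial) / (24 ^ D * D.factorial) := by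
        gcongr
        exact pow_self_le_three_pow_mul_factorial D
    _ = (1 / 8 : ℝ) ^ D := by
        rw [mul_div_mul_right _ _ hfpos.ne', ← div_pow]
        norm_num

theorem factorial_succ_le_pow (t : ℕ) : (t + 1).factorial ≤ (t + 1) ^ t := by
  induction t with
  | zero => simp
  | succ t ih =>
    rw [Nat.factorial_succ]
    calc (t + 1 + 1) * (t + 1).factorial ≤ (t + 1 + 1) * (t + 1) ^ t := Nat.mul_le_mul_left _ ih
      _ ≤ (t + 1 + 1) * (t + 1 + 1) ^ t :=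
          Nat.mul_le_mul_left _ (Nat.pow_le_pow_left (Nat.le_succ _) t)
      _ = (t + 1 + 1) ^ (t + 1) := by ring

theorem one_add_two_mul_pow_le (n t m : ℕ) (q : ℝ) (hq0 : 0 ≤ q) (hm : m ≤ n)
    (hsp : (n : ℝ) * q < t + 1) : (2 * q + 1) ^ m ≤ (9 : ℝ) ^ (t + 1) := by
  have h1 : 2 * q + 1 ≤ Real.exp (2 * q) := Real.add_one_le_exp _
  have h2 : (2 * q + 1) ^ m ≤ Real.exp (2 * q) ^ m := pow_le_pow_left₀ (by positivity) h1 m
  have h3 : Real.exp (2 * q) ^ m = Real.exp (m * (2 * q)) := (Real.exp_nat_mul _ _).symm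
  have h4 : (m : ℝ) * (2 * q) ≤ ((2 * (t + 1) : ℕ) : ℝ) * 1 := by
    have : (m : ℝ) ≤ n := by exact_mod_cast hm
    push_cast
    nlinarith
  have h5 : Real.exp (m * (2 * q)) ≤ Real.exp (((2 * (t + 1) : ℕ) : ℝ) * 1) := Real.exp_le_exp.mpr h4
  have h6 : Real.exp (((2 * (t + 1) : ℕ) : ℝ) * 1) = Real.exp 1 ^ (2 * (t + 1)) := Real.exp_nat_mul _ _
  have h7 : Real.exp 1 ^ (2 * (t + 1)) ≤ (3 : ℝ) ^ (2 * (t + 1)) :=
    pow_le_pow_left₀ (Real.exp_pos 1).le Real.exp_one_lt_three.le _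
  have h8 : (3 : ℝ) ^ (2 * (t + 1)) = 9 ^ (t + 1) := by
    rw [pow_mul]; norm_num
  calc (2 * q + 1) ^ m ≤ Real.exp (2 * q) ^ m := h2
    _ = Real.exp (m * (2 * q)) := h3
    _ ≤ Real.exp (((2 * (t + 1) : ℕ) : ℝ) * 1) := h5
    _ = Real.exp 1 ^ (2 * (t + 1)) := h6
    _ ≤ (3 : ℝ) ^ (2 * (t + 1)) := h7
    _ = 9 ^ (t + 1) := h8

theorem mul_choose_le (n t : ℕ) (htn : t < n) :
    n * n.choose t ≤ (t + 1) * (t + 1) * n.choose (t + 1) := by
  obtain ⟨m, rfl⟩ : ∃ m, n = t + 1 + m := Nat.exists_eq_add_of_le htn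
  have h := Nat.choose_succ_right_eq (t + 1 + m) t
  have h2 : t + 1 + m - t = m + 1 := by omega
  rw [h2] at h
  have h3 : t + 1 + m ≤ (t + 1) * (m + 1) := by nlinarith
  calc (t + 1 + m) * (t + 1 + m).choose t ≤ (t + 1) * (m + 1) * (t + 1 + m).choose t :=
        Nat.mul_le_mul_right _ h3
    _ = (t + 1) * ((t + 1 + m).choose t * (m + 1)) := by ring
    _ = (t + 1) * ((t + 1 + m).choose (t + 1) * (t + 1)) := by rw [h]
    _ = (t + 1) * (t + 1) * (t + 1 + m).choose (t + 1) := by ring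

theorem const_pow_bound (t : ℕ) (ht : 1 ≤ t) :
    27 * ((t : ℝ) + 1) ^ 3 * 9 ^ t ≤ (2000 : ℝ) ^ t := by
  have h1 : ((t : ℝ) + 1) ≤ 2 ^ t := by
    have := Nat.lt_two_pow_self (n := t)
    exact_mod_cast this
  have h2 : ((t : ℝ) + 1) ^ 3 ≤ 8 ^ t := by
    calc ((t : ℝ) + 1) ^ 3 ≤ (2 ^ t) ^ 3 := pow_le_pow_left₀ (by positivity) h1 3
      _ = 8 ^ t := by rw [← pow_mul, mul_comm, pow_mul]; norm_num
  have h3 : (27 : ℝ) ≤ 27 ^ t := by
    calc (27 : ℝ) = 27 ^ 1 := by norm_num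
      _ ≤ 27 ^ t := pow_le_pow_right₀ (by norm_num) ht
  calc 27 * ((t : ℝ) + 1) ^ 3 * 9 ^ t ≤ 27 ^ t * 8 ^ t * 9 ^ t := by gcongr
    _ = (1944 : ℝ) ^ t := by rw [← mul_pow, ← mul_pow]; norm_num
    _ ≤ 2000 ^ t := pow_le_pow_left₀ (by norm_num) (by norm_num) t

theorem sparse_sum (n t : ℕ) (ht : 1 ≤ t) (q : ℝ) (hq0 : 0 ≤ q) (hsp : (n : ℝ) * q < t + 1)
    (a : ℕ → ℕ) (ha : ∀ D, (a D : ℝ) ≤ 3 * (D + 1) * (n * n.choose D) * q ^ D) :
    ∑ D ∈ range n, (a D : ℝ) * (D.choose t) ≤ (n.choose (t + 1) : ℝ) * (2000 * q) ^ t := by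
  rcases Nat.lt_or_ge t n with htn | htn
  swap
  · have h0 : ∑ D ∈ range n, (a D : ℝ) * (D.choose t) = 0 := by
      apply Finset.sum_eq_zero
      intro D hD
      rw [Finset.mem_range] at hD
      rw [Nat.choose_eq_zero_of_lt (lt_of_lt_of_le hD htn)]
      simp
    rw [h0]
    positivity
  · set K : ℝ := 3 * n * (t + 1) * (n.choose t) * q ^ t with hK
    have hK0 : 0 ≤ K := by positivity
    have hterm : ∀ D, t ≤ D → (a D : ℝ) * (D.choose t) ≤
        K * ((n - t).choose (D - t) * (2 * q) ^ (D - t)) := by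
      intro D htD
      have h1 := ha D
      have h2 : (n.choose D : ℝ) * (D.choose t) = (n.choose t : ℝ) * ((n - t).choose (D - t)) := by
        exact_mod_cast Nat.choose_mul htD
      have h3 : ((D : ℝ) + 1) ≤ (t + 1) * 2 ^ (D - t) := by
        have h4 : (D - t) + 1 ≤ 2 ^ (D - t) := Nat.lt_two_pow_self
        have h5 : D + 1 ≤ (t + 1) * 2 ^ (D - t) := by
          calc D + 1 ≤ (t + 1) * ((D - t) + 1) := by
                have : D = t + (D - t) := by omega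
                nlinarith [Nat.zero_le (t * (D - t))]
            _ ≤ (t + 1) * 2 ^ (D - t) := Nat.mul_le_mul_left _ h4
        exact_mod_cast h5
      have h5 : q ^ D = q ^ t * q ^ (D - t) := by
        rw [← pow_add]
        congr 1
        omega
      calc (a D : ℝ) * (D.choose t)
          ≤ (3 * (D + 1) * (n * n.choose D) * q ^ D) * (D.choose t) := by gcongr
        _ = 3 * (D + 1) * n * ((n.choose D : ℝ) * (D.choose t)) * q ^ D := by ring
        _ = 3 * (D + 1) * n * ((n.choose t : ℝ) * ((n - t).choose (D - t)))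
              * (q ^ t * q ^ (D - t)) := by rw [h2, h5]
        _ ≤ 3 * ((t + 1) * 2 ^ (D - t)) * n * ((n.choose t : ℝ) * ((n - t).choose (D - t)))
              * (q ^ t * q ^ (D - t)) := by gcongr
        _ = K * ((n - t).choose (D - t) * (2 * q) ^ (D - t)) := by rw [hK, mul_pow]; ring
    have hsplit : ∑ D ∈ range n, (a D : ℝ) * (D.choose t)
        = ∑ D ∈ Ico t n, (a D : ℝ) * (D.choose t) := by
      rw [Finset.range_eq_Ico, ← Finset.sum_Ico_consecutive _ (Nat.zero_le t) htn.le]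
      have h0 : ∑ D ∈ Ico 0 t, (a D : ℝ) * (D.choose t) = 0 := by
        apply Finset.sum_eq_zero
        intro D hD
        rw [Finset.mem_Ico] at hD
        rw [Nat.choose_eq_zero_of_lt hD.2]
        simp
      rw [h0, zero_add]
    have hsum : ∑ D ∈ Ico t n, (a D : ℝ) * (D.choose t) ≤ K * (2 * q + 1) ^ (n - t) := by
      calc ∑ D ∈ Ico t n, (a D : ℝ) * (D.choose t)
          ≤ ∑ D ∈ Ico t n, K * ((n - t).choose (D - t) * (2 * q) ^ (D - t)) := by
            apply Finset.sum_le_sum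
            intro D hD
            exact hterm D (Finset.mem_Ico.mp hD).1
        _ = ∑ j ∈ range (n - t), K * ((n - t).choose j * (2 * q) ^ j) := by
            rw [Finset.sum_Ico_eq_sum_range]
            apply Finset.sum_congr rfl
            intro j _
            rw [Nat.add_sub_cancel_left]
        _ ≤ ∑ j ∈ range (n - t + 1), K * ((n - t).choose j * (2 * q) ^ j) := by
            apply Finset.sum_le_sum_of_subset_of_nonneg
            · exact Finset.range_mono (Nat.le_succ _)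
            · intro j _ _
              positivity
        _ = K * (2 * q + 1) ^ (n - t) := by
            rw [add_pow, Finset.mul_sum]
            apply Finset.sum_congr rfl
            intro j _
            rw [one_pow]
            ring
    have h9 : (2 * q + 1) ^ (n - t) ≤ (9 : ℝ) ^ (t + 1) :=
      one_add_two_mul_pow_le n t (n - t) q hq0 (Nat.sub_le n t) hsp
    have hnat : ((n : ℝ)) * (n.choose t) ≤ ((t : ℝ) + 1) * (t + 1) * (n.choose (t + 1)) := by
      exact_mod_cast mul_choose_le n t htn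
    have hconst := const_pow_bound t ht
    rw [hsplit]
    calc ∑ D ∈ Ico t n, (a D : ℝ) * (D.choose t) ≤ K * (2 * q + 1) ^ (n - t) := hsum
      _ ≤ K * 9 ^ (t + 1) := by gcongr
      _ = 3 * (t + 1) * ((n : ℝ) * (n.choose t)) * q ^ t * 9 ^ (t + 1) := by rw [hK]; ring
      _ ≤ 3 * (t + 1) * (((t : ℝ) + 1) * (t + 1) * (n.choose (t + 1))) * q ^ t * 9 ^ (t + 1) := by
          gcongr
      _ = (n.choose (t + 1) : ℝ) * q ^ t * (27 * ((t : ℝ) + 1) ^ 3 * 9 ^ t) := by ring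
      _ ≤ (n.choose (t + 1) : ℝ) * q ^ t * 2000 ^ t := by gcongr
      _ = (n.choose (t + 1) : ℝ) * (2000 * q) ^ t := by rw [mul_pow]; ring

theorem dense_const_bound (t : ℕ) (ht : 1 ≤ t) (x : ℝ) (hx : (t : ℝ) + 1 ≤ x) :
    ((t : ℝ) + 1) * (25 * x) ^ t + 6 * ((t + 1).factorial : ℝ) ≤ (1 / 2) * (1000 * x) ^ t := by
  have hx0 : (0 : ℝ) ≤ x := by linarith [Nat.cast_nonneg (α := ℝ) t]
  have h1 : ((t : ℝ) + 1) ≤ 2 ^ t := by
    have := Nat.lt_two_pow_self (n := t)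
    exact_mod_cast this
  have h2 : ((t + 1).factorial : ℝ) ≤ x ^ t := by
    have h3 : ((t + 1).factorial : ℝ) ≤ ((t : ℝ) + 1) ^ t := by
      exact_mod_cast factorial_succ_le_pow t
    exact h3.trans (pow_le_pow_left₀ (by positivity) hx t)
  have h4 : ((t : ℝ) + 1) * (25 * x) ^ t ≤ (50 * x) ^ t := by
    calc ((t : ℝ) + 1) * (25 * x) ^ t ≤ 2 ^ t * (25 * x) ^ t := by gcongr
      _ = (50 * x) ^ t := by rw [← mul_pow]; ring_nf
  have h5 : x ^ t ≤ (50 * x) ^ t := pow_le_pow_left₀ hx0 (by linarith) t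
  have h6 : (7 : ℝ) ≤ 10 ^ t := by
    calc (7 : ℝ) ≤ 10 ^ 1 := by norm_num
      _ ≤ 10 ^ t := pow_le_pow_right₀ (by norm_num) ht
  have h7 : (2 : ℝ) ≤ 2 ^ t := by
    calc (2 : ℝ) = 2 ^ 1 := by norm_num
      _ ≤ 2 ^ t := pow_le_pow_right₀ (by norm_num) ht
  have h8 : (0 : ℝ) ≤ (50 * x) ^ t := by positivity
  have h9 : (1000 * x) ^ t = 2 ^ t * (10 ^ t * (50 * x) ^ t) := by
    rw [← mul_pow, ← mul_pow]; ring_nf
  rw [h9]
  have h10 : 7 * (50 * x) ^ t ≤ 10 ^ t * (50 * x) ^ t := by gcongr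
  have h11 : (0 : ℝ) ≤ 10 ^ t * (50 * x) ^ t := by positivity
  nlinarith

theorem dense_sum (n t : ℕ) (ht : 1 ≤ t) (q : ℝ) (hq0 : 0 ≤ q) (hLq : 2000 * q < 1)
    (hd : (t : ℝ) + 1 ≤ n * q) (a : ℕ → ℕ) (hsum : ∑ D ∈ range n, a D ≤ n)
    (ha : ∀ D, (a D : ℝ) ≤ 3 * (D + 1) * (n * n.choose D) * q ^ D) :
    ∑ D ∈ range n, (a D : ℝ) * (D.choose t) ≤ (n.choose (t + 1) : ℝ) * (2000 * q) ^ t := by
  set x : ℝ := (n : ℝ) * q with hx
  have ht0 : (0 : ℝ) ≤ t := Nat.cast_nonneg t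
  have hx1 : (1 : ℝ) ≤ x := by linarith
  have hx0 : (0 : ℝ) ≤ x := by linarith
  have hn0 : (0 : ℝ) ≤ n := Nat.cast_nonneg n
  have hnpos : (0 : ℝ) < n := by
    rcases hn0.lt_or_eq with h | h
    · exact h
    · rw [hx, ← h, zero_mul] at hx1
      linarith
  have hnbig : 2000 * ((t : ℝ) + 1) < n := by
    have h1 : 2000 * ((t : ℝ) + 1) ≤ n * (2000 * q) := by nlinarith
    have h2 : (n : ℝ) * (2000 * q) < n * 1 := by
      apply mul_lt_mul_of_pos_left hLq hnpos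
    linarith
  set M : ℕ := ⌈24 * x⌉₊ with hM
  have hM1 : 24 * x ≤ M := Nat.le_ceil _
  have hM2 : (M : ℝ) < 24 * x + 1 := Nat.ceil_lt_add_one (by positivity)
  have hterm : ∀ D, (a D : ℝ) * (D.choose t) ≤ (a D : ℝ) * (M.choose t) + 3 * n * (1 / 2 : ℝ) ^ D := by
    intro D
    have haD0 : (0 : ℝ) ≤ a D := Nat.cast_nonneg _
    by_cases hDM : D ≤ M
    · have h1 : (D.choose t : ℝ) ≤ (M.choose t : ℝ) := by
        exact_mod_cast Nat.choose_le_choose t hDM
      have h2 : (0 : ℝ) ≤ 3 * n * (1 / 2 : ℝ) ^ D := by positivity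
      nlinarith [mul_le_mul_of_nonneg_left h1 haD0]
    · have hMD : (M : ℝ) ≤ D := by
        have : M ≤ D := by omega
        exact_mod_cast this
      have hD : 24 * (n : ℝ) * q ≤ D := by
        have : 24 * (n : ℝ) * q = 24 * x := by rw [hx]; ring
        rw [this]
        linarith
      have h1 := choose_mul_pow_le n D q hq0 hD
      have h2 : (D.choose t : ℝ) ≤ 2 ^ D := by
        exact_mod_cast Nat.choose_le_two_pow D t
      have h3 : ((D : ℝ) + 1) ≤ 2 ^ D := by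
        have := Nat.lt_two_pow_self (n := D)
        exact_mod_cast this
      have h4 : (a D : ℝ) ≤ 3 * (D + 1) * n * (1 / 8 : ℝ) ^ D := by
        calc (a D : ℝ) ≤ 3 * (D + 1) * (n * n.choose D) * q ^ D := ha D
          _ = 3 * (D + 1) * n * ((n.choose D : ℝ) * q ^ D) := by ring
          _ ≤ 3 * (D + 1) * n * (1 / 8 : ℝ) ^ D := by gcongr
      have h5 : (0 : ℝ) ≤ (a D : ℝ) * (M.choose t) := by positivity
      calc (a D : ℝ) * (D.choose t) ≤ (3 * (D + 1) * n * (1 / 8 : ℝ) ^ D) * 2 ^ D := by gcongr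
        _ ≤ (3 * 2 ^ D * n * (1 / 8 : ℝ) ^ D) * 2 ^ D := by gcongr
        _ = 3 * n * ((2 * (1 / 8) * 2 : ℝ)) ^ D := by rw [mul_pow, mul_pow]; ring
        _ = 3 * n * (1 / 2 : ℝ) ^ D := by norm_num
        _ ≤ (a D : ℝ) * (M.choose t) + 3 * n * (1 / 2 : ℝ) ^ D := by linarith
  have hgeo : ∑ D ∈ range n, (1 / 2 : ℝ) ^ D ≤ 2 := sum_geometric_two_le n
  have hsumR : (∑ D ∈ range n, (a D : ℝ)) ≤ n := by exact_mod_cast hsum
  have hMt : (M.choose t : ℝ) ≤ (25 * x) ^ t / t.factorial := by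
    have h1 : (M.choose t : ℝ) ≤ (M : ℝ) ^ t / t.factorial := Nat.choose_le_pow_div t M
    have h2 : (M : ℝ) ≤ 25 * x := by linarith
    have h3 : (M : ℝ) ^ t ≤ (25 * x) ^ t := pow_le_pow_left₀ (Nat.cast_nonneg M) h2 t
    exact h1.trans (by gcongr)
  have hupper : ∑ D ∈ range n, (a D : ℝ) * (D.choose t)
      ≤ n * ((25 * x) ^ t / t.factorial) + 6 * n := by
    calc ∑ D ∈ range n, (a D : ℝ) * (D.choose t)
        ≤ ∑ D ∈ range n, ((a D : ℝ) * (M.choose t) + 3 * n * (1 / 2 : ℝ) ^ D) :=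
          Finset.sum_le_sum (fun D _ => hterm D)
      _ = (∑ D ∈ range n, (a D : ℝ)) * (M.choose t) + 3 * n * ∑ D ∈ range n, (1 / 2 : ℝ) ^ D := by
          rw [Finset.sum_add_distrib, Finset.sum_mul, Finset.mul_sum]
      _ ≤ n * ((25 * x) ^ t / t.factorial) + 3 * n * 2 := by gcongr
      _ = n * ((25 * x) ^ t / t.factorial) + 6 * n := by ring
  have htn : t ≤ n := by
    have : (t : ℝ) ≤ n := by nlinarith
    exact_mod_cast this
  have hlower : ((n : ℝ) / 2) ^ (t + 1) / (t + 1).factorial ≤ (n.choose (t + 1) : ℝ) := by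
    have h1 := Nat.pow_le_choose (α := ℝ) (t + 1) n
    have h2 : ((n + 1 - (t + 1) : ℕ) : ℝ) = (n : ℝ) - t := by
      have : n + 1 - (t + 1) = n - t := by omega
      rw [this, Nat.cast_sub htn]
    rw [h2] at h1
    have h3 : (n : ℝ) / 2 ≤ (n : ℝ) - t := by nlinarith
    have h4 : ((n : ℝ) / 2) ^ (t + 1) ≤ ((n : ℝ) - t) ^ (t + 1) :=
      pow_le_pow_left₀ (by positivity) h3 _
    exact le_trans (by gcongr) h1
  have hfpos : (0 : ℝ) < (t.factorial : ℝ) := by exact_mod_cast Nat.factorial_pos t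
  have hf1pos : (0 : ℝ) < ((t + 1).factorial : ℝ) := by exact_mod_cast Nat.factorial_pos (t + 1)
  have hfs : ((t + 1).factorial : ℝ) = ((t : ℝ) + 1) * t.factorial := by
    rw [Nat.factorial_succ]; push_cast; ring
  have hconst := dense_const_bound t ht x hd
  have hfinal : n * ((25 * x) ^ t / t.factorial) + 6 * n
      ≤ ((n : ℝ) / 2) ^ (t + 1) / (t + 1).factorial * (2000 * q) ^ t := by
    have e1 : ((n : ℝ) / 2) ^ (t + 1) / (t + 1).factorial * (2000 * q) ^ t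
        = (n / 2) * (1000 * x) ^ t / (t + 1).factorial := by
      rw [hx, pow_succ]
      have : (1000 * ((n : ℝ) * q)) ^ t = ((n : ℝ) / 2) ^ t * (2000 * q) ^ t := by
        rw [← mul_pow]; ring_nf
      rw [this]; ring
    have e2 : n * ((25 * x) ^ t / t.factorial) + 6 * n
        = n * (((t : ℝ) + 1) * (25 * x) ^ t + 6 * (t + 1).factorial) / (t + 1).factorial := by
      rw [hfs]
      field_simp
    rw [e1, e2]
    apply div_le_div_of_nonneg_right _ hf1pos.le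
    have : (n : ℝ) * (((t : ℝ) + 1) * (25 * x) ^ t + 6 * (t + 1).factorial)
        ≤ n * ((1 / 2) * (1000 * x) ^ t) := by gcongr
    linarith
  calc ∑ D ∈ range n, (a D : ℝ) * (D.choose t)
      ≤ n * ((25 * x) ^ t / t.factorial) + 6 * n := hupper
    _ ≤ ((n : ℝ) / 2) ^ (t + 1) / (t + 1).factorial * (2000 * q) ^ t := hfinal
    _ ≤ (n.choose (t + 1) : ℝ) * (2000 * q) ^ t := by gcongr

theorem star_numeric (n t : ℕ) (ht : 1 ≤ t) (q : ℝ) (hq0 : 0 ≤ q) (hLq : 2000 * q < 1)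
    (a : ℕ → ℕ) (hsum : ∑ D ∈ range n, a D ≤ n)
    (ha : ∀ D, (a D : ℝ) ≤ 3 * (D + 1) * (n * n.choose D) * q ^ D) :
    ∑ D ∈ range n, (a D : ℝ) * (D.choose t) ≤ (n.choose (t + 1) : ℝ) * (2000 * q) ^ t := by
  rcases lt_or_ge ((n : ℝ) * q) ((t : ℝ) + 1) with h | h
  · exact sparse_sum n t ht q hq0 h a ha
  · exact dense_sum n t ht q hq0 hLq h a hsum ha

end Vale.Agent.Lib.P064
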