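import Mathlib
import Vale.Agent.Lib.P064.Counting

namespace Vale.Agent.Lib.P064

open Finset

theorem exists_indep_subset {W : Type*} [Fintype W] [DecidableEq W] (H : SimpleGraph W)
    [DecidableRel H.Adj] (D : ℕ) :
    ∀ S : Finset W, (∀ v ∈ S, H.degree v ≤ D) →
      ∃ I : Finset W, I ⊆ S ∧ (∀ u ∈ I, ∀ v ∈ I, ¬ H.Adj u v) ∧ S.card ≤ (D + 1) * I.card := by
  intro S
  induction S using Finset.strongInduction with
  | H S ih =>
    intro hS
    rcases S.eq_empty_or_nonempty with rfl | ⟨v, hv⟩
    · exact ⟨∅, Finset.Subset.refl _, by simp, by simp⟩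
    · set T : Finset W := insert v (H.neighborFinset v) with hT
      have hTcard : T.card ≤ D + 1 := by
        rw [hT]
        refine (Finset.card_insert_le _ _).trans ?_
        rw [SimpleGraph.card_neighborFinset_eq_degree]
        exact Nat.succ_le_succ (hS v hv)
      have hss : S \ T ⊂ S := by
        refine ⟨Finset.sdiff_subset, ?_⟩
        intro h
        have := h hv
        rw [Finset.mem_sdiff] at this
        exact this.2 (Finset.mem_insert_self _ _)
      obtain ⟨I', hI'S, hI'ind, hI'card⟩ := ih (S \ T) hss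
        (fun u hu => hS u (Finset.mem_sdiff.mp hu).1)
      have hvI' : v ∉ I' := by
        intro h
        have := hI'S h
        rw [Finset.mem_sdiff] at this
        exact this.2 (Finset.mem_insert_self _ _)
      have hnadj : ∀ u ∈ I', ¬ H.Adj v u := by
        intro u hu hadj
        have := hI'S hu
        rw [Finset.mem_sdiff] at this
        apply this.2
        rw [hT, Finset.mem_insert]
        right
        rw [SimpleGraph.mem_neighborFinset]
        exact hadj
      refine ⟨insert v I', ?_, ?_, ?_⟩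
      · intro u hu
        rw [Finset.mem_insert] at hu
        rcases hu with rfl | hu
        · exact hv
        · exact (Finset.mem_sdiff.mp (hI'S hu)).1
      · intro a ha b hb
        rw [Finset.mem_insert] at ha hb
        rcases ha with rfl | ha <;> rcases hb with rfl | hb
        · exact H.irrefl
        · exact hnadj b hb
        · exact fun h => hnadj a ha h.symm
        · exact hI'ind a ha b hb
      · rw [Finset.card_insert_of_notMem hvI']
        have h1 : S.card ≤ (S \ T).card + T.card := by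
          have := Finset.card_le_card (Finset.subset_union_left (s₁ := S) (s₂ := T))
          have h2 : S ∪ T = (S \ T) ∪ T := by
            ext x
            simp only [Finset.mem_union, Finset.mem_sdiff]
            tauto
          rw [h2] at this
          exact this.trans (Finset.card_union_le _ _)
        calc S.card ≤ (S \ T).card + T.card := h1
          _ ≤ (D + 1) * I'.card + (D + 1) := Nat.add_le_add hI'card hTcard
          _ = (D + 1) * (I'.card + 1) := by ring

/-- The union of the full stars of `H` centred at the vertices of `I`. -/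
def starUnion {W : Type*} (H : SimpleGraph W) (I : Set W) : H.Subgraph where
  verts := {v | v ∈ I ∨ ∃ i ∈ I, H.Adj i v}
  Adj u v := H.Adj u v ∧ (u ∈ I ∨ v ∈ I)
  adj_sub h := h.1
  edge_vert := by
    rintro u v ⟨hadj, hu | hv⟩
    · exact Or.inl hu
    · exact Or.inr ⟨v, hv, hadj.symm⟩
  symm := ⟨fun u v h => ⟨h.1.symm, h.2.symm⟩⟩

theorem starUnion_edge_count {W : Type*} [Fintype W] [DecidableEq W] (H : SimpleGraph W)
    [DecidableRel H.Adj] (I : Finset W) (D : ℕ) (hdeg : ∀ i ∈ I, H.degree i = D)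
    (hind : ∀ u ∈ I, ∀ v ∈ I, ¬ H.Adj u v) :
    I.card * D ≤ (starUnion H (I : Set W)).coe.edgeSet.ncard := by
  classical
  have h1 : (starUnion H (I : Set W)).coe.edgeSet.ncard = (starUnion H (I : Set W)).edgeSet.ncard := by
    rw [← SimpleGraph.Subgraph.image_coe_edgeSet_coe]
    rw [Set.ncard_image_of_injective]
    exact Sym2.map.injective Subtype.val_injective
  rw [h1]
  have h2 : (I.sigma (fun i => H.neighborFinset i)).card = I.card * D := by
    rw [Finset.card_sigma, Finset.sum_congr rfl (fun i hi => by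
      rw [SimpleGraph.card_neighborFinset_eq_degree, hdeg i hi]), Finset.sum_const, smul_eq_mul]
  rw [← h2, ← Set.ncard_coe_finset]
  apply Set.ncard_le_ncard_of_injOn (fun p : Σ _ : W, W => s(p.1, p.2))
  · rintro ⟨i, u⟩ hp
    simp only [Finset.coe_sigma, Set.mem_sigma_iff, Finset.mem_coe, SimpleGraph.mem_neighborFinset] at hp
    rw [SimpleGraph.Subgraph.mem_edgeSet]
    exact ⟨hp.2, Or.inl hp.1⟩
  · rintro ⟨i, u⟩ hp ⟨i', u'⟩ hp' heq
    simp only [Finset.coe_sigma, Set.mem_sigma_iff, Finset.mem_coe, SimpleGraph.mem_neighborFinset] at hp hp'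
    simp only [Sym2.eq, Sym2.rel_iff', Prod.mk.injEq, Prod.swap_prod_mk] at heq
    rcases heq with ⟨rfl, rfl⟩ | ⟨rfl, rfl⟩
    · rfl
    · exact absurd hp.2 (hind _ hp.1 _ hp'.1)

theorem starUnion_copyCount_le {W : Type*} [Fintype W] [DecidableEq W] (H : SimpleGraph W)
    [DecidableRel H.Adj] (I : Finset W) (D n : ℕ) (hdeg : ∀ i ∈ I, H.degree i = D) :
    (⊤ : SimpleGraph (Fin n)).copyCount (starUnion H (I : Set W)).coe
      ≤ (n * n.choose D).choose I.card := by
  classical
  have hcard : (powersetCard I.card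
      ((Finset.univ : Finset (Fin n)) ×ˢ powersetCard D (Finset.univ : Finset (Fin n)))).card
      = (n * n.choose D).choose I.card := by
    rw [Finset.card_powersetCard, Finset.card_product, Finset.card_powersetCard, Finset.card_univ,
      Fintype.card_fin]
  rw [← hcard]
  set F := starUnion H (I : Set W) with hF
  let cen : Finset F.verts := Finset.univ.filter (fun a : F.verts => (a : W) ∈ I)
  let nb : F.verts → Finset F.verts := fun a => Finset.univ.filter (fun c : F.verts => H.Adj a c)
  have hcen : cen.card = I.card := by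
    apply Finset.card_bij (fun (a : F.verts) (_ : a ∈ cen) => (a : W))
    · intro a ha
      exact (Finset.mem_filter.mp ha).2
    · intro a _ b _ hab
      exact Subtype.ext hab
    · intro i hi
      exact ⟨⟨i, Or.inl (Finset.mem_coe.mpr hi)⟩, Finset.mem_filter.mpr ⟨Finset.mem_univ _, hi⟩, rfl⟩
  have hnb : ∀ a ∈ cen, (nb a).card = D := by
    intro a ha
    have haI : (a : W) ∈ I := (Finset.mem_filter.mp ha).2
    rw [← hdeg a haI, ← SimpleGraph.card_neighborFinset_eq_degree]
    apply Finset.card_bij (fun (c : F.verts) (_ : c ∈ nb a) => (c : W))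
    · intro c hc
      rw [SimpleGraph.mem_neighborFinset]
      exact (Finset.mem_filter.mp hc).2
    · intro c _ d _ hcd
      exact Subtype.ext hcd
    · intro u hu
      rw [SimpleGraph.mem_neighborFinset] at hu
      exact ⟨⟨u, Or.inr ⟨a, Finset.mem_coe.mpr haI, hu⟩⟩,
        Finset.mem_filter.mpr ⟨Finset.mem_univ _, hu⟩, rfl⟩
  let enc : (F.verts → Fin n) → Finset (Fin n × Finset (Fin n)) :=
    fun ψ => cen.image (fun a => (ψ a, (nb a).image ψ))
  have key : ∀ ψ : F.verts → Fin n,
      (Set.range ψ = {x | ∃ p ∈ enc ψ, x = p.1 ∨ x ∈ p.2}) ∧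
      ∀ x y, (∃ a b, F.coe.Adj a b ∧ ψ a = x ∧ ψ b = y) ↔
        ∃ p ∈ enc ψ, (x = p.1 ∧ y ∈ p.2) ∨ (y = p.1 ∧ x ∈ p.2) := by
    intro ψ
    constructor
    · ext x
      simp only [Set.mem_range, Set.mem_ofPred_eq]
      constructor
      · rintro ⟨⟨v, hv⟩, rfl⟩
        rcases hv with hvI | ⟨i, hiI, hadj⟩
        · refine ⟨(ψ ⟨v, Or.inl hvI⟩, (nb ⟨v, Or.inl hvI⟩).image ψ), ?_, Or.inl rfl⟩
          exact Finset.mem_image.mpr ⟨⟨v, Or.inl hvI⟩,
            Finset.mem_filter.mpr ⟨Finset.mem_univ _, Finset.mem_coe.mp hvI⟩, rfl⟩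
        · refine ⟨(ψ ⟨i, Or.inl hiI⟩, (nb ⟨i, Or.inl hiI⟩).image ψ), ?_, Or.inr ?_⟩
          · exact Finset.mem_image.mpr ⟨⟨i, Or.inl hiI⟩,
              Finset.mem_filter.mpr ⟨Finset.mem_univ _, Finset.mem_coe.mp hiI⟩, rfl⟩
          · exact Finset.mem_image.mpr ⟨⟨v, Or.inr ⟨i, hiI, hadj⟩⟩,
              Finset.mem_filter.mpr ⟨Finset.mem_univ _, hadj⟩, rfl⟩
      · rintro ⟨p, hp, hx⟩
        obtain ⟨a, _, rfl⟩ := Finset.mem_image.mp hp
        rcases hx with rfl | hx
        · exact ⟨a, rfl⟩
        · obtain ⟨c, _, rfl⟩ := Finset.mem_image.mp hx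
          exact ⟨c, rfl⟩
    · intro x y
      constructor
      · rintro ⟨a, b, hab, rfl, rfl⟩
        have hab' : H.Adj a b ∧ ((a : W) ∈ (I : Set W) ∨ (b : W) ∈ (I : Set W)) := hab
        rcases hab'.2 with haI | hbI
        · refine ⟨(ψ a, (nb a).image ψ), ?_, Or.inl ⟨rfl, ?_⟩⟩
          · exact Finset.mem_image.mpr ⟨a,
              Finset.mem_filter.mpr ⟨Finset.mem_univ _, Finset.mem_coe.mp haI⟩, rfl⟩
          · exact Finset.mem_image.mpr ⟨b, Finset.mem_filter.mpr ⟨Finset.mem_univ _, hab'.1⟩, rfl⟩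
        · refine ⟨(ψ b, (nb b).image ψ), ?_, Or.inr ⟨rfl, ?_⟩⟩
          · exact Finset.mem_image.mpr ⟨b,
              Finset.mem_filter.mpr ⟨Finset.mem_univ _, Finset.mem_coe.mp hbI⟩, rfl⟩
          · exact Finset.mem_image.mpr ⟨a,
              Finset.mem_filter.mpr ⟨Finset.mem_univ _, hab'.1.symm⟩, rfl⟩
      · rintro ⟨p, hp, hxy⟩
        obtain ⟨a, ha, rfl⟩ := Finset.mem_image.mp hp
        have haI : (a : W) ∈ I := (Finset.mem_filter.mp ha).2
        rcases hxy with ⟨rfl, hy⟩ | ⟨rfl, hx⟩
        · obtain ⟨c, hc, rfl⟩ := Finset.mem_image.mp hy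
          have hadj : H.Adj a c := (Finset.mem_filter.mp hc).2
          exact ⟨a, c, ⟨hadj, Or.inl (Finset.mem_coe.mpr haI)⟩, rfl, rfl⟩
        · obtain ⟨c, hc, rfl⟩ := Finset.mem_image.mp hx
          have hadj : H.Adj a c := (Finset.mem_filter.mp hc).2
          exact ⟨c, a, ⟨hadj.symm, Or.inr (Finset.mem_coe.mpr haI)⟩, rfl, rfl⟩
  apply copyCount_le_card_of_enc (⊤ : SimpleGraph (Fin n)) F.coe _ enc
  · intro ψ hinj _
    rw [Finset.mem_powersetCard]
    constructor
    · intro p hp
      obtain ⟨a, ha, rfl⟩ := Finset.mem_image.mp hp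
      rw [Finset.mem_product, Finset.mem_powersetCard]
      refine ⟨Finset.mem_univ _, Finset.subset_univ _, ?_⟩
      rw [Finset.card_image_of_injective _ hinj]
      exact hnb a ha
    · rw [Finset.card_image_of_injective]
      · exact hcen
      · intro a b hab
        exact hinj (congrArg Prod.fst hab)
  · intro ψ ψ' _ _ _ _ henc
    constructor
    · rw [(key ψ).1, (key ψ').1, henc]
    · intro x y
      rw [(key ψ).2, (key ψ').2, henc]

end Vale.Agent.Lib.P064
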