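import Mathlib
import Vale.Agent.Lib.P064.Config
import Vale.Agent.Lib.P064.Colour
import Vale.Agent.Lib.P064.Counting
import Vale.Agent.Lib.P064.StarUnion
import Vale.Agent.Lib.P064.Numerics

namespace Vale.Agent.Lib.P064

open Finset

theorem starUnion_edgeSet_ncard {W : Type*} [Fintype W] (H : SimpleGraph W) (T : Finset W) :
    (starUnion H (T : Set W)).coe.edgeSet.ncard = (inc H T).card := by
  have h1 : (starUnion H (T : Set W)).coe.edgeSet.ncard
      = (starUnion H (T : Set W)).edgeSet.ncard := by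
    rw [← SimpleGraph.Subgraph.image_coe_edgeSet_coe]
    rw [Set.ncard_image_of_injective]
    exact Sym2.map.injective Subtype.val_injective
  rw [h1, ← Set.ncard_coe_finset]
  congr 1
  ext e
  induction e using Sym2.inductionOn with
  | hf a b =>
    rw [SimpleGraph.Subgraph.mem_edgeSet, Finset.mem_coe, mk_mem_inc]
    rfl

theorem packing_bound {W : Type*} [Fintype W] (H : SimpleGraph W) (n : ℕ) (q : ℝ) (hq0 : 0 ≤ q)
    (hyp : ∀ F : H.Subgraph,
      1 ≤ ((⊤ : SimpleGraph (Fin n)).copyCount F.coe : ℝ) * q ^ F.coe.edgeSet.ncard)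
    (Pf : Finset (Finset W)) (I : Finset (Finset (Sym2 (Fin n)))) (e₀ : ℕ) (he₀ : 1 ≤ e₀)
    (hdisj : ∀ S ∈ Pf, ∀ S' ∈ Pf, S ≠ S' → Disjoint (inc H S) (inc H S'))
    (himg : ∀ S ∈ Pf, ImgE n (inc H S) = I) (hcard : ∀ S ∈ Pf, (inc H S).card = e₀)
    (hniso : ∀ S ∈ Pf, ∀ a ∈ S, ∃ b, H.Adj a b) :
    (Pf.card : ℝ) ≤ 3 * I.card * q ^ e₀ := by
  classical
  rcases Pf.eq_empty_or_nonempty with rfl | hne
  · simp only [Finset.card_empty, Nat.cast_zero]
    positivity
  have hr : 0 < Pf.card := Finset.card_pos.mpr hne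
  set T : Finset W := Pf.biUnion id with hT
  set FT := starUnion H (T : Set W) with hFT
  have hincT : inc H T = Pf.biUnion (fun S => inc H S) := by
    ext e
    rw [mem_inc, Finset.mem_biUnion]
    constructor
    · rintro ⟨he, a, ha, hae⟩
      rw [hT, Finset.mem_biUnion] at ha
      obtain ⟨S, hS, haS⟩ := ha
      exact ⟨S, hS, (mem_inc H S e).mpr ⟨he, a, haS, hae⟩⟩
    · rintro ⟨S, hS, heS⟩
      rw [mem_inc] at heS
      obtain ⟨he, a, haS, hae⟩ := heS
      refine ⟨he, a, ?_, hae⟩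
      rw [hT, Finset.mem_biUnion]
      exact ⟨S, hS, haS⟩
  have hcardT : (inc H T).card = Pf.card * e₀ := by
    rw [hincT, Finset.card_biUnion]
    · rw [Finset.sum_congr rfl hcard, Finset.sum_const, smul_eq_mul]
    · intro S hS S' hS' hne'
      exact hdisj S hS S' hS' hne'
  have hE : FT.coe.edgeSet.ncard = Pf.card * e₀ := by
    rw [hFT, starUnion_edgeSet_ncard, hcardT]
  have h1 := hyp FT
  rw [hE] at h1
  -- vertices of the members of the packing
  have hvert : ∀ S ∈ Pf, vsupp (inc H S) ⊆ FT.verts := by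
    intro S hS w hw
    have hw' := vsupp_inc_subset_cl H S hw
    rw [Finset.mem_coe, mem_cl] at hw'
    have hST : ∀ a ∈ S, a ∈ T := by
      intro a ha
      rw [hT, Finset.mem_biUnion]
      exact ⟨S, hS, ha⟩
    rcases hw' with h | ⟨a, ha, hadj⟩
    · exact Or.inl (Finset.mem_coe.mpr (hST w h))
    · exact Or.inr ⟨a, Finset.mem_coe.mpr (hST a ha), hadj⟩
  -- a fixed vertex, used as a default value
  obtain ⟨S₀, hS₀⟩ := hne
  have hincne : ∀ S ∈ Pf, (inc H S).Nonempty := by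
    intro S hS
    rw [← Finset.card_pos, hcard S hS]
    exact he₀
  obtain ⟨e₁, he₁⟩ := hincne S₀ hS₀
  have hv₀ : ∃ v₀ : W, v₀ ∈ FT.verts := by
    induction e₁ using Sym2.inductionOn with
    | hf a b => exact ⟨a, hvert S₀ hS₀ ⟨s(a, b), he₁, Sym2.mem_mk_left a b⟩⟩
  obtain ⟨v₀, hv₀⟩ := hv₀
  let ext : (FT.verts → Fin n) → W → Fin n :=
    fun ψ w => if hw : w ∈ FT.verts then ψ ⟨w, hw⟩ else ψ ⟨v₀, hv₀⟩
  have hext : ∀ (ψ : FT.verts → Fin n) (a : FT.verts), ext ψ a = ψ a := by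
    intro ψ a
    have : ext ψ a = ψ ⟨a, a.2⟩ := dif_pos a.2
    rw [this]
  have hextinj : ∀ ψ : FT.verts → Fin n, Function.Injective ψ → Set.InjOn (ext ψ) FT.verts := by
    intro ψ hψ a ha b hb hab
    have h1 := hext ψ ⟨a, ha⟩
    have h2 := hext ψ ⟨b, hb⟩
    simp only at h1 h2
    rw [h1, h2] at hab
    exact congrArg Subtype.val (hψ hab)
  let enc : (FT.verts → Fin n) → Finset (Finset (Sym2 (Fin n))) :=
    fun ψ => Pf.image (fun S => (inc H S).image (Sym2.map (ext ψ)))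
  -- the edges of the image are determined by the encoding
  have key : ∀ ψ : FT.verts → Fin n, ∀ x y,
      (∃ a b, FT.coe.Adj a b ∧ ψ a = x ∧ ψ b = y) ↔ ∃ E ∈ enc ψ, s(x, y) ∈ E := by
    intro ψ x y
    constructor
    · rintro ⟨a, b, hab, rfl, rfl⟩
      have hab' : H.Adj a b ∧ ((a : W) ∈ (T : Set W) ∨ (b : W) ∈ (T : Set W)) := hab
      have hmem : s((a : W), (b : W)) ∈ inc H T := by
        rw [mk_mem_inc]
        exact ⟨hab'.1, hab'.2⟩
      rw [hincT, Finset.mem_biUnion] at hmem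
      obtain ⟨S, hS, heS⟩ := hmem
      refine ⟨(inc H S).image (Sym2.map (ext ψ)), Finset.mem_image_of_mem _ hS, ?_⟩
      rw [Finset.mem_image]
      refine ⟨s((a : W), (b : W)), heS, ?_⟩
      rw [Sym2.map_mk, hext, hext]
    · rintro ⟨E, hE, hxy⟩
      obtain ⟨S, hS, rfl⟩ := Finset.mem_image.mp hE
      obtain ⟨e, he, hmap⟩ := Finset.mem_image.mp hxy
      induction e using Sym2.inductionOn with
      | hf a b =>
        have ha : a ∈ FT.verts := hvert S hS ⟨s(a, b), he, Sym2.mem_mk_left a b⟩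
        have hb : b ∈ FT.verts := hvert S hS ⟨s(a, b), he, Sym2.mem_mk_right a b⟩
        have hadj : FT.Adj a b := by
          rw [mk_mem_inc] at he
          refine ⟨he.1, ?_⟩
          have hST : ∀ c ∈ S, c ∈ T := by
            intro c hc
            rw [hT, Finset.mem_biUnion]
            exact ⟨S, hS, hc⟩
          rcases he.2 with h | h
          · exact Or.inl (Finset.mem_coe.mpr (hST a h))
          · exact Or.inr (Finset.mem_coe.mpr (hST b h))
        have h1 := hext ψ ⟨a, ha⟩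
        have h2 := hext ψ ⟨b, hb⟩
        simp only at h1 h2
        rw [Sym2.map_mk, h1, h2, Sym2.eq_iff] at hmap
        rcases hmap with ⟨hx, hy⟩ | ⟨hx, hy⟩
        · exact ⟨⟨a, ha⟩, ⟨b, hb⟩, hadj, hx, hy⟩
        · exact ⟨⟨b, hb⟩, ⟨a, ha⟩, hadj.symm, hy, hx⟩
  have hrange : ∀ ψ : FT.verts → Fin n,
      Set.range ψ = {x | ∃ y, ∃ E ∈ enc ψ, s(x, y) ∈ E} := by
    intro ψ
    ext x
    simp only [Set.mem_range, Set.mem_ofPred_eq]
    constructor
    · rintro ⟨a, rfl⟩
      have hnb : ∃ b : FT.verts, FT.coe.Adj a b := by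
        rcases a.2 with haT | ⟨i, hiT, hadj⟩
        · have haT' : (a : W) ∈ T := Finset.mem_coe.mp haT
          rw [hT, Finset.mem_biUnion] at haT'
          obtain ⟨S, hS, haS⟩ := haT'
          obtain ⟨b, hab⟩ := hniso S hS a haS
          have hadj : FT.Adj a b := ⟨hab, Or.inl haT⟩
          exact ⟨⟨b, FT.edge_vert hadj.symm⟩, hadj⟩
        · have hadj' : FT.Adj a i := ⟨hadj.symm, Or.inr hiT⟩
          exact ⟨⟨i, FT.edge_vert hadj'.symm⟩, hadj'⟩
      obtain ⟨b, hab⟩ := hnb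
      exact ⟨ψ b, (key ψ (ψ a) (ψ b)).mp ⟨a, b, hab, rfl, rfl⟩⟩
    · rintro ⟨y, hE⟩
      obtain ⟨a, b, -, ha, -⟩ := (key ψ x y).mpr hE
      exact ⟨a, ha⟩
  have hcount : (⊤ : SimpleGraph (Fin n)).copyCount FT.coe ≤ (I.card).choose Pf.card := by
    rw [← Finset.card_powersetCard]
    apply copyCount_le_card_of_enc (⊤ : SimpleGraph (Fin n)) FT.coe _ enc
    · intro ψ hinj _
      rw [Finset.mem_powersetCard]
      constructor
      · intro E hE
        obtain ⟨S, hS, rfl⟩ := Finset.mem_image.mp hE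
        rw [← himg S hS, mem_ImgE]
        exact ⟨ext ψ, (hextinj ψ hinj).mono (hvert S hS), rfl⟩
      · apply Finset.card_image_of_injOn
        intro S hS S' hS' heq
        have heq' : (inc H S).image (Sym2.map (ext ψ)) = (inc H S').image (Sym2.map (ext ψ)) :=
          heq
        by_contra hne'
        obtain ⟨e, he⟩ := hincne S hS
        have hmem : Sym2.map (ext ψ) e ∈ (inc H S').image (Sym2.map (ext ψ)) := by
          rw [← heq']
          exact Finset.mem_image_of_mem _ he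
        obtain ⟨e', he', hee⟩ := Finset.mem_image.mp hmem
        have : e' = e := by
          apply sym2_map_injOn (ext ψ) FT.verts (hextinj ψ hinj) _ _ hee
          · intro w hw
            exact hvert S' hS' ⟨e', he', hw⟩
          · intro w hw
            exact hvert S hS ⟨e, he, hw⟩
        rw [this] at he'
        exact (Finset.disjoint_left.mp (hdisj S hS S' hS' hne')) he he'
    · intro ψ ψ' _ _ _ _ henc
      constructor
      · rw [hrange ψ, hrange ψ', henc]
      · intro x y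
        rw [key ψ, key ψ', henc]
  apply packing_numeric I.card Pf.card e₀ q hq0 hr
  refine h1.trans ?_
  apply mul_le_mul_of_nonneg_right _ (by positivity)
  exact_mod_cast hcount

theorem class_bound {W : Type*} [Fintype W] (H : SimpleGraph W) (n : ℕ) (q : ℝ) (hq0 : 0 ≤ q)
    (hyp : ∀ F : H.Subgraph,
      1 ≤ ((⊤ : SimpleGraph (Fin n)).copyCount F.coe : ℝ) * q ^ F.coe.edgeSet.ncard)
    (A : Finset (Finset W)) (I : Finset (Finset (Sym2 (Fin n)))) (k e₀ : ℕ) (he₀ : 1 ≤ e₀)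
    (hconn : ∀ S ∈ A, HConn H S) (hk : ∀ S ∈ A, S.card = k)
    (himg : ∀ S ∈ A, ImgE n (inc H S) = I) (hcard : ∀ S ∈ A, (inc H S).card = e₀)
    (hniso : ∀ S ∈ A, ∀ a ∈ S, ∃ b, H.Adj a b) :
    (A.card : ℝ) ≤ 3 * 2 ^ k * I.card * (2 * q) ^ e₀ := by
  obtain ⟨Pf, hPA, hdisj, hle⟩ := exists_edge_disjoint_subfamily H A (k + e₀) hconn (by
    intro S hS
    have := card_cl_le H S
    rw [hk S hS, hcard S hS] at this
    exact this)
  have h1 := packing_bound H n q hq0 hyp Pf I e₀ he₀ hdisj (fun S hS => himg S (hPA hS))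
    (fun S hS => hcard S (hPA hS)) (fun S hS => hniso S (hPA hS))
  have h2 : (A.card : ℝ) ≤ 2 ^ (k + e₀) * Pf.card := by exact_mod_cast hle
  calc (A.card : ℝ) ≤ 2 ^ (k + e₀) * Pf.card := h2
    _ ≤ 2 ^ (k + e₀) * (3 * I.card * q ^ e₀) := by
        apply mul_le_mul_of_nonneg_left h1 (by positivity)
    _ = 3 * 2 ^ k * I.card * (2 * q) ^ e₀ := by
        rw [pow_add, mul_pow]
        ring

end Vale.Agent.Lib.P064
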