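import Mathlib
import Vale.Agent.Lib.P064.Config
import Vale.Agent.Lib.P064.Colour
import Vale.Agent.Lib.P064.Pack

namespace Vale.Agent.Lib.P064

open Finset

open Classical in
/-- The injective homomorphisms from `F` to `G`, as functions. -/
noncomputable def injFin {U V : Type*} [Fintype U] [Fintype V] (F : SimpleGraph U)
    (G : SimpleGraph V) : Finset (U → V) :=
  Finset.univ.filter (fun φ => Function.Injective φ ∧ ∀ a b, F.Adj a b → G.Adj (φ a) (φ b))

theorem mem_injFin {U V : Type*} [Fintype U] [Fintype V] (F : SimpleGraph U)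
    (G : SimpleGraph V) (φ : U → V) :
    φ ∈ injFin F G ↔ Function.Injective φ ∧ ∀ a b, F.Adj a b → G.Adj (φ a) (φ b) := by
  classical
  unfold injFin
  rw [Finset.mem_filter]
  exact ⟨fun h => h.2, fun h => ⟨Finset.mem_univ _, h⟩⟩

theorem mem_injFin_top {U : Type*} [Fintype U] (F : SimpleGraph U) (n : ℕ) (φ : U → Fin n) :
    φ ∈ injFin F (⊤ : SimpleGraph (Fin n)) ↔ Function.Injective φ := by
  rw [mem_injFin]
  constructor
  · exact fun h => h.1
  · intro h
    refine ⟨h, ?_⟩
    intro a b hab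
    rw [SimpleGraph.top_adj]
    exact fun hφ => F.ne_of_adj hab (h hφ)

open Classical in
/-- The injective homomorphisms from `F` to `H` whose image is the vertex set `S`. -/
noncomputable def homsOnto {U W : Type*} [Fintype U] [Fintype W] (F : SimpleGraph U)
    (H : SimpleGraph W) (S : Finset W) : Finset (U → W) :=
  (injFin F H).filter (fun φ => ∀ w, w ∈ S ↔ ∃ u, φ u = w)

theorem mem_homsOnto {U W : Type*} [Fintype U] [Fintype W] (F : SimpleGraph U)
    (H : SimpleGraph W) (S : Finset W) (φ : U → W) :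
    φ ∈ homsOnto F H S ↔ φ ∈ injFin F H ∧ ∀ w, w ∈ S ↔ ∃ u, φ u = w := by
  classical
  unfold homsOnto
  rw [Finset.mem_filter]

open Classical in
/-- The injective maps `φ` from the vertices of `F` to `Fin n` that send every edge of `F` into
`E` and such that every member of `E` meets the image of `φ`. -/
noncomputable def gSet {U : Type*} [Fintype U] (F : SimpleGraph U) (n : ℕ)
    (E : Finset (Sym2 (Fin n))) : Finset (U → Fin n) :=
  Finset.univ.filter (fun φ => Function.Injective φ ∧ (∀ a b, F.Adj a b → s(φ a, φ b) ∈ E) ∧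
    ∀ e ∈ E, ∃ u, φ u ∈ e)

theorem mem_gSet {U : Type*} [Fintype U] (F : SimpleGraph U) (n : ℕ)
    (E : Finset (Sym2 (Fin n))) (φ : U → Fin n) :
    φ ∈ gSet F n E ↔ Function.Injective φ ∧ (∀ a b, F.Adj a b → s(φ a, φ b) ∈ E) ∧
      ∀ e ∈ E, ∃ u, φ u ∈ e := by
  classical
  unfold gSet
  rw [Finset.mem_filter]
  exact ⟨fun h => h.2, fun h => ⟨Finset.mem_univ _, h⟩⟩

theorem card_homsOnto_le {U W : Type*} [Fintype U] [Fintype W] (F : SimpleGraph U)
    (H : SimpleGraph W) (n : ℕ) (S : Finset W) (hS : ∀ a ∈ S, ∃ b, H.Adj a b)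
    (E : Finset (Sym2 (Fin n))) (hE : E ∈ ImgE n (inc H S)) :
    (homsOnto F H S).card ≤ (gSet F n E).card := by
  obtain ⟨ψ, hψ, rfl⟩ := (mem_ImgE n (inc H S) E).mp hE
  have hψS : Set.InjOn ψ (S : Set W) := hψ.mono (subset_vsupp_inc H S hS)
  apply Finset.card_le_card_of_injOn (fun φ => ψ ∘ φ)
  · intro φ hφ
    rw [Finset.mem_coe, mem_homsOnto, mem_injFin] at hφ
    obtain ⟨⟨hinj, hhom⟩, hS'⟩ := hφ
    have hmemS : ∀ u, φ u ∈ S := fun u => (hS' (φ u)).mpr ⟨u, rfl⟩
    rw [Finset.mem_coe, mem_gSet]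
    refine ⟨?_, ?_, ?_⟩
    · intro a b hab
      exact hinj (hψS (Finset.mem_coe.mpr (hmemS a)) (Finset.mem_coe.mpr (hmemS b)) hab)
    · intro a b hab
      rw [Finset.mem_image]
      refine ⟨s(φ a, φ b), ?_, rfl⟩
      rw [mk_mem_inc]
      exact ⟨hhom a b hab, Or.inl (hmemS a)⟩
    · intro e he
      obtain ⟨e₁, he₁, rfl⟩ := Finset.mem_image.mp he
      rw [mem_inc] at he₁
      obtain ⟨-, a, haS, hae⟩ := he₁
      obtain ⟨u, rfl⟩ := (hS' a).mp haS
      exact ⟨u, Sym2.mem_map.mpr ⟨φ u, hae, rfl⟩⟩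
  · intro φ₁ hφ₁ φ₂ hφ₂ h
    rw [Finset.mem_coe, mem_homsOnto] at hφ₁ hφ₂
    funext u
    have h1 : φ₁ u ∈ S := (hφ₁.2 (φ₁ u)).mpr ⟨u, rfl⟩
    have h2 : φ₂ u ∈ S := (hφ₂.2 (φ₂ u)).mpr ⟨u, rfl⟩
    exact hψS (Finset.mem_coe.mpr h1) (Finset.mem_coe.mpr h2) (congrFun h u)

theorem sum_between {α : Type*} [DecidableEq α] (A B : Finset α) (h : A ⊆ B) (c : ℝ) :
    ∑ E ∈ B.powerset.filter (fun E => A ⊆ E), c ^ E.card
      = c ^ A.card * (1 + c) ^ (B \ A).card := by
  have h1 : ∑ E ∈ B.powerset.filter (fun E => A ⊆ E), c ^ E.card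
      = ∑ E' ∈ (B \ A).powerset, c ^ A.card * (c ^ E'.card * 1 ^ ((B \ A).card - E'.card)) := by
    symm
    apply Finset.sum_nbij' (fun E' => A ∪ E') (fun E => E \ A)
    · intro E' hE'
      rw [Finset.mem_powerset] at hE'
      rw [Finset.mem_filter, Finset.mem_powerset]
      exact ⟨Finset.union_subset h (hE'.trans Finset.sdiff_subset), Finset.subset_union_left⟩
    · intro E hE
      rw [Finset.mem_filter, Finset.mem_powerset] at hE
      rw [Finset.mem_powerset]
      exact Finset.sdiff_subset_sdiff hE.1 (Finset.Subset.refl _)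
    · intro E' hE'
      rw [Finset.mem_powerset] at hE'
      have hdisj : Disjoint A E' := by
        rw [Finset.disjoint_left]
        intro x hx hxB
        exact (Finset.mem_sdiff.mp (hE' hxB)).2 hx
      rw [Finset.union_sdiff_cancel_left hdisj]
    · intro E hE
      rw [Finset.mem_filter, Finset.mem_powerset] at hE
      exact Finset.union_sdiff_of_subset hE.2
    · intro E' hE'
      rw [Finset.mem_powerset] at hE'
      have hdisj : Disjoint A E' := by
        rw [Finset.disjoint_left]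
        intro x hx hxB
        exact (Finset.mem_sdiff.mp (hE' hxB)).2 hx
      rw [Finset.card_union_of_disjoint hdisj, pow_add, one_pow, mul_one]
  rw [h1, ← Finset.mul_sum, Finset.sum_pow_mul_eq_add_pow, add_comm]

theorem sum_gSet_le {U : Type*} [Fintype U] (F : SimpleGraph U) (n : ℕ) (c : ℝ) (hc : 0 ≤ c) :
    ∑ E : Finset (Sym2 (Fin n)), c ^ E.card * ((gSet F n E).card : ℝ)
      ≤ ((injFin F (⊤ : SimpleGraph (Fin n))).card : ℝ)
        * (c ^ F.edgeSet.ncard * (1 + c) ^ (Fintype.card U * n)) := by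
  classical
  set Inj := injFin F (⊤ : SimpleGraph (Fin n)) with hInj
  let A : (U → Fin n) → Finset (Sym2 (Fin n)) :=
    fun φ => Finset.univ.filter (fun e => ∃ a b, F.Adj a b ∧ s(φ a, φ b) = e)
  let B : (U → Fin n) → Finset (Sym2 (Fin n)) :=
    fun φ => Finset.univ.filter (fun e => ∃ u, φ u ∈ e)
  have hg : ∀ E : Finset (Sym2 (Fin n)),
      gSet F n E = Inj.filter (fun φ => A φ ⊆ E ∧ E ⊆ B φ) := by
    intro E
    ext φ
    rw [mem_gSet, Finset.mem_filter, hInj, mem_injFin_top]
    constructor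
    · rintro ⟨h1, h2, h3⟩
      refine ⟨h1, ?_, ?_⟩
      · intro e he
        obtain ⟨a, b, hab, rfl⟩ := (Finset.mem_filter.mp he).2
        exact h2 a b hab
      · intro e he
        exact Finset.mem_filter.mpr ⟨Finset.mem_univ _, h3 e he⟩
    · rintro ⟨h1, h2, h3⟩
      refine ⟨h1, ?_, ?_⟩
      · intro a b hab
        exact h2 (Finset.mem_filter.mpr ⟨Finset.mem_univ _, a, b, hab, rfl⟩)
      · intro e he
        exact (Finset.mem_filter.mp (h3 he)).2
  have h1 : ∑ E : Finset (Sym2 (Fin n)), c ^ E.card * ((gSet F n E).card : ℝ)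
      = ∑ φ ∈ Inj, ∑ E ∈ (B φ).powerset.filter (fun E => A φ ⊆ E), c ^ E.card := by
    have h2 : ∀ E : Finset (Sym2 (Fin n)), c ^ E.card * ((gSet F n E).card : ℝ)
        = ∑ φ ∈ Inj, if A φ ⊆ E ∧ E ⊆ B φ then c ^ E.card else 0 := by
      intro E
      rw [hg E, Finset.card_filter, Nat.cast_sum, Finset.mul_sum]
      apply Finset.sum_congr rfl
      intro φ _
      split_ifs <;> simp
    rw [Finset.sum_congr rfl (fun E _ => h2 E), Finset.sum_comm]
    apply Finset.sum_congr rfl
    intro φ _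
    rw [← Finset.sum_filter]
    apply Finset.sum_congr _ (fun _ _ => rfl)
    ext E
    simp only [Finset.mem_filter, Finset.mem_univ, true_and, Finset.mem_powerset]
    tauto
  rw [h1]
  have h3 : ∀ φ ∈ Inj, ∑ E ∈ (B φ).powerset.filter (fun E => A φ ⊆ E), c ^ E.card
      ≤ c ^ F.edgeSet.ncard * (1 + c) ^ (Fintype.card U * n) := by
    intro φ hφ
    rw [hInj, mem_injFin_top] at hφ
    have hAB : A φ ⊆ B φ := by
      intro e he
      obtain ⟨a, b, hab, rfl⟩ := (Finset.mem_filter.mp he).2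
      exact Finset.mem_filter.mpr ⟨Finset.mem_univ _, a, Sym2.mem_mk_left _ _⟩
    rw [sum_between (A φ) (B φ) hAB c]
    have hA : (A φ).card = F.edgeSet.ncard := by
      rw [← Set.ncard_image_of_injective _ (Sym2.map.injective hφ), ← Set.ncard_coe_finset]
      congr 1
      ext e
      have hAmem : e ∈ A φ ↔ ∃ a b, F.Adj a b ∧ s(φ a, φ b) = e := by
        constructor
        · intro he
          exact (Finset.mem_filter.mp he).2
        · intro he
          exact Finset.mem_filter.mpr ⟨Finset.mem_univ _, he⟩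
      rw [Finset.mem_coe, hAmem, Set.mem_image]
      constructor
      · rintro ⟨a, b, hab, rfl⟩
        exact ⟨s(a, b), hab, rfl⟩
      · rintro ⟨e', he', rfl⟩
        induction e' using Sym2.inductionOn with
        | hf a b => exact ⟨a, b, he', rfl⟩
    have hB : ((B φ) \ (A φ)).card ≤ Fintype.card U * n := by
      have hsub : (B φ) \ (A φ)
          ⊆ ((Finset.univ : Finset U) ×ˢ (Finset.univ : Finset (Fin n))).image
            (fun p => s(φ p.1, p.2)) := by
        intro e he
        obtain ⟨u, hu⟩ := (Finset.mem_filter.mp (Finset.mem_sdiff.mp he).1).2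
        obtain ⟨y, rfl⟩ := Sym2.mem_iff_exists.mp hu
        exact Finset.mem_image.mpr ⟨(u, y), Finset.mem_product.mpr
          ⟨Finset.mem_univ _, Finset.mem_univ _⟩, rfl⟩
      refine (Finset.card_le_card hsub).trans (Finset.card_image_le.trans ?_)
      rw [Finset.card_product, Finset.card_univ, Finset.card_univ, Fintype.card_fin]
    rw [hA]
    apply mul_le_mul_of_nonneg_left _ (by positivity)
    exact pow_le_pow_right₀ (by linarith) hB
  calc ∑ φ ∈ Inj, ∑ E ∈ (B φ).powerset.filter (fun E => A φ ⊆ E), c ^ E.card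
      ≤ ∑ φ ∈ Inj, c ^ F.edgeSet.ncard * (1 + c) ^ (Fintype.card U * n) :=
        Finset.sum_le_sum h3
    _ = _ := by rw [Finset.sum_const, nsmul_eq_mul]

end Vale.Agent.Lib.P064
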