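import Mathlib
import Vale.Agent.Lib.P064.Transfer
import Vale.Agent.Lib.P064.Expectation

namespace Vale.Agent.Lib.P064

open Finset

/-- The image of `F` under a map `φ`, as a subgraph of `G`. -/
def subOf {U V : Type*} (F : SimpleGraph U) (G : SimpleGraph V) (φ : U → V) : G.Subgraph where
  verts := Set.range φ
  Adj x y := G.Adj x y ∧ ∃ a b, F.Adj a b ∧ φ a = x ∧ φ b = y
  adj_sub h := h.1
  edge_vert := by
    rintro x y ⟨-, a, b, -, rfl, -⟩
    exact ⟨a, rfl⟩
  symm := ⟨fun _ _ ⟨h, a, b, hab, ha, hb⟩ => ⟨h.symm, b, a, hab.symm, hb, ha⟩⟩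

theorem subOf_iso {U V : Type*} [Fintype U] [Fintype V] (F : SimpleGraph U) (G : SimpleGraph V)
    (φ : U → V) (hφ : φ ∈ injFin F G) : Nonempty (F ≃g (subOf F G φ).coe) := by
  rw [mem_injFin] at hφ
  obtain ⟨hinj, hhom⟩ := hφ
  have hbij : Function.Bijective (fun u : U => (⟨φ u, u, rfl⟩ : (subOf F G φ).verts)) := by
    constructor
    · intro a b hab
      exact hinj (congrArg Subtype.val hab)
    · rintro ⟨x, u, rfl⟩
      exact ⟨u, rfl⟩
  refine ⟨{ toEquiv := Equiv.ofBijective _ hbij, map_rel_iff' := ?_ }⟩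
  intro a b
  constructor
  · rintro ⟨-, a', b', hab', ha, hb⟩
    have ha' : a' = a := hinj ha
    have hb' : b' = b := hinj hb
    rw [← ha', ← hb']
    exact hab'
  · intro hab
    exact ⟨hhom a b hab, a, b, hab, rfl, rfl⟩

theorem fiber_ncard {U V : Type*} [Fintype U] [Fintype V] (F : SimpleGraph U)
    (G : SimpleGraph V) (G' : G.Subgraph) (ι : F ≃g G'.coe) :
    {φ : U → V | φ ∈ injFin F G ∧ subOf F G φ = G'}.ncard = Nat.card (F ≃g F) := by
  have hset : {φ : U → V | φ ∈ injFin F G ∧ subOf F G φ = G'}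
      = Set.range (fun σ : F ≃g F => fun u => ((ι (σ u) : G'.verts) : V)) := by
    ext φ
    simp only [Set.mem_ofPred_eq, Set.mem_range]
    constructor
    · rintro ⟨hφ, hsub⟩
      have hφ' := (mem_injFin F G φ).mp hφ
      obtain ⟨hinj, hhom⟩ := hφ'
      have hmem : ∀ u, φ u ∈ G'.verts := by
        intro u
        rw [← hsub]
        exact ⟨u, rfl⟩
      have hadj : ∀ a b, G'.Adj (φ a) (φ b) ↔ F.Adj a b := by
        intro a b
        rw [← hsub]
        constructor
        · rintro ⟨-, a', b', hab', ha, hb⟩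
          have ha' : a' = a := hinj ha
          have hb' : b' = b := hinj hb
          rw [← ha', ← hb']
          exact hab'
        · intro hab
          exact ⟨hhom a b hab, a, b, hab, rfl, rfl⟩
      let τ : U → U := fun u => ι.symm ⟨φ u, hmem u⟩
      have hτinj : Function.Injective τ := by
        intro a b hab
        have := ι.symm.injective hab
        exact hinj (congrArg Subtype.val this)
      have hτbij : Function.Bijective τ := ⟨hτinj, Finite.injective_iff_surjective.mp hτinj⟩
      refine ⟨{ toEquiv := Equiv.ofBijective τ hτbij, map_rel_iff' := ?_ }, ?_⟩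
      · intro a b
        show F.Adj (ι.symm ⟨φ a, hmem a⟩) (ι.symm ⟨φ b, hmem b⟩) ↔ F.Adj a b
        rw [ι.symm.map_rel_iff]
        exact hadj a b
      · funext u
        show ((ι (ι.symm ⟨φ u, hmem u⟩) : G'.verts) : V) = φ u
        rw [RelIso.apply_symm_apply]
    · rintro ⟨σ, rfl⟩
      have hinj : Function.Injective (fun u => ((ι (σ u) : G'.verts) : V)) := by
        intro a b hab
        exact σ.injective (ι.injective (Subtype.ext hab))
      have hhom : ∀ a b, F.Adj a b → G.Adj ((ι (σ a) : G'.verts) : V) ((ι (σ b) : G'.verts) : V) := by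
        intro a b hab
        have h1 : F.Adj (σ a) (σ b) := σ.map_rel_iff.mpr hab
        have h2 : G'.coe.Adj (ι (σ a)) (ι (σ b)) := ι.map_rel_iff.mpr h1
        exact G'.adj_sub h2
      refine ⟨(mem_injFin F G _).mpr ⟨hinj, hhom⟩, ?_⟩
      apply SimpleGraph.Subgraph.ext
      · ext x
        constructor
        · rintro ⟨u, rfl⟩
          exact (ι (σ u)).2
        · intro hx
          refine ⟨σ.symm (ι.symm ⟨x, hx⟩), ?_⟩
          simp
      · funext x y
        apply propext
        constructor
        · rintro ⟨-, a, b, hab, rfl, rfl⟩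
          have h1 : F.Adj (σ a) (σ b) := σ.map_rel_iff.mpr hab
          have h2 : G'.coe.Adj (ι (σ a)) (ι (σ b)) := ι.map_rel_iff.mpr h1
          exact h2
        · intro hxy
          have hx : x ∈ G'.verts := G'.edge_vert hxy
          have hy : y ∈ G'.verts := G'.edge_vert hxy.symm
          refine ⟨G'.adj_sub hxy, σ.symm (ι.symm ⟨x, hx⟩), σ.symm (ι.symm ⟨y, hy⟩), ?_, by simp,
            by simp⟩
          have h1 : G'.coe.Adj ⟨x, hx⟩ ⟨y, hy⟩ := hxy
          have h2 : F.Adj (ι.symm ⟨x, hx⟩) (ι.symm ⟨y, hy⟩) := ι.symm.map_rel_iff.mpr h1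
          exact σ.symm.map_rel_iff.mpr h2
  rw [hset, ← Set.image_univ, Set.ncard_image_of_injective, Set.ncard_univ]
  intro σ σ' h
  ext u
  have := congrFun h u
  exact ι.injective (Subtype.ext this)

/-- The number of injective homomorphisms is the number of copies times the number of
automorphisms. -/
theorem card_injFin_eq {U V : Type*} [Fintype U] [Fintype V] (F : SimpleGraph U)
    (G : SimpleGraph V) :
    (injFin F G).card = G.copyCount F * Nat.card (F ≃g F) := by
  classical
  set C : Finset G.Subgraph :=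
    (Set.toFinite {G' : G.Subgraph | Nonempty (F ≃g G'.coe)}).toFinset with hC
  have hCcard : C.card = G.copyCount F := by
    rw [copyCount_eq_ncard, hC, Set.ncard_eq_toFinset_card _ (Set.toFinite _)]
  have hmaps : ∀ φ ∈ injFin F G, subOf F G φ ∈ C := by
    intro φ hφ
    rw [hC, Set.Finite.mem_toFinset]
    exact subOf_iso F G φ hφ
  rw [Finset.card_eq_sum_card_fiberwise hmaps, ← hCcard]
  rw [Finset.sum_congr rfl (g := fun _ => Nat.card (F ≃g F)), Finset.sum_const, smul_eq_mul]
  intro G' hG'
  rw [hC, Set.Finite.mem_toFinset] at hG'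
  obtain ⟨ι⟩ := hG'
  rw [← fiber_ncard F G G' ι, ← Set.ncard_coe_finset]
  congr 1
  ext φ
  simp

theorem aut_pos {U : Type*} [Fintype U] (F : SimpleGraph U) : 0 < Nat.card (F ≃g F) := by
  have : Finite (F ≃g F) := Finite.of_injective (fun σ : F ≃g F => (σ : U → U))
    (fun σ σ' h => RelIso.ext (congrFun h))
  exact Nat.card_pos

end Vale.Agent.Lib.P064
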