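import Mathlib
import Vale.Agent.Lib.P064.Config
import Vale.Agent.Lib.P064.Colour
import Vale.Agent.Lib.P064.Pack
import Vale.Agent.Lib.P064.Transfer

namespace Vale.Agent.Lib.P064

open Finset

theorem image_props {U W : Type*} [Fintype U] [Fintype W] [DecidableEq W] (F : SimpleGraph U)
    (H : SimpleGraph W) (hF : F.Connected) (hk : 2 ≤ Fintype.card U) (φ : U → W)
    (hφ : φ ∈ injFin F H) :
    HConn H (Finset.univ.image φ) ∧ (Finset.univ.image φ).card = Fintype.card U ∧
      ∀ a ∈ Finset.univ.image φ, ∃ b, H.Adj a b := by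
  have : Nontrivial U := Fintype.one_lt_card_iff_nontrivial.mp hk
  rw [mem_injFin] at hφ
  obtain ⟨hinj, hhom⟩ := hφ
  refine ⟨?_, ?_, ?_⟩
  · intro T hTS hTne hTS'
    obtain ⟨a₀, ha₀⟩ := hTne
    obtain ⟨u₀, -, rfl⟩ := Finset.mem_image.mp (hTS ha₀)
    have hex : ∃ b₀ ∈ Finset.univ.image φ, b₀ ∉ T := by
      by_contra hcon
      apply hTS'
      apply Finset.Subset.antisymm hTS
      intro b hb
      by_contra hbT
      exact hcon ⟨b, hb, hbT⟩
    obtain ⟨b₀, hb₀, hb₀T⟩ := hex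
    obtain ⟨u₁, -, rfl⟩ := Finset.mem_image.mp hb₀
    obtain ⟨p⟩ := hF.preconnected u₀ u₁
    obtain ⟨d, -, hd1, hd2⟩ := p.exists_boundary_dart {u | φ u ∈ T} ha₀ hb₀T
    exact ⟨φ d.fst, hd1, φ d.snd, Finset.mem_image_of_mem _ (Finset.mem_univ _), hd2,
      hhom _ _ d.adj⟩
  · rw [Finset.card_image_of_injective _ hinj, Finset.card_univ]
  · intro a ha
    obtain ⟨u, -, rfl⟩ := Finset.mem_image.mp ha
    obtain ⟨u', huu'⟩ := hF.preconnected.exists_adj_of_nontrivial u
    exact ⟨φ u', hhom u u' huu'⟩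

theorem conn_inj_bound {U W : Type*} [Fintype U] [Fintype W] (F : SimpleGraph U)
    (H : SimpleGraph W) (n : ℕ) (hW : Fintype.card W ≤ n) (q : ℝ) (hq0 : 0 ≤ q)
    (hyp : ∀ F : H.Subgraph,
      1 ≤ ((⊤ : SimpleGraph (Fin n)).copyCount F.coe : ℝ) * q ^ F.coe.edgeSet.ncard)
    (hF : F.Connected) (hk : 2 ≤ Fintype.card U) :
    ((injFin F H).card : ℝ) ≤ 3 * 2 ^ Fintype.card U *
      (((injFin F (⊤ : SimpleGraph (Fin n))).card : ℝ)
        * ((2 * q) ^ F.edgeSet.ncard * (1 + 2 * q) ^ (Fintype.card U * n))) := by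
  classical
  set k := Fintype.card U with hkdef
  let imgOf : (U → W) → Finset W := fun φ => Finset.univ.image φ
  set A := (injFin F H).image imgOf with hA
  have hfib : ∀ S, (injFin F H).filter (fun φ => imgOf φ = S) = homsOnto F H S := by
    intro S
    ext φ
    rw [Finset.mem_filter, mem_homsOnto]
    constructor
    · rintro ⟨h1, rfl⟩
      refine ⟨h1, ?_⟩
      intro w
      constructor
      · intro hw
        obtain ⟨u, -, rfl⟩ := Finset.mem_image.mp hw
        exact ⟨u, rfl⟩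
      · rintro ⟨u, rfl⟩
        exact Finset.mem_image_of_mem _ (Finset.mem_univ _)
    · rintro ⟨h1, h2⟩
      refine ⟨h1, ?_⟩
      ext w
      rw [h2 w]
      constructor
      · intro hw
        obtain ⟨u, -, rfl⟩ := Finset.mem_image.mp hw
        exact ⟨u, rfl⟩
      · rintro ⟨u, rfl⟩
        exact Finset.mem_image_of_mem _ (Finset.mem_univ _)
  have hcard : (injFin F H).card = ∑ S ∈ A, (homsOnto F H S).card := by
    rw [Finset.card_eq_sum_card_fiberwise (f := imgOf) (t := A)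
      (fun φ hφ => Finset.mem_image_of_mem _ hφ)]
    exact Finset.sum_congr rfl (fun S _ => by rw [hfib])
  have hprop : ∀ S ∈ A, HConn H S ∧ S.card = k ∧ ∀ a ∈ S, ∃ b, H.Adj a b := by
    intro S hS
    obtain ⟨φ, hφ, rfl⟩ := Finset.mem_image.mp hS
    exact image_props F H hF hk φ hφ
  let κ : Finset W → Finset (Finset (Sym2 (Fin n))) := fun S => ImgE n (inc H S)
  let wt : Finset (Sym2 (Fin n)) → ℝ := fun E => (2 * q) ^ E.card * ((gSet F n E).card : ℝ)
  have hwt : ∀ E, 0 ≤ wt E := by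
    intro E
    positivity
  have hclass : ∀ I ∈ A.image κ,
      (∑ S ∈ A.filter (fun S => κ S = I), ((homsOnto F H S).card : ℝ))
        ≤ 3 * 2 ^ k * ∑ E ∈ I, wt E := by
    intro I hI
    obtain ⟨S₀, hS₀, hκ₀⟩ := Finset.mem_image.mp hI
    set cls := A.filter (fun S => κ S = I) with hcls
    set e₀ := (inc H S₀).card with he₀def
    obtain ⟨E₀, hE₀⟩ := ImgE_nonempty n hW (inc H S₀)
    have hE₀I : E₀ ∈ I := by
      rw [← hκ₀]
      exact hE₀
    have hIpos : (0 : ℝ) < I.card := by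
      exact_mod_cast Finset.card_pos.mpr ⟨E₀, hE₀I⟩
    have hEcard : ∀ E ∈ I, E.card = e₀ := by
      intro E hE
      rw [← hκ₀] at hE
      exact card_of_mem_ImgE n (inc H S₀) E hE
    have hinccard : ∀ S ∈ cls, (inc H S).card = e₀ := by
      intro S hS
      have hκ : κ S = I := (Finset.mem_filter.mp hS).2
      have h1 : E₀ ∈ ImgE n (inc H S) := by
        have : E₀ ∈ κ S := by
          rw [hκ]
          exact hE₀I
        exact this
      rw [← card_of_mem_ImgE n (inc H S) E₀ h1]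
      exact hEcard E₀ hE₀I
    have he₀ : 1 ≤ e₀ := by
      obtain ⟨-, hk₀, hiso₀⟩ := hprop S₀ hS₀
      have hne : S₀.Nonempty := by
        rw [← Finset.card_pos, hk₀]
        omega
      obtain ⟨a, ha⟩ := hne
      obtain ⟨b, hab⟩ := hiso₀ a ha
      exact Finset.card_pos.mpr ⟨s(a, b), (mk_mem_inc H S₀ a b).mpr ⟨hab, Or.inl ha⟩⟩
    have hbound := class_bound H n q hq0 hyp cls I k e₀ he₀
      (fun S hS => (hprop S (Finset.mem_filter.mp hS).1).1)
      (fun S hS => (hprop S (Finset.mem_filter.mp hS).1).2.1)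
      (fun S hS => (Finset.mem_filter.mp hS).2)
      hinccard
      (fun S hS => (hprop S (Finset.mem_filter.mp hS).1).2.2)
    have hle : ∀ S ∈ cls, ∀ E ∈ I,
        ((homsOnto F H S).card : ℝ) ≤ ((gSet F n E).card : ℝ) := by
      intro S hS E hE
      have hκ : κ S = I := (Finset.mem_filter.mp hS).2
      have hE' : E ∈ ImgE n (inc H S) := by
        have : E ∈ κ S := by
          rw [hκ]
          exact hE
        exact this
      exact_mod_cast card_homsOnto_le F H n S (hprop S (Finset.mem_filter.mp hS).1).2.2 E hE'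
    set G : ℝ := ∑ E ∈ I, ((gSet F n E).card : ℝ) with hG
    have hG0 : 0 ≤ G := Finset.sum_nonneg (fun E _ => Nat.cast_nonneg _)
    have h1 : (I.card : ℝ) * ∑ S ∈ cls, ((homsOnto F H S).card : ℝ) ≤ cls.card * G := by
      calc (I.card : ℝ) * ∑ S ∈ cls, ((homsOnto F H S).card : ℝ)
          = ∑ S ∈ cls, ∑ E ∈ I, ((homsOnto F H S).card : ℝ) := by
            rw [Finset.mul_sum]
            apply Finset.sum_congr rfl
            intro S _
            rw [Finset.sum_const, nsmul_eq_mul]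
        _ ≤ ∑ S ∈ cls, ∑ E ∈ I, ((gSet F n E).card : ℝ) := by
            apply Finset.sum_le_sum
            intro S hS
            apply Finset.sum_le_sum
            intro E hE
            exact hle S hS E hE
        _ = cls.card * G := by
            rw [Finset.sum_const, nsmul_eq_mul]
    have h2 : (I.card : ℝ) * ∑ S ∈ cls, ((homsOnto F H S).card : ℝ)
        ≤ (I.card : ℝ) * (3 * 2 ^ k * ((2 * q) ^ e₀ * G)) := by
      calc (I.card : ℝ) * ∑ S ∈ cls, ((homsOnto F H S).card : ℝ) ≤ cls.card * G := h1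
        _ ≤ (3 * 2 ^ k * I.card * (2 * q) ^ e₀) * G := mul_le_mul_of_nonneg_right hbound hG0
        _ = (I.card : ℝ) * (3 * 2 ^ k * ((2 * q) ^ e₀ * G)) := by ring
    have h3 := le_of_mul_le_mul_left h2 hIpos
    refine h3.trans (le_of_eq ?_)
    congr 1
    rw [hG, Finset.mul_sum]
    apply Finset.sum_congr rfl
    intro E hE
    show (2 * q) ^ e₀ * ((gSet F n E).card : ℝ) = (2 * q) ^ E.card * ((gSet F n E).card : ℝ)
    rw [hEcard E hE]
  have hsplit : ∑ S ∈ A, ((homsOnto F H S).card : ℝ)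
      = ∑ I ∈ A.image κ, ∑ S ∈ A.filter (fun S => κ S = I), ((homsOnto F H S).card : ℝ) :=
    (Finset.sum_fiberwise_of_maps_to (fun S hS => Finset.mem_image_of_mem κ hS) _).symm
  have hdisj : ∑ I ∈ A.image κ, ∑ E ∈ I, wt E ≤ ∑ E : Finset (Sym2 (Fin n)), wt E := by
    have hpd : Set.PairwiseDisjoint (↑(A.image κ) : Set (Finset (Finset (Sym2 (Fin n)))))
        (fun I => I) := by
      intro I hI I' hI' hne
      obtain ⟨S, -, rfl⟩ := Finset.mem_image.mp (Finset.mem_coe.mp hI)
      obtain ⟨S', -, rfl⟩ := Finset.mem_image.mp (Finset.mem_coe.mp hI')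
      show Disjoint (κ S) (κ S')
      rw [Finset.disjoint_left]
      intro E hE hE'
      exact hne (ImgE_eq_of_mem n (inc H S) (inc H S') E hE hE')
    rw [← Finset.sum_biUnion hpd]
    exact Finset.sum_le_sum_of_subset_of_nonneg (Finset.subset_univ _) (fun E _ _ => hwt E)
  have hfinal := sum_gSet_le F n (2 * q) (by linarith)
  calc ((injFin F H).card : ℝ) = ∑ S ∈ A, ((homsOnto F H S).card : ℝ) := by
        rw [hcard]
        push_cast
        rfl
    _ = ∑ I ∈ A.image κ, ∑ S ∈ A.filter (fun S => κ S = I), ((homsOnto F H S).card : ℝ) :=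
        hsplit
    _ ≤ ∑ I ∈ A.image κ, 3 * 2 ^ k * ∑ E ∈ I, wt E := Finset.sum_le_sum hclass
    _ = 3 * 2 ^ k * ∑ I ∈ A.image κ, ∑ E ∈ I, wt E := by rw [Finset.mul_sum]
    _ ≤ 3 * 2 ^ k * ∑ E : Finset (Sym2 (Fin n)), wt E :=
        mul_le_mul_of_nonneg_left hdisj (by positivity)
    _ ≤ 3 * 2 ^ k * (((injFin F (⊤ : SimpleGraph (Fin n))).card : ℝ)
        * ((2 * q) ^ F.edgeSet.ncard * (1 + 2 * q) ^ (k * n))) :=
        mul_le_mul_of_nonneg_left hfinal (by positivity)

end Vale.Agent.Lib.P064
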