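import Mathlib
import Vale.Agent.Lib.P064.Transfer
import Vale.Agent.Lib.P064.Conn

namespace Vale.Agent.Lib.P064

open Finset

universe u

theorem card_injFin_le_mul {U W : Type*} [Fintype U] [Fintype W] (F : SimpleGraph U)
    (H : SimpleGraph W) (C : Set U) [Fintype ↥C] [Fintype ↥(Cᶜ : Set U)] :
    (injFin F H).card ≤ (injFin (F.induce C) H).card * (injFin (F.induce (Cᶜ : Set U)) H).card := by
  classical
  rw [← Finset.card_product]
  apply Finset.card_le_card_of_injOn
    (fun φ : U → W => ((fun x : ↥C => φ x), (fun x : ↥(Cᶜ : Set U) => φ x)))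
  · intro φ hφ
    rw [Finset.mem_coe, mem_injFin] at hφ
    obtain ⟨hinj, hhom⟩ := hφ
    rw [Finset.mem_coe, Finset.mem_product, mem_injFin, mem_injFin]
    refine ⟨⟨?_, ?_⟩, ⟨?_, ?_⟩⟩
    · intro a b hab
      exact Subtype.ext (hinj hab)
    · intro a b hab
      exact hhom a b hab
    · intro a b hab
      exact Subtype.ext (hinj hab)
    · intro a b hab
      exact hhom a b hab
  · intro φ₁ _ φ₂ _ h
    funext x
    by_cases hx : x ∈ C
    · have := congrFun (congrArg Prod.fst h) ⟨x, hx⟩
      exact this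
    · have := congrFun (congrArg Prod.snd h) ⟨x, hx⟩
      exact this

theorem edge_split {U : Type*} [Finite U] (F : SimpleGraph U) (C : Set U)
    (hC : ∀ a b, F.Adj a b → (a ∈ C ↔ b ∈ C)) :
    F.edgeSet.ncard = (F.induce C).edgeSet.ncard + (F.induce (Cᶜ : Set U)).edgeSet.ncard := by
  have h1 : F.edgeSet = (Sym2.map Subtype.val '' (F.induce C).edgeSet)
      ∪ (Sym2.map Subtype.val '' (F.induce (Cᶜ : Set U)).edgeSet) := by
    ext e
    induction e using Sym2.inductionOn with
    | hf a b =>
      rw [SimpleGraph.mem_edgeSet, Set.mem_union, Set.mem_image, Set.mem_image]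
      constructor
      · intro hab
        by_cases ha : a ∈ C
        · have hb : b ∈ C := (hC a b hab).mp ha
          left
          exact ⟨s(⟨a, ha⟩, ⟨b, hb⟩), hab, rfl⟩
        · have hb : b ∉ C := fun hb => ha ((hC a b hab).mpr hb)
          right
          exact ⟨s(⟨a, ha⟩, ⟨b, hb⟩), hab, rfl⟩
      · rintro (⟨e', he', heq⟩ | ⟨e', he', heq⟩)
        · induction e' using Sym2.inductionOn with
          | hf x y =>
            rw [Sym2.map_mk] at heq
            rw [← SimpleGraph.mem_edgeSet, ← heq]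
            exact he'
        · induction e' using Sym2.inductionOn with
          | hf x y =>
            rw [Sym2.map_mk] at heq
            rw [← SimpleGraph.mem_edgeSet, ← heq]
            exact he'
  have hdisj : Disjoint (Sym2.map Subtype.val '' (F.induce C).edgeSet)
      (Sym2.map Subtype.val '' (F.induce (Cᶜ : Set U)).edgeSet) := by
    rw [Set.disjoint_left]
    rintro e ⟨e₁, -, rfl⟩ ⟨e₂, -, heq⟩
    induction e₁ using Sym2.inductionOn with
    | hf x y =>
      induction e₂ using Sym2.inductionOn with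
      | hf x' y' =>
        rw [Sym2.map_mk, Sym2.map_mk, Sym2.eq_iff] at heq
        rcases heq with ⟨h, -⟩ | ⟨h, -⟩
        · exact x'.2 (h ▸ x.2)
        · exact x'.2 (h ▸ y.2)
  rw [h1, Set.ncard_union_eq hdisj (Set.toFinite _) (Set.toFinite _),
    Set.ncard_image_of_injective _ (Sym2.map.injective Subtype.val_injective),
    Set.ncard_image_of_injective _ (Sym2.map.injective Subtype.val_injective)]

theorem card_injFin_top_le {U : Type*} [Fintype U] (F : SimpleGraph U) (n : ℕ) :
    (injFin F (⊤ : SimpleGraph (Fin n))).card ≤ n ^ Fintype.card U := by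
  classical
  calc (injFin F (⊤ : SimpleGraph (Fin n))).card ≤ Fintype.card (U → Fin n) := Finset.card_le_univ _
    _ = n ^ Fintype.card U := by rw [Fintype.card_fun, Fintype.card_fin]

theorem noiso_inj_bound {W : Type*} [Fintype W] (H : SimpleGraph W) (n : ℕ)
    (hW : Fintype.card W ≤ n) (q : ℝ) (hq0 : 0 ≤ q)
    (hyp : ∀ F : H.Subgraph,
      1 ≤ ((⊤ : SimpleGraph (Fin n)).copyCount F.coe : ℝ) * q ^ F.coe.edgeSet.ncard) :
    ∀ (m : ℕ) (U : Type u) [Fintype U] (F : SimpleGraph U), Fintype.card U = m →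
      (∀ a, ∃ b, F.Adj a b) →
      ((injFin F H).card : ℝ)
        ≤ (6 * (n : ℝ)) ^ m * ((2 * q) ^ F.edgeSet.ncard * (1 + 2 * q) ^ (m * n)) := by
  intro m
  induction m using Nat.strong_induction_on with
  | _ m ih =>
    intro U _ F hcard hniso
    classical
    rcases isEmpty_or_nonempty U with hU | ⟨⟨u₀⟩⟩
    · have hm : m = 0 := by
        rw [← hcard]
        exact Fintype.card_eq_zero
      have he : F.edgeSet.ncard = 0 := by
        rw [Set.ncard_eq_zero]
        ext e
        induction e using Sym2.inductionOn with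
        | hf a b => exact isEmptyElim a
      have hle : (injFin F H).card ≤ 1 := Finset.card_le_one_of_subsingleton _
      rw [hm, he]
      simp only [pow_zero, zero_mul, mul_one]
      exact_mod_cast hle
    · set Cc := F.connectedComponentMk u₀ with hCc
      set C : Set U := Cc.supp with hCdef
      have hconn : (F.induce C).Connected := Cc.connected_toSimpleGraph
      have hcross : ∀ a b, F.Adj a b → (a ∈ C ↔ b ∈ C) := by
        intro a b hab
        exact Cc.mem_supp_congr_adj hab
      have hu₀ : u₀ ∈ C := rfl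
      obtain ⟨v₀, hv₀⟩ := hniso u₀
      have hv₀C : v₀ ∈ C := (hcross u₀ v₀ hv₀).mp hu₀
      have hk₁ : 2 ≤ Fintype.card ↥C := by
        have : 1 < Fintype.card ↥C := by
          rw [Fintype.one_lt_card_iff]
          refine ⟨⟨u₀, hu₀⟩, ⟨v₀, hv₀C⟩, ?_⟩
          intro h
          exact F.ne_of_adj hv₀ (congrArg Subtype.val h)
        exact this
      have hsum : Fintype.card ↥C + Fintype.card ↥(Cᶜ : Set U) = m := by
        rw [← hcard, ← Fintype.card_sum]
        exact Fintype.card_congr (Equiv.Set.sumCompl C)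
      have hniso₂ : ∀ a : ↥(Cᶜ : Set U), ∃ b, (F.induce (Cᶜ : Set U)).Adj a b := by
        intro a
        obtain ⟨b, hab⟩ := hniso a
        have hb : b ∉ C := fun hb => a.2 ((hcross a b hab).mpr hb)
        exact ⟨⟨b, hb⟩, hab⟩
      set k₁ := Fintype.card ↥C with hk₁def
      set k₂ := Fintype.card ↥(Cᶜ : Set U) with hk₂def
      have hk₂lt : k₂ < m := by omega
      have h1 := conn_inj_bound (F.induce C) H n hW q hq0 hyp hconn hk₁
      have h2 := ih k₂ hk₂lt ↥(Cᶜ : Set U) (F.induce (Cᶜ : Set U)) rfl hniso₂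
      have h3 : ((injFin F H).card : ℝ)
          ≤ ((injFin (F.induce C) H).card : ℝ) * ((injFin (F.induce (Cᶜ : Set U)) H).card : ℝ) := by
        exact_mod_cast card_injFin_le_mul F H C
      have h4 : ((injFin (F.induce C) (⊤ : SimpleGraph (Fin n))).card : ℝ) ≤ (n : ℝ) ^ k₁ := by
        exact_mod_cast card_injFin_top_le (F.induce C) n
      have he := edge_split F C hcross
      set e₁ := (F.induce C).edgeSet.ncard with he₁
      set e₂ := (F.induce (Cᶜ : Set U)).edgeSet.ncard with he₂
      have h5 : (3 : ℝ) * 2 ^ k₁ ≤ 6 ^ k₁ := by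
        have : (6 : ℝ) ^ k₁ = 3 ^ k₁ * 2 ^ k₁ := by
          rw [← mul_pow]
          norm_num
        rw [this]
        apply mul_le_mul_of_nonneg_right _ (by positivity)
        calc (3 : ℝ) = 3 ^ 1 := by norm_num
          _ ≤ 3 ^ k₁ := pow_le_pow_right₀ (by norm_num) (by omega)
      have hq2 : (0 : ℝ) ≤ 2 * q := by linarith
      have hq3 : (0 : ℝ) ≤ 1 + 2 * q := by linarith
      have hn0 : (0 : ℝ) ≤ n := Nat.cast_nonneg n
      have h6 : ((injFin (F.induce C) H).card : ℝ)
          ≤ (6 * (n : ℝ)) ^ k₁ * ((2 * q) ^ e₁ * (1 + 2 * q) ^ (k₁ * n)) := by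
        refine h1.trans ?_
        have hX : (0 : ℝ) ≤ (2 * q) ^ e₁ * (1 + 2 * q) ^ (k₁ * n) := by positivity
        calc 3 * 2 ^ k₁ * (((injFin (F.induce C) (⊤ : SimpleGraph (Fin n))).card : ℝ)
              * ((2 * q) ^ e₁ * (1 + 2 * q) ^ (k₁ * n)))
            ≤ 6 ^ k₁ * ((n : ℝ) ^ k₁ * ((2 * q) ^ e₁ * (1 + 2 * q) ^ (k₁ * n))) := by
              apply mul_le_mul h5 _ (by positivity) (by positivity)
              exact mul_le_mul_of_nonneg_right h4 hX
          _ = (6 * (n : ℝ)) ^ k₁ * ((2 * q) ^ e₁ * (1 + 2 * q) ^ (k₁ * n)) := by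
              rw [mul_pow]
              ring
      calc ((injFin F H).card : ℝ)
          ≤ ((injFin (F.induce C) H).card : ℝ) * ((injFin (F.induce (Cᶜ : Set U)) H).card : ℝ) := h3
        _ ≤ ((6 * (n : ℝ)) ^ k₁ * ((2 * q) ^ e₁ * (1 + 2 * q) ^ (k₁ * n)))
            * ((6 * (n : ℝ)) ^ k₂ * ((2 * q) ^ e₂ * (1 + 2 * q) ^ (k₂ * n))) := by
            apply mul_le_mul h6 h2 (Nat.cast_nonneg _) (by positivity)
        _ = (6 * (n : ℝ)) ^ m * ((2 * q) ^ F.edgeSet.ncard * (1 + 2 * q) ^ (m * n)) := by
            rw [he, ← hsum, pow_add, pow_add, add_mul, pow_add]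
            ring

end Vale.Agent.Lib.P064
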