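import Mathlib
import Vale.Agent.Lib.P064.Transfer
import Vale.Agent.Lib.P064.Conn
import Vale.Agent.Lib.P064.Split
import Vale.Agent.Lib.P064.Aut

namespace Vale.Agent.Lib.P064

open Finset

universe u

theorem succ_pow_le (N k : ℕ) (hk : k ≤ N) : ((N : ℝ) + 1) ^ k ≤ 3 * (N : ℝ) ^ k := by
  rcases Nat.eq_zero_or_pos N with rfl | hN
  · have : k = 0 := by omega
    subst this
    norm_num
  · have hN' : (0 : ℝ) < N := by exact_mod_cast hN
    have h1 : (N : ℝ) + 1 ≤ N * Real.exp (1 / N) := by
      have := Real.add_one_le_exp (1 / (N : ℝ))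
      calc (N : ℝ) + 1 = N * (1 / N + 1) := by
            field_simp
            ring
        _ ≤ N * Real.exp (1 / N) := mul_le_mul_of_nonneg_left this hN'.le
    have h2 : Real.exp (1 / (N : ℝ)) ^ k ≤ 3 := by
      rw [← Real.exp_nat_mul]
      have h3 : (k : ℝ) * (1 / (N : ℝ)) ≤ 1 := by
        rw [mul_one_div, div_le_one hN']
        exact_mod_cast hk
      calc Real.exp ((k : ℝ) * (1 / (N : ℝ))) ≤ Real.exp 1 := Real.exp_le_exp.mpr h3
        _ ≤ 3 := Real.exp_one_lt_three.le
    calc ((N : ℝ) + 1) ^ k ≤ ((N : ℝ) * Real.exp (1 / N)) ^ k :=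
          pow_le_pow_left₀ (by positivity) h1 k
      _ = (N : ℝ) ^ k * Real.exp (1 / N) ^ k := mul_pow _ _ _
      _ ≤ (N : ℝ) ^ k * 3 := mul_le_mul_of_nonneg_left h2 (by positivity)
      _ = 3 * (N : ℝ) ^ k := mul_comm _ _

theorem pow_le_three_pow_descFactorial (m : ℕ) :
    ∀ k : ℕ, ((m + k : ℕ) : ℝ) ^ k ≤ 3 ^ k * ((m + k).descFactorial k : ℝ) := by
  intro k
  induction k with
  | zero => simp
  | succ k ih =>
    have h1 : (m + (k + 1)).descFactorial (k + 1) = (m + k + 1) * (m + k).descFactorial k :=
      Nat.succ_descFactorial_succ (m + k) k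
    have h2 := succ_pow_le (m + k) k (by omega)
    have h3 : ((m + (k + 1) : ℕ) : ℝ) = ((m + k : ℕ) : ℝ) + 1 := by
      push_cast
      ring
    rw [h1, h3]
    push_cast at ih h2 ⊢
    have h4 : (0 : ℝ) ≤ (m : ℝ) + k + 1 := by positivity
    calc ((m : ℝ) + k + 1) ^ (k + 1) = ((m : ℝ) + k + 1) ^ k * ((m : ℝ) + k + 1) := pow_succ _ _
      _ ≤ (3 * ((m : ℝ) + k) ^ k) * ((m : ℝ) + k + 1) := mul_le_mul_of_nonneg_right h2 h4
      _ ≤ (3 * (3 ^ k * ((m + k).descFactorial k : ℝ))) * ((m : ℝ) + k + 1) := by
          apply mul_le_mul_of_nonneg_right _ h4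
          exact mul_le_mul_of_nonneg_left ih (by norm_num)
      _ = 3 ^ (k + 1) * (((m : ℝ) + k + 1) * ((m + k).descFactorial k : ℝ)) := by
          rw [pow_succ]
          ring

theorem pow_le_descFactorial (n k : ℕ) (hk : k ≤ n) :
    (n : ℝ) ^ k ≤ 3 ^ k * (n.descFactorial k : ℝ) := by
  obtain ⟨m, rfl⟩ : ∃ m, n = m + k := ⟨n - k, by omega⟩
  exact pow_le_three_pow_descFactorial m k

theorem card_le_two_mul_edges {U : Type*} [Fintype U] (F : SimpleGraph U)
    (h : ∀ a, ∃ b, F.Adj a b) : Fintype.card U ≤ 2 * F.edgeSet.ncard := by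
  classical
  have h1 := F.sum_degrees_eq_twice_card_edges
  have h2 : F.edgeSet.ncard = F.edgeFinset.card := by
    rw [Set.ncard_eq_toFinset_card']
    rfl
  rw [h2, ← h1]
  calc Fintype.card U = ∑ _v : U, 1 := by simp
    _ ≤ ∑ v, F.degree v := by
        apply Finset.sum_le_sum
        intro v _
        exact (F.degree_pos_iff_exists_adj v).mpr (h v)

theorem card_injFin_remove {U W : Type*} [Fintype U] [Fintype W] (F : SimpleGraph U)
    (H : SimpleGraph W) (u : U) [Fintype ↥({u}ᶜ : Set U)] :
    (injFin F H).card ≤ (Fintype.card W - (Fintype.card U - 1))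
      * (injFin (F.induce ({u}ᶜ : Set U)) H).card := by
  classical
  have hcardc : Fintype.card ↥({u}ᶜ : Set U) = Fintype.card U - 1 := by
    have h1 : Fintype.card ↥({u} : Set U) + Fintype.card ↥({u}ᶜ : Set U) = Fintype.card U := by
      rw [← Fintype.card_sum]
      exact Fintype.card_congr (Equiv.Set.sumCompl ({u} : Set U))
    have h2 : Fintype.card ↥({u} : Set U) = 1 := by simp
    omega
  apply Finset.card_le_mul_card_image_of_maps_to
    (f := fun φ : U → W => fun x : ↥({u}ᶜ : Set U) => φ x)
  · intro φ hφ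
    rw [mem_injFin] at hφ ⊢
    obtain ⟨hinj, hhom⟩ := hφ
    refine ⟨?_, ?_⟩
    · intro a b hab
      exact Subtype.ext (hinj hab)
    · intro a b hab
      exact hhom a b hab
  · intro φ' hφ'
    rw [mem_injFin] at hφ'
    have h1 : ((Finset.univ : Finset W) \ (Finset.univ.image φ')).card
        = Fintype.card W - (Fintype.card U - 1) := by
      rw [Finset.card_sdiff_of_subset (Finset.subset_univ _), Finset.card_univ,
        Finset.card_image_of_injective _ hφ'.1, Finset.card_univ, hcardc]
    rw [← h1]
    apply Finset.card_le_card_of_injOn (fun φ : U → W => φ u)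
    · intro φ hφ
      rw [Finset.mem_coe, Finset.mem_filter, mem_injFin] at hφ
      obtain ⟨⟨hinj, -⟩, hres⟩ := hφ
      rw [Finset.mem_coe, Finset.mem_sdiff]
      refine ⟨Finset.mem_univ _, ?_⟩
      intro hmem
      obtain ⟨x, -, hx⟩ := Finset.mem_image.mp hmem
      rw [← hres] at hx
      have hxu : (x : U) = u := hinj hx
      exact x.2 hxu
    · intro φ₁ hφ₁ φ₂ hφ₂ h
      rw [Finset.mem_coe, Finset.mem_filter] at hφ₁ hφ₂
      funext x
      by_cases hx : x = u
      · rw [hx]
        exact h
      · have h1 := congrFun hφ₁.2 ⟨x, hx⟩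
        have h2 := congrFun hφ₂.2 ⟨x, hx⟩
        exact h1.trans h2.symm

theorem card_injFin_top {U : Type*} [Fintype U] (F : SimpleGraph U) (n : ℕ) :
    (injFin F (⊤ : SimpleGraph (Fin n))).card = n.descFactorial (Fintype.card U) := by
  classical
  have h1 : Fintype.card (U ↪ Fin n) = n.descFactorial (Fintype.card U) := by
    rw [Fintype.card_embedding_eq, Fintype.card_fin]
  rw [← h1, ← Finset.card_univ]
  symm
  apply Finset.card_bij (fun (f : U ↪ Fin n) _ => (f : U → Fin n))
  · intro f _
    rw [mem_injFin_top]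
    exact f.injective
  · intro f _ g _ h
    exact DFunLike.coe_injective h
  · intro φ hφ
    rw [mem_injFin_top] at hφ
    exact ⟨⟨φ, hφ⟩, Finset.mem_univ _, rfl⟩

theorem general_inj_bound {W : Type*} [Fintype W] (H : SimpleGraph W) (n : ℕ)
    (hW : Fintype.card W ≤ n) (q : ℝ) (hq0 : 0 ≤ q)
    (hyp : ∀ F : H.Subgraph,
      1 ≤ ((⊤ : SimpleGraph (Fin n)).copyCount F.coe : ℝ) * q ^ F.coe.edgeSet.ncard) :
    ∀ (m : ℕ) (U : Type u) [Fintype U] (F : SimpleGraph U), Fintype.card U = m →
      ((injFin F H).card : ℝ)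
        ≤ (n.descFactorial m : ℝ) * (648 * Real.exp (4 * n * q) * q) ^ F.edgeSet.ncard := by
  intro m
  induction m with
  | zero =>
    intro U _ F hcard
    have hU : IsEmpty U := Fintype.card_eq_zero_iff.mp hcard
    have he : F.edgeSet.ncard = 0 := by
      rw [Set.ncard_eq_zero]
      ext e
      induction e using Sym2.inductionOn with
      | hf a b => exact isEmptyElim a
    have hle : (injFin F H).card ≤ 1 := Finset.card_le_one_of_subsingleton _
    rw [he]
    simp only [Nat.descFactorial_zero, Nat.cast_one, pow_zero, mul_one]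
    exact_mod_cast hle
  | succ m ih =>
    intro U _ F hcard
    classical
    have hB0 : (0 : ℝ) ≤ 648 * Real.exp (4 * n * q) * q := by positivity
    by_cases hiso : ∃ u, ∀ v, ¬ F.Adj u v
    · obtain ⟨u, hu⟩ := hiso
      have hcardc : Fintype.card ↥({u}ᶜ : Set U) = m := by
        have h1 : Fintype.card ↥({u} : Set U) + Fintype.card ↥({u}ᶜ : Set U) = Fintype.card U := by
          rw [← Fintype.card_sum]
          exact Fintype.card_congr (Equiv.Set.sumCompl ({u} : Set U))
        have h2 : Fintype.card ↥({u} : Set U) = 1 := by simp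
        omega
      have hcross : ∀ a b, F.Adj a b → (a ∈ ({u} : Set U) ↔ b ∈ ({u} : Set U)) := by
        intro a b hab
        constructor
        · intro ha
          rw [Set.mem_singleton_iff] at ha
          rw [ha] at hab
          exact absurd hab (hu b)
        · intro hb
          rw [Set.mem_singleton_iff] at hb
          rw [hb] at hab
          exact absurd hab.symm (hu a)
      have he := edge_split F ({u} : Set U) hcross
      have he0 : (F.induce ({u} : Set U)).edgeSet.ncard = 0 := by
        rw [Set.ncard_eq_zero]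
        ext e
        induction e using Sym2.inductionOn with
        | hf a b =>
          simp only [SimpleGraph.mem_edgeSet, Set.mem_empty_iff_false, iff_false]
          intro hab
          have hab' : F.Adj a b := hab
          have ha : (a : U) = u := a.2
          rw [ha] at hab'
          exact hu b hab'
      rw [he0, zero_add] at he
      have h1 := card_injFin_remove F H u
      rw [hcard] at h1
      have h2 := ih ↥({u}ᶜ : Set U) (F.induce ({u}ᶜ : Set U)) hcardc
      rw [← he] at h2
      have h3 : Fintype.card W - (m + 1 - 1) ≤ n - m := by omega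
      rw [Nat.descFactorial_succ]
      calc ((injFin F H).card : ℝ)
          ≤ ((Fintype.card W - (m + 1 - 1) : ℕ) : ℝ)
            * ((injFin (F.induce ({u}ᶜ : Set U)) H).card : ℝ) := by exact_mod_cast h1
        _ ≤ ((n - m : ℕ) : ℝ) * ((n.descFactorial m : ℝ)
            * (648 * Real.exp (4 * n * q) * q) ^ F.edgeSet.ncard) := by
            apply mul_le_mul _ h2 (Nat.cast_nonneg _) (Nat.cast_nonneg _)
            exact_mod_cast h3
        _ = (((n - m) * n.descFactorial m : ℕ) : ℝ)
            * (648 * Real.exp (4 * n * q) * q) ^ F.edgeSet.ncard := by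
            push_cast
            ring
    · have hniso : ∀ a, ∃ b, F.Adj a b := by
        intro a
        by_contra hcon
        exact hiso ⟨a, fun v hv => hcon ⟨v, hv⟩⟩
      by_cases hkW : m + 1 ≤ Fintype.card W
      · have hkn : m + 1 ≤ n := hkW.trans hW
        have h1 := noiso_inj_bound H n hW q hq0 hyp (m + 1) U F hcard hniso
        have h2 := pow_le_descFactorial n (m + 1) hkn
        have h3 : m + 1 ≤ 2 * F.edgeSet.ncard := by
          rw [← hcard]
          exact card_le_two_mul_edges F hniso
        set e := F.edgeSet.ncard with hedef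
        have hD0 : (0 : ℝ) ≤ (n.descFactorial (m + 1) : ℝ) := Nat.cast_nonneg _
        have hn0 : (0 : ℝ) ≤ n := Nat.cast_nonneg n
        have h4 : (6 * (n : ℝ)) ^ (m + 1) ≤ (n.descFactorial (m + 1) : ℝ) * 324 ^ e := by
          calc (6 * (n : ℝ)) ^ (m + 1) = 6 ^ (m + 1) * (n : ℝ) ^ (m + 1) := mul_pow _ _ _
            _ ≤ 6 ^ (m + 1) * (3 ^ (m + 1) * (n.descFactorial (m + 1) : ℝ)) :=
                mul_le_mul_of_nonneg_left h2 (by positivity)
            _ = (n.descFactorial (m + 1) : ℝ) * 18 ^ (m + 1) := by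
                have : (18 : ℝ) ^ (m + 1) = 6 ^ (m + 1) * 3 ^ (m + 1) := by
                  rw [← mul_pow]
                  norm_num
                rw [this]
                ring
            _ ≤ (n.descFactorial (m + 1) : ℝ) * 18 ^ (2 * e) := by
                apply mul_le_mul_of_nonneg_left _ hD0
                exact pow_le_pow_right₀ (by norm_num) h3
            _ = (n.descFactorial (m + 1) : ℝ) * 324 ^ e := by
                rw [pow_mul]
                norm_num
        have h5 : (1 + 2 * q) ^ ((m + 1) * n) ≤ Real.exp (4 * n * q) ^ e := by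
          have h6 : 1 + 2 * q ≤ Real.exp (2 * q) := by
            have := Real.add_one_le_exp (2 * q)
            linarith
          calc (1 + 2 * q) ^ ((m + 1) * n) ≤ Real.exp (2 * q) ^ ((m + 1) * n) :=
                pow_le_pow_left₀ (by linarith) h6 _
            _ = Real.exp ((((m + 1) * n : ℕ) : ℝ) * (2 * q)) := (Real.exp_nat_mul _ _).symm
            _ ≤ Real.exp ((e : ℝ) * (4 * n * q)) := by
                apply Real.exp_le_exp.mpr
                have h7 : (((m + 1 : ℕ) : ℝ)) ≤ 2 * (e : ℝ) := by exact_mod_cast h3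
                have h8 : (0 : ℝ) ≤ (n : ℝ) * (2 * q) := by positivity
                calc (((m + 1) * n : ℕ) : ℝ) * (2 * q) = ((m + 1 : ℕ) : ℝ) * ((n : ℝ) * (2 * q)) := by
                      push_cast
                      ring
                  _ ≤ (2 * (e : ℝ)) * ((n : ℝ) * (2 * q)) := mul_le_mul_of_nonneg_right h7 h8
                  _ = (e : ℝ) * (4 * n * q) := by ring
            _ = Real.exp (4 * n * q) ^ e := Real.exp_nat_mul _ _
        have hq2 : (0 : ℝ) ≤ (2 * q) ^ e := by positivity
        calc ((injFin F H).card : ℝ)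
            ≤ (6 * (n : ℝ)) ^ (m + 1) * ((2 * q) ^ e * (1 + 2 * q) ^ ((m + 1) * n)) := h1
          _ ≤ ((n.descFactorial (m + 1) : ℝ) * 324 ^ e)
              * ((2 * q) ^ e * Real.exp (4 * n * q) ^ e) := by
              apply mul_le_mul h4 _ (by positivity) (by positivity)
              exact mul_le_mul_of_nonneg_left h5 hq2
          _ = (n.descFactorial (m + 1) : ℝ) * (648 * Real.exp (4 * n * q) * q) ^ e := by
              rw [mul_pow, mul_pow, mul_pow]
              have : (648 : ℝ) ^ e = 324 ^ e * 2 ^ e := by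
                rw [← mul_pow]
                norm_num
              rw [this]
              ring
      · have h0 : (injFin F H).card = 0 := by
          rw [Finset.card_eq_zero]
          apply Finset.eq_empty_of_forall_notMem
          intro φ hφ
          rw [mem_injFin] at hφ
          have := Fintype.card_le_of_injective φ hφ.1
          omega
        rw [h0]
        simp only [Nat.cast_zero]
        positivity

theorem general_copy_bound {W : Type*} [Fintype W] (H : SimpleGraph W) (n : ℕ)
    (hW : Fintype.card W ≤ n) (q : ℝ) (hq0 : 0 ≤ q)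
    (hyp : ∀ F : H.Subgraph,
      1 ≤ ((⊤ : SimpleGraph (Fin n)).copyCount F.coe : ℝ) * q ^ F.coe.edgeSet.ncard)
    {U : Type u} [Fintype U] (F : SimpleGraph U) :
    (H.copyCount F : ℝ) ≤ ((⊤ : SimpleGraph (Fin n)).copyCount F : ℝ)
      * (648 * Real.exp (4 * n * q) * q) ^ F.edgeSet.ncard := by
  have h1 := general_inj_bound H n hW q hq0 hyp (Fintype.card U) U F rfl
  rw [card_injFin_eq F H, ← card_injFin_top F n, card_injFin_eq F (⊤ : SimpleGraph (Fin n))] at h1
  have ha : (0 : ℝ) < (Nat.card (F ≃g F) : ℝ) := by exact_mod_cast aut_pos F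
  push_cast at h1
  have h2 : (H.copyCount F : ℝ) * (Nat.card (F ≃g F) : ℝ)
      ≤ (((⊤ : SimpleGraph (Fin n)).copyCount F : ℝ)
        * (648 * Real.exp (4 * n * q) * q) ^ F.edgeSet.ncard) * (Nat.card (F ≃g F) : ℝ) := by
    calc (H.copyCount F : ℝ) * (Nat.card (F ≃g F) : ℝ)
        ≤ ((⊤ : SimpleGraph (Fin n)).copyCount F : ℝ) * (Nat.card (F ≃g F) : ℝ)
          * (648 * Real.exp (4 * n * q) * q) ^ F.edgeSet.ncard := h1
      _ = _ := by ring
  exact le_of_mul_le_mul_right h2 ha

end Vale.Agent.Lib.P064
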