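import Mathlib
import Vale.Agent.Lib.P064.Defs
import Vale.Agent.Lib.P064.Expectation
import Vale.Agent.Lib.P064.Counting
import Vale.Agent.Lib.P064.General

namespace Vale.Agent.Lib.P064

open Finset

theorem copyCount_le_top {W : Type*} [Fintype W] (H : SimpleGraph W) (n : ℕ)
    (hW : Fintype.card W ≤ n) {U : Type*} (F : SimpleGraph U) :
    H.copyCount F ≤ (⊤ : SimpleGraph (Fin n)).copyCount F := by
  have hcard : Fintype.card W ≤ Fintype.card (Fin n) := by
    rw [Fintype.card_fin]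
    exact hW
  obtain ⟨f⟩ := Function.Embedding.nonempty_of_card_le hcard
  have hhom : ∀ a b, H.Adj a b → (⊤ : SimpleGraph (Fin n)).Adj (f a) (f b) := by
    intro a b hab
    rw [SimpleGraph.top_adj]
    exact fun h => hab.ne (f.injective h)
  let c : SimpleGraph.Copy H (⊤ : SimpleGraph (Fin n)) :=
    ⟨⟨f, fun {a b} h => hhom a b h⟩, f.injective⟩
  exact copyCount_le_of_copy c F

theorem one_le_copyCount_top {W : Type*} [Fintype W] (H : SimpleGraph W) (n : ℕ)
    (hW : Fintype.card W ≤ n) (F : H.Subgraph) :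
    1 ≤ (⊤ : SimpleGraph (Fin n)).copyCount F.coe := by
  have h1 : 0 < H.copyCount F.coe := SimpleGraph.copyCount_pos.mpr F.coe_isContained
  have h2 := copyCount_le_top H n hW F.coe
  omega

/-- The counting lemma for all graphs `F`, with a constant depending only on `n * q`. -/
theorem sparse_counting (n : ℕ) {W : Type*} [Fintype W] (H : SimpleGraph W)
    (hW : Fintype.card W ≤ n) (q : ℝ) (hq0 : 0 ≤ q)
    (hyp : ∀ F : H.Subgraph, 1 ≤ expectedCopies n q F.coe)
    {U : Type*} [Fintype U] (F : SimpleGraph U) :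
    (H.copyCount F : ℝ)
      ≤ expectedCopies n (min 1 (648 * Real.exp (4 * n * q) * q)) F := by
  have hyp' : ∀ F : H.Subgraph,
      1 ≤ ((⊤ : SimpleGraph (Fin n)).copyCount F.coe : ℝ) * q ^ F.coe.edgeSet.ncard := by
    intro F
    have := hyp F
    rw [expectedCopies_eq] at this
    exact this
  rw [expectedCopies_eq]
  by_cases hL : 1 ≤ 648 * Real.exp (4 * n * q) * q
  · rw [min_eq_left hL, one_pow, mul_one]
    exact_mod_cast copyCount_le_top H n hW F
  · rw [min_eq_right (not_le.mp hL).le]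
    exact general_copy_bound H n hW q hq0 hyp' F

theorem pE_mem (n : ℕ) {W : Type*} [Fintype W] (H : SimpleGraph W)
    (hW : Fintype.card W ≤ n) :
    0 ≤ pE n H ∧ pE n H ≤ 1 ∧ ∀ F : H.Subgraph, 1 / 2 ≤ expectedCopies n (pE n H) F.coe := by
  set P : Set ℝ := {p : ℝ | 0 ≤ p ∧ p ≤ 1 ∧ ∀ F : H.Subgraph, 1 / 2 ≤ expectedCopies n p F.coe}
    with hP
  have hPeq : P = {p : ℝ | 0 ≤ p} ∩ ({p : ℝ | p ≤ 1} ∩ ⋂ F : H.Subgraph,
      {p : ℝ | 1 / 2 ≤ ((⊤ : SimpleGraph (Fin n)).copyCount F.coe : ℝ)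
        * p ^ F.coe.edgeSet.ncard}) := by
    ext p
    simp only [hP, Set.mem_ofPred_eq, Set.mem_inter_iff, Set.mem_iInter, expectedCopies_eq]
  have hclosed : IsClosed P := by
    rw [hPeq]
    apply IsClosed.inter (isClosed_le continuous_const continuous_id)
    apply IsClosed.inter (isClosed_le continuous_id continuous_const)
    apply isClosed_iInter
    intro F
    exact isClosed_le continuous_const (by fun_prop)
  have hne : P.Nonempty := by
    refine ⟨1, zero_le_one, le_refl 1, ?_⟩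
    intro F
    rw [expectedCopies_eq, one_pow, mul_one]
    have : (1 : ℝ) ≤ ((⊤ : SimpleGraph (Fin n)).copyCount F.coe : ℝ) := by
      exact_mod_cast one_le_copyCount_top H n hW F
    linarith
  have hbdd : BddBelow P := ⟨0, fun p hp => hp.1⟩
  have hmem : sInf P ∈ P := hclosed.csInf_mem hne hbdd
  exact hmem

/-- In the sparse regime the two expectation thresholds agree up to a constant factor. -/
theorem pEtilde_le (n : ℕ) {W : Type*} [Fintype W] (H : SimpleGraph W)
    (hW : Fintype.card W ≤ n) (c : ℝ) (hc : (n : ℝ) * pE n H ≤ c) :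
    pEtilde n H ≤ 1296 * Real.exp (8 * c) * pE n H := by
  classical
  obtain ⟨hp0, hp1, hpE⟩ := pE_mem n H hW
  set p₀ := pE n H with hp₀
  have hc0 : 0 ≤ c := le_trans (by positivity) hc
  have hexp1 : 1 ≤ Real.exp (8 * c) := Real.one_le_exp (by linarith)
  have hbdd : BddBelow {p : ℝ | 0 ≤ p ∧ p ≤ 1 ∧
      ∀ F : H.Subgraph, (H.copyCount F.coe : ℝ) / 2 ≤ expectedCopies n p F.coe} :=
    ⟨0, fun p hp => hp.1⟩
  by_cases h2 : 2 * p₀ ≤ 1
  · have hyp : ∀ F : H.Subgraph, 1 ≤ expectedCopies n (2 * p₀) F.coe := by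
      intro F
      have h1 := hpE F
      rw [expectedCopies_eq] at h1 ⊢
      have hN : (1 : ℝ) ≤ ((⊤ : SimpleGraph (Fin n)).copyCount F.coe : ℝ) := by
        exact_mod_cast one_le_copyCount_top H n hW F
      rcases Nat.eq_zero_or_pos F.coe.edgeSet.ncard with he | he
      · rw [he, pow_zero, mul_one]
        exact hN
      · rw [mul_pow]
        have h2e : (2 : ℝ) ≤ 2 ^ F.coe.edgeSet.ncard := by
          calc (2 : ℝ) = 2 ^ 1 := by norm_num
            _ ≤ 2 ^ F.coe.edgeSet.ncard := pow_le_pow_right₀ (by norm_num) he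
        have hx : (0 : ℝ) ≤ ((⊤ : SimpleGraph (Fin n)).copyCount F.coe : ℝ)
            * p₀ ^ F.coe.edgeSet.ncard := by positivity
        nlinarith
    have hcount := fun (F : H.Subgraph) =>
      sparse_counting n H hW (2 * p₀) (by linarith) hyp F.coe
    set p' : ℝ := min 1 (648 * Real.exp (4 * n * (2 * p₀)) * (2 * p₀)) with hp'
    have hL0 : (0 : ℝ) ≤ 648 * Real.exp (4 * n * (2 * p₀)) * (2 * p₀) := by positivity
    have hmem : p' ∈ {p : ℝ | 0 ≤ p ∧ p ≤ 1 ∧
        ∀ F : H.Subgraph, (H.copyCount F.coe : ℝ) / 2 ≤ expectedCopies n p F.coe} := by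
      refine ⟨le_min zero_le_one hL0, min_le_left _ _, ?_⟩
      intro F
      have h1 := hcount F
      have h3 : (0 : ℝ) ≤ (H.copyCount F.coe : ℝ) := Nat.cast_nonneg _
      linarith
    have h4 : pEtilde n H ≤ p' := csInf_le hbdd hmem
    have h5 : Real.exp (4 * n * (2 * p₀)) ≤ Real.exp (8 * c) := by
      apply Real.exp_le_exp.mpr
      nlinarith
    calc pEtilde n H ≤ p' := h4
      _ ≤ 648 * Real.exp (4 * n * (2 * p₀)) * (2 * p₀) := min_le_right _ _
      _ ≤ 648 * Real.exp (8 * c) * (2 * p₀) := by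
          apply mul_le_mul_of_nonneg_right _ (by linarith)
          exact mul_le_mul_of_nonneg_left h5 (by norm_num)
      _ = 1296 * Real.exp (8 * c) * p₀ := by ring
  · have hmem : (1 : ℝ) ∈ {p : ℝ | 0 ≤ p ∧ p ≤ 1 ∧
        ∀ F : H.Subgraph, (H.copyCount F.coe : ℝ) / 2 ≤ expectedCopies n p F.coe} := by
      refine ⟨zero_le_one, le_refl 1, ?_⟩
      intro F
      rw [expectedCopies_eq, one_pow, mul_one]
      have h1 : (H.copyCount F.coe : ℝ) ≤ ((⊤ : SimpleGraph (Fin n)).copyCount F.coe : ℝ) := by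
        exact_mod_cast copyCount_le_top H n hW F.coe
      have h3 : (0 : ℝ) ≤ (H.copyCount F.coe : ℝ) := Nat.cast_nonneg _
      linarith
    have h4 : pEtilde n H ≤ 1 := csInf_le hbdd hmem
    have h5 : (1 : ℝ) / 2 < p₀ := by linarith [not_le.mp h2]
    calc pEtilde n H ≤ 1 := h4
      _ ≤ 1296 * 1 * (1 / 2) := by norm_num
      _ ≤ 1296 * Real.exp (8 * c) * p₀ := by
          apply mul_le_mul _ h5.le (by norm_num) (by positivity)
          exact mul_le_mul_of_nonneg_left hexp1 (by norm_num)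

end Vale.Agent.Lib.P064
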