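import Mathlib
import Vale.Agent.Lib.P064.Config
import Vale.Agent.Lib.P064.Transfer
import Vale.Agent.Lib.P064.Aut
import Vale.Agent.Lib.P064.General
import Vale.Agent.Lib.P064.Expectation

namespace Vale.Agent.Lib.P064

open Finset

open Classical in
/-- The image of the edge set of `H` under the vertex map `σ`. -/
noncomputable def edgeImg {W : Type*} (H : SimpleGraph W) (n : ℕ) (σ : W → Fin n) :
    Finset (Sym2 (Fin n)) :=
  Finset.univ.filter (fun e => ∃ e' ∈ H.edgeSet, Sym2.map σ e' = e)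

theorem mem_edgeImg {W : Type*} (H : SimpleGraph W) (n : ℕ) (σ : W → Fin n)
    (e : Sym2 (Fin n)) : e ∈ edgeImg H n σ ↔ ∃ e' ∈ H.edgeSet, Sym2.map σ e' = e := by
  classical
  unfold edgeImg
  rw [Finset.mem_filter]
  exact ⟨fun h => h.2, fun h => ⟨Finset.mem_univ _, h⟩⟩

theorem edgeImg_subset_top {W : Type*} (H : SimpleGraph W) (n : ℕ) (σ : W → Fin n)
    (hσ : Function.Injective σ) :
    edgeImg H n σ ⊆ (⊤ : SimpleGraph (Fin n)).edgeFinset := by
  intro e he
  obtain ⟨e', he', rfl⟩ := (mem_edgeImg H n σ e).mp he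
  induction e' using Sym2.inductionOn with
  | hf a b =>
    have hab : H.Adj a b := he'
    rw [SimpleGraph.mem_edgeFinset, Sym2.map_mk, SimpleGraph.mem_edgeSet, SimpleGraph.top_adj]
    exact fun h => hab.ne (hσ h)

theorem card_edgeImg {W : Type*} (H : SimpleGraph W) (n : ℕ) (σ : W → Fin n)
    (hσ : Function.Injective σ) : (edgeImg H n σ).card = H.edgeSet.ncard := by
  rw [← Set.ncard_image_of_injective _ (Sym2.map.injective hσ), ← Set.ncard_coe_finset]
  congr 1
  ext e
  rw [Finset.mem_coe, mem_edgeImg, Set.mem_image]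

/-- The graph with edge set `I` on the vertices covered by `I`. -/
def graphOn {V : Type*} (I : Finset (Sym2 V)) : SimpleGraph ↥(vsupp I) where
  Adj x y := x ≠ y ∧ s((x : V), (y : V)) ∈ I
  symm := ⟨fun x y h => ⟨h.1.symm, by rw [Sym2.eq_swap]; exact h.2⟩⟩
  loopless := ⟨fun x h => h.1 rfl⟩

theorem graphOn_edgeSet_ncard {V : Type*} (I : Finset (Sym2 V)) (hI : ∀ e ∈ I, ¬ e.IsDiag) :
    (graphOn I).edgeSet.ncard = I.card := by
  rw [← Set.ncard_coe_finset I,
    ← Set.ncard_image_of_injective _ (Sym2.map.injective Subtype.val_injective)]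
  congr 1
  ext e
  rw [Set.mem_image, Finset.mem_coe]
  constructor
  · rintro ⟨e', he', rfl⟩
    induction e' using Sym2.inductionOn with
    | hf x y =>
      have hxy : (graphOn I).Adj x y := he'
      exact hxy.2
  · intro he
    induction e using Sym2.inductionOn with
    | hf a b =>
      have hab : a ≠ b := fun h => hI _ he (Sym2.mk_isDiag_iff.mpr h)
      have ha : a ∈ vsupp I := ⟨s(a, b), he, Sym2.mem_mk_left a b⟩
      have hb : b ∈ vsupp I := ⟨s(a, b), he, Sym2.mem_mk_right a b⟩
      refine ⟨s(⟨a, ha⟩, ⟨b, hb⟩), ?_, rfl⟩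
      rw [SimpleGraph.mem_edgeSet]
      exact ⟨fun h => hab (congrArg Subtype.val h), he⟩

theorem copyCount_congr_iso {V U₁ U₂ : Type*} [Fintype V] (G : SimpleGraph V)
    (F₁ : SimpleGraph U₁) (F₂ : SimpleGraph U₂) (e : F₁ ≃g F₂) :
    G.copyCount F₁ = G.copyCount F₂ := by
  rw [copyCount_eq_ncard, copyCount_eq_ncard]
  congr 1
  ext G'
  constructor
  · rintro ⟨f⟩
    exact ⟨e.symm.trans f⟩
  · rintro ⟨f⟩
    exact ⟨e.trans f⟩

theorem descFactorial_split (n k : ℕ) :
    ∀ j, n.descFactorial (k + j) = n.descFactorial k * (n - k).descFactorial j := by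
  intro j
  induction j with
  | zero => simp
  | succ j ih =>
    rw [← add_assoc, Nat.descFactorial_succ, ih, Nat.descFactorial_succ, Nat.sub_sub]
    ring

theorem card_inj_into {A : Type*} [Fintype A] {β : Type*} (B : Finset β)
    (R : Finset (A → β)) (hR : ∀ ρ, ρ ∈ R ↔ Function.Injective ρ ∧ ∀ a, ρ a ∈ B) :
    R.card = B.card.descFactorial (Fintype.card A) := by
  classical
  have h1 : Fintype.card (A ↪ ↥B) = B.card.descFactorial (Fintype.card A) := by
    rw [Fintype.card_embedding_eq, Fintype.card_coe]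
  rw [← h1, ← Finset.card_univ]
  symm
  apply Finset.card_bij (fun (f : A ↪ ↥B) _ => fun a => ((f a : ↥B) : β))
  · intro f _
    rw [hR]
    refine ⟨?_, fun a => (f a).2⟩
    intro a b hab
    exact f.injective (Subtype.ext hab)
  · intro f _ g _ h
    apply DFunLike.ext
    intro a
    exact Subtype.ext (congrFun h a)
  · intro ρ hρ
    rw [hR] at hρ
    obtain ⟨hinj, hB⟩ := hρ
    refine ⟨⟨fun a => ⟨ρ a, hB a⟩, ?_⟩, Finset.mem_univ _, rfl⟩
    intro a b hab
    exact hinj (congrArg Subtype.val hab)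

theorem card_contain_le {W : Type*} [Fintype W] (H : SimpleGraph W) (n : ℕ)
    (I : Finset (Sym2 (Fin n))) [Fintype ↥(vsupp I)] (hI : I.Nonempty) :
    ((injFin H (⊤ : SimpleGraph (Fin n))).filter (fun σ => I ⊆ edgeImg H n σ)).card
      ≤ (n - Fintype.card ↥(vsupp I)).descFactorial (Fintype.card W - Fintype.card ↥(vsupp I))
        * (injFin (graphOn I) H).card := by
  classical
  set S := (injFin H (⊤ : SimpleGraph (Fin n))).filter (fun σ => I ⊆ edgeImg H n σ) with hS
  rcases S.eq_empty_or_nonempty with h | ⟨σ₀, hσ₀⟩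
  · rw [h]
    simp
  have hWne : Nonempty W := by
    obtain ⟨e, he⟩ := hI
    have hmem := (Finset.mem_filter.mp hσ₀).2 he
    obtain ⟨e', -, -⟩ := (mem_edgeImg H n σ₀ e).mp hmem
    induction e' using Sym2.inductionOn with
    | hf a b => exact ⟨a⟩
  let τ : (W → Fin n) → (↥(vsupp I) → W) := fun σ x => Function.invFun σ x.1
  have hτ : ∀ σ ∈ S, ∀ x : ↥(vsupp I), σ (τ σ x) = x.1 := by
    intro σ hσ x
    obtain ⟨-, hsub⟩ := Finset.mem_filter.mp hσ
    obtain ⟨e, he, hxe⟩ := x.2
    obtain ⟨e', -, hmap⟩ := (mem_edgeImg H n σ e).mp (hsub he)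
    rw [← hmap] at hxe
    obtain ⟨w, -, hw⟩ := Sym2.mem_map.mp hxe
    exact Function.invFun_eq ⟨w, hw⟩
  have hSinj : ∀ σ ∈ S, Function.Injective σ := by
    intro σ hσ
    exact (mem_injFin_top H n σ).mp (Finset.mem_filter.mp hσ).1
  apply Finset.card_le_mul_card_image_of_maps_to (f := τ)
  · intro σ hσ
    have hσinj := hSinj σ hσ
    rw [mem_injFin]
    constructor
    · intro x y hxy
      apply Subtype.ext
      rw [← hτ σ hσ x, ← hτ σ hσ y, hxy]
    · intro x y hxy
      obtain ⟨-, hmem⟩ := hxy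
      obtain ⟨e', he', hmap⟩ := (mem_edgeImg H n σ _).mp ((Finset.mem_filter.mp hσ).2 hmem)
      induction e' using Sym2.inductionOn with
      | hf a b =>
        rw [Sym2.map_mk, Sym2.eq_iff] at hmap
        have hab : H.Adj a b := he'
        rcases hmap with ⟨h1, h2⟩ | ⟨h1, h2⟩
        · have ha : τ σ x = a := hσinj (by rw [hτ σ hσ x, h1])
          have hb : τ σ y = b := hσinj (by rw [hτ σ hσ y, h2])
          rw [ha, hb]
          exact hab
        · have ha : τ σ x = b := hσinj (by rw [hτ σ hσ x, h2])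
          have hb : τ σ y = a := hσinj (by rw [hτ σ hσ y, h1])
          rw [ha, hb]
          exact hab.symm
  · intro τ₀ hτ₀
    rw [mem_injFin] at hτ₀
    set Ac : Finset W := Finset.univ \ Finset.univ.image τ₀ with hAc
    set Bc : Finset (Fin n) := Finset.univ.filter (fun y => y ∉ vsupp I) with hBc
    have hcardA : Ac.card = Fintype.card W - Fintype.card ↥(vsupp I) := by
      rw [hAc, Finset.card_sdiff_of_subset (Finset.subset_univ _), Finset.card_univ,
        Finset.card_image_of_injective _ hτ₀.1, Finset.card_univ]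
    have hcardB : Bc.card = n - Fintype.card ↥(vsupp I) := by
      have h1 : (Finset.univ.filter (fun y : Fin n => y ∈ vsupp I)).card
          = Fintype.card ↥(vsupp I) := by
        symm
        apply Fintype.card_of_subtype (p := fun y : Fin n => y ∈ vsupp I)
        intro x
        rw [Finset.mem_filter]
        exact ⟨fun h => h.2, fun h => ⟨Finset.mem_univ _, h⟩⟩
      have h2 : Bc = Finset.univ \ Finset.univ.filter (fun y : Fin n => y ∈ vsupp I) := by
        ext y
        simp [hBc]
      rw [h2, Finset.card_sdiff_of_subset (Finset.subset_univ _), Finset.card_univ,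
        Fintype.card_fin, h1]
    set R : Finset (↥Ac → Fin n) :=
      Finset.univ.filter (fun ρ => Function.Injective ρ ∧ ∀ a, ρ a ∈ Bc) with hRdef
    have hRmem : ∀ ρ, ρ ∈ R ↔ Function.Injective ρ ∧ ∀ a, ρ a ∈ Bc := by
      intro ρ
      rw [hRdef, Finset.mem_filter]
      exact ⟨fun h => h.2, fun h => ⟨Finset.mem_univ _, h⟩⟩
    have hR := card_inj_into (A := ↥Ac) Bc R hRmem
    rw [Fintype.card_coe, hcardA, hcardB] at hR
    rw [← hR]
    apply Finset.card_le_card_of_injOn (fun σ : W → Fin n => fun a : ↥Ac => σ a.1)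
    · intro σ hσ
      rw [Finset.mem_coe, Finset.mem_filter] at hσ
      obtain ⟨hσS, hστ⟩ := hσ
      have hσinj := hSinj σ hσS
      rw [Finset.mem_coe, hRmem]
      refine ⟨?_, ?_⟩
      · intro a b hab
        exact Subtype.ext (hσinj hab)
      · intro a
        rw [hBc, Finset.mem_filter]
        refine ⟨Finset.mem_univ _, ?_⟩
        intro hmem
        have h1 : τ σ ⟨σ a.1, hmem⟩ = a.1 := Function.leftInverse_invFun hσinj a.1
        have h2 : a.1 ∈ Finset.univ.image τ₀ := by
          rw [← h1, hστ]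
          exact Finset.mem_image_of_mem _ (Finset.mem_univ _)
        have h3 : a.1 ∈ Finset.univ \ Finset.univ.image τ₀ := a.2
        exact (Finset.mem_sdiff.mp h3).2 h2
    · intro σ₁ hσ₁ σ₂ hσ₂ heq
      rw [Finset.mem_coe, Finset.mem_filter] at hσ₁ hσ₂
      funext w
      by_cases hw : w ∈ Finset.univ.image τ₀
      · obtain ⟨x, -, rfl⟩ := Finset.mem_image.mp hw
        have h1 := hτ σ₁ hσ₁.1 x
        have h2 := hτ σ₂ hσ₂.1 x
        rw [hσ₁.2] at h1
        rw [hσ₂.2] at h2
        rw [h1, h2]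
      · have hwA : w ∈ Ac := by
          rw [hAc, Finset.mem_sdiff]
          exact ⟨Finset.mem_univ _, hw⟩
        exact congrFun heq ⟨w, hwA⟩

end Vale.Agent.Lib.P064
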