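import Mathlib

namespace Vale.Agent.Lib.P064

open Finset

/-- The weight of the subset `A` of the ground set `X` under the `p`-random subset of `X`. -/
noncomputable def bw {α : Type*} (X : Finset α) (p : ℝ) (A : Finset α) : ℝ :=
  p ^ A.card * (1 - p) ^ (X.card - A.card)

theorem bw_nonneg {α : Type*} (X : Finset α) (p : ℝ) (hp0 : 0 ≤ p) (hp1 : p ≤ 1)
    (A : Finset α) : 0 ≤ bw X p A := by
  unfold bw
  have : (0 : ℝ) ≤ 1 - p := by linarith
  positivity

theorem sum_bw {α : Type*} [DecidableEq α] (X : Finset α) (p : ℝ) :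
    ∑ A ∈ X.powerset, bw X p A = 1 := by
  unfold bw
  rw [Finset.sum_pow_mul_eq_add_pow]
  simp

theorem bw_insert_mem {α : Type*} [DecidableEq α] (s : Finset α) (x : α) (hx : x ∉ s) (p : ℝ)
    (W : Finset α) (hW : W ⊆ s) : bw (insert x s) p (insert x W) = p * bw s p W := by
  have hxW : x ∉ W := fun h => hx (hW h)
  unfold bw
  rw [Finset.card_insert_of_notMem hx, Finset.card_insert_of_notMem hxW, Nat.add_sub_add_right,
    pow_succ]
  ring

theorem bw_insert_not {α : Type*} [DecidableEq α] (s : Finset α) (x : α) (hx : x ∉ s) (p : ℝ)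
    (W : Finset α) (hW : W ⊆ s) : bw (insert x s) p W = (1 - p) * bw s p W := by
  have hc : W.card ≤ s.card := Finset.card_le_card hW
  unfold bw
  rw [Finset.card_insert_of_notMem hx, Nat.succ_sub hc, pow_succ]
  ring

theorem sum_bw_union {α : Type*} [DecidableEq α] (X : Finset α) (a b : ℝ) :
    ∀ f : Finset α → ℝ,
      ∑ W₁ ∈ X.powerset, ∑ W₂ ∈ X.powerset, bw X a W₁ * bw X b W₂ * f (W₁ ∪ W₂)
        = ∑ W ∈ X.powerset, bw X (1 - (1 - a) * (1 - b)) W * f W := by
  induction X using Finset.induction_on with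
  | empty =>
    intro f
    simp [bw]
  | insert x s hx ih =>
    intro f
    have key : ∀ W₁ ∈ s.powerset, ∀ W₂ ∈ s.powerset,
        (bw (insert x s) a W₁ * bw (insert x s) b W₂ * f (W₁ ∪ W₂)
          + bw (insert x s) a W₁ * bw (insert x s) b (insert x W₂) * f (W₁ ∪ insert x W₂))
        + (bw (insert x s) a (insert x W₁) * bw (insert x s) b W₂ * f (insert x W₁ ∪ W₂)
          + bw (insert x s) a (insert x W₁) * bw (insert x s) b (insert x W₂)
            * f (insert x W₁ ∪ insert x W₂))
        = (1 - a) * (1 - b) * (bw s a W₁ * bw s b W₂ * f (W₁ ∪ W₂))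
          + (1 - (1 - a) * (1 - b)) * (bw s a W₁ * bw s b W₂ * f (insert x (W₁ ∪ W₂))) := by
      intro W₁ h₁ W₂ h₂
      rw [Finset.mem_powerset] at h₁ h₂
      rw [bw_insert_mem s x hx a W₁ h₁, bw_insert_mem s x hx b W₂ h₂,
        bw_insert_not s x hx a W₁ h₁, bw_insert_not s x hx b W₂ h₂]
      have e1 : W₁ ∪ insert x W₂ = insert x (W₁ ∪ W₂) := Finset.union_insert x W₁ W₂
      have e2 : insert x W₁ ∪ W₂ = insert x (W₁ ∪ W₂) := Finset.insert_union x W₁ W₂
      have e3 : insert x W₁ ∪ insert x W₂ = insert x (W₁ ∪ W₂) := by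
        rw [Finset.insert_union, Finset.union_insert, Finset.insert_idem]
      rw [e1, e2, e3]
      ring
    have hL : ∑ W₁ ∈ (insert x s).powerset, ∑ W₂ ∈ (insert x s).powerset,
        bw (insert x s) a W₁ * bw (insert x s) b W₂ * f (W₁ ∪ W₂)
        = ∑ W₁ ∈ s.powerset, ∑ W₂ ∈ s.powerset,
          ((bw (insert x s) a W₁ * bw (insert x s) b W₂ * f (W₁ ∪ W₂)
          + bw (insert x s) a W₁ * bw (insert x s) b (insert x W₂) * f (W₁ ∪ insert x W₂))
        + (bw (insert x s) a (insert x W₁) * bw (insert x s) b W₂ * f (insert x W₁ ∪ W₂)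
          + bw (insert x s) a (insert x W₁) * bw (insert x s) b (insert x W₂)
            * f (insert x W₁ ∪ insert x W₂))) := by
      rw [Finset.sum_powerset_insert hx, ← Finset.sum_add_distrib]
      apply Finset.sum_congr rfl
      intro W₁ _
      rw [Finset.sum_powerset_insert hx, Finset.sum_powerset_insert hx,
        ← Finset.sum_add_distrib, ← Finset.sum_add_distrib, ← Finset.sum_add_distrib]
    rw [hL, Finset.sum_congr rfl (fun W₁ h₁ => Finset.sum_congr rfl (fun W₂ h₂ => key W₁ h₁ W₂ h₂))]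
    simp only [Finset.sum_add_distrib, ← Finset.mul_sum]
    rw [ih f, ih (fun W => f (insert x W))]
    rw [Finset.sum_powerset_insert hx]
    have hR1 : ∑ W ∈ s.powerset, bw (insert x s) (1 - (1 - a) * (1 - b)) W * f W
        = (1 - a) * (1 - b) * ∑ W ∈ s.powerset, bw s (1 - (1 - a) * (1 - b)) W * f W := by
      rw [Finset.mul_sum]
      apply Finset.sum_congr rfl
      intro W hW
      rw [Finset.mem_powerset] at hW
      rw [bw_insert_not s x hx _ W hW]
      ring
    have hR2 : ∑ W ∈ s.powerset, bw (insert x s) (1 - (1 - a) * (1 - b)) (insert x W)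
          * f (insert x W)
        = (1 - (1 - a) * (1 - b))
          * ∑ W ∈ s.powerset, bw s (1 - (1 - a) * (1 - b)) W * f (insert x W) := by
      rw [Finset.mul_sum]
      apply Finset.sum_congr rfl
      intro W hW
      rw [Finset.mem_powerset] at hW
      rw [bw_insert_mem s x hx _ W hW]
      ring
    rw [hR1, hR2]

end Vale.Agent.Lib.P064
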