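import Mathlib

namespace Vale.Agent.Lib.P064

open Finset

open Classical in
/-- The minimum fragment of `A` with respect to `W` inside the family `K`: `A' \ W` for a member
`A'` of `K` contained in `W ∪ A` minimising the size of `A' \ W`. -/
noncomputable def frag {α : Type*} [DecidableEq α] (K : Finset (Finset α)) (W A : Finset α) :
    Finset α :=
  if h : (K.filter (fun A' => A' ⊆ W ∪ A)).Nonempty then
    (Finset.exists_min_image (K.filter (fun A' => A' ⊆ W ∪ A)) (fun A' => (A' \ W).card) h).choose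
      \ W
  else A

theorem frag_spec {α : Type*} [DecidableEq α] (K : Finset (Finset α)) (W A : Finset α)
    (hA : A ∈ K) :
    ∃ A' ∈ K, A' ⊆ W ∪ A ∧ frag K W A = A' \ W ∧
      ∀ A'' ∈ K, A'' ⊆ W ∪ A → (A' \ W).card ≤ (A'' \ W).card := by
  classical
  have hne : (K.filter (fun A' => A' ⊆ W ∪ A)).Nonempty :=
    ⟨A, Finset.mem_filter.mpr ⟨hA, Finset.subset_union_right⟩⟩
  have hspec := (Finset.exists_min_image (K.filter (fun A' => A' ⊆ W ∪ A))
    (fun A' => (A' \ W).card) hne).choose_spec
  set A' := (Finset.exists_min_image (K.filter (fun A' => A' ⊆ W ∪ A))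
    (fun A' => (A' \ W).card) hne).choose with hA'
  have hfrag : frag K W A = A' \ W := by
    unfold frag
    rw [dif_pos hne]
  have hmem := Finset.mem_filter.mp hspec.1
  refine ⟨A', hmem.1, hmem.2, hfrag, ?_⟩
  intro A'' hA'' hsub
  exact hspec.2 A'' (Finset.mem_filter.mpr ⟨hA'', hsub⟩)

theorem frag_subset {α : Type*} [DecidableEq α] (K : Finset (Finset α)) (W A : Finset α)
    (hA : A ∈ K) : frag K W A ⊆ A := by
  obtain ⟨A', -, hsub, hfrag, -⟩ := frag_spec K W A hA
  rw [hfrag]
  intro x hx
  rw [Finset.mem_sdiff] at hx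
  rcases Finset.mem_union.mp (hsub hx.1) with h | h
  · exact absurd h hx.2
  · exact h

theorem frag_disjoint {α : Type*} [DecidableEq α] (K : Finset (Finset α)) (W A : Finset α)
    (hA : A ∈ K) : Disjoint (frag K W A) W := by
  obtain ⟨A', -, -, hfrag, -⟩ := frag_spec K W A hA
  rw [hfrag]
  exact Finset.sdiff_disjoint

theorem frag_exists_member {α : Type*} [DecidableEq α] (K : Finset (Finset α)) (W A : Finset α)
    (hA : A ∈ K) : ∃ A' ∈ K, A' ⊆ W ∪ frag K W A := by
  obtain ⟨A', hA', -, hfrag, -⟩ := frag_spec K W A hA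
  refine ⟨A', hA', ?_⟩
  rw [hfrag]
  intro x hx
  by_cases hxW : x ∈ W
  · exact Finset.mem_union_left _ hxW
  · exact Finset.mem_union_right _ (Finset.mem_sdiff.mpr ⟨hx, hxW⟩)

theorem frag_subset_of_member {α : Type*} [DecidableEq α] (K : Finset (Finset α))
    (W A : Finset α) (hA : A ∈ K) (A'' : Finset α) (hA'' : A'' ∈ K)
    (hsub : A'' ⊆ W ∪ frag K W A) : frag K W A ⊆ A'' := by
  obtain ⟨A', -, -, hfrag, hmin⟩ := frag_spec K W A hA
  have hsub' : A'' ⊆ W ∪ A := by
    intro x hx
    rcases Finset.mem_union.mp (hsub hx) with h | h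
    · exact Finset.mem_union_left _ h
    · exact Finset.mem_union_right _ (frag_subset K W A hA h)
  have hcard : (frag K W A).card ≤ (A'' \ W).card := by
    rw [hfrag]
    exact hmin A'' hA'' hsub'
  have hss : A'' \ W ⊆ frag K W A := by
    intro x hx
    rw [Finset.mem_sdiff] at hx
    rcases Finset.mem_union.mp (hsub hx.1) with h | h
    · exact absurd h hx.2
    · exact h
  have heq : A'' \ W = frag K W A := Finset.eq_of_subset_of_card_le hss hcard
  rw [← heq]
  exact Finset.sdiff_subset

end Vale.Agent.Lib.P064
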