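import Mathlib
import Vale.Agent.Lib.P064.Binom
import Vale.Agent.Lib.P064.Frag

namespace Vale.Agent.Lib.P064

open Finset

/-- One round of the fragment argument: the expected cost of the large minimum fragments. -/
theorem round_bound {α : Type*} [DecidableEq α] (X : Finset α) (K : Finset (Finset α))
    (hKX : ∀ A ∈ K, A ⊆ X) (ℓ : ℕ) (hℓ : ∀ A ∈ K, A.card ≤ ℓ)
    (p κ : ℝ) (hp0 : 0 < p) (hp1 : p ≤ 1) (hκ0 : 0 ≤ κ) (hκp : κ ≤ p) (t₀ : ℕ) :
    ∑ W ∈ X.powerset, bw X p W *
        ∑ T ∈ (K.image (frag K W)).filter (fun T => t₀ ≤ T.card), κ ^ T.card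
      ≤ 2 ^ ℓ * (κ / p) ^ t₀ := by
  classical
  set L : Finset α → Finset (Finset α) :=
    fun W => (K.image (frag K W)).filter (fun T => t₀ ≤ T.card) with hL
  have hx0 : 0 ≤ κ / p := div_nonneg hκ0 hp0.le
  have hx1 : κ / p ≤ 1 := (div_le_one hp0).mpr hκp
  have hA : ∀ W ∈ X.powerset, ∀ T ∈ L W,
      bw X p W * κ ^ T.card ≤ (κ / p) ^ t₀ * bw X p (W ∪ T) := by
    intro W hW T hT
    rw [Finset.mem_powerset] at hW
    obtain ⟨hT1, hT2⟩ := Finset.mem_filter.mp hT
    obtain ⟨A, hAK, rfl⟩ := Finset.mem_image.mp hT1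
    have hdisj : Disjoint W (frag K W A) := (frag_disjoint K W A hAK).symm
    have hTX : frag K W A ⊆ X := (frag_subset K W A hAK).trans (hKX A hAK)
    have hcard : (W ∪ frag K W A).card = W.card + (frag K W A).card :=
      Finset.card_union_of_disjoint hdisj
    have hle : W.card + (frag K W A).card ≤ X.card := by
      rw [← hcard]
      exact Finset.card_le_card (Finset.union_subset hW hTX)
    unfold bw
    rw [hcard]
    set t := (frag K W A).card with ht
    have h1 : X.card - W.card = (X.card - (W.card + t)) + t := by omega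
    rw [h1, pow_add, pow_add]
    have h2 : κ ^ t = (κ / p) ^ t * p ^ t := by
      rw [div_pow, div_mul_cancel₀]
      positivity
    rw [h2]
    have h3 : (κ / p) ^ t ≤ (κ / p) ^ t₀ := pow_le_pow_of_le_one hx0 hx1 hT2
    have hq0 : (0 : ℝ) ≤ 1 - p := by linarith
    have h4 : (1 - p) ^ t ≤ 1 := pow_le_one₀ hq0 (by linarith)
    calc p ^ W.card * ((1 - p) ^ (X.card - (W.card + t)) * (1 - p) ^ t) * ((κ / p) ^ t * p ^ t)
        = ((κ / p) ^ t * (1 - p) ^ t)
          * (p ^ W.card * p ^ t * (1 - p) ^ (X.card - (W.card + t))) := by ring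
      _ ≤ ((κ / p) ^ t₀ * 1) * (p ^ W.card * p ^ t * (1 - p) ^ (X.card - (W.card + t))) := by
          apply mul_le_mul_of_nonneg_right _ (by positivity)
          exact mul_le_mul h3 h4 (by positivity) (by positivity)
      _ = (κ / p) ^ t₀ * (p ^ W.card * p ^ t * (1 - p) ^ (X.card - (W.card + t))) := by ring
  have hfiber : ∀ Z : Finset α,
      ((X.powerset.sigma L).filter (fun q => q.1 ∪ q.2 = Z)).card ≤ 2 ^ ℓ := by
    intro Z
    rcases ((X.powerset.sigma L).filter (fun q => q.1 ∪ q.2 = Z)).eq_empty_or_nonempty with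
      h | ⟨q₀, hq₀⟩
    · rw [h]
      simp
    · obtain ⟨hq₀s, hq₀Z⟩ := Finset.mem_filter.mp hq₀
      obtain ⟨-, hq₀L⟩ := Finset.mem_sigma.mp hq₀s
      obtain ⟨hT1, -⟩ := Finset.mem_filter.mp hq₀L
      obtain ⟨A₀, hA₀K, hA₀⟩ := Finset.mem_image.mp hT1
      obtain ⟨AZ, hAZK, hAZsub⟩ := frag_exists_member K q₀.1 A₀ hA₀K
      rw [hA₀, hq₀Z] at hAZsub
      have hprop : ∀ q ∈ (X.powerset.sigma L).filter (fun q => q.1 ∪ q.2 = Z),
          q.2 ⊆ AZ ∧ q.1 = Z \ q.2 := by
        intro q hq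
        obtain ⟨hqs, hqZ⟩ := Finset.mem_filter.mp hq
        obtain ⟨-, hqL⟩ := Finset.mem_sigma.mp hqs
        obtain ⟨hT1', -⟩ := Finset.mem_filter.mp hqL
        obtain ⟨A, hAK, hA⟩ := Finset.mem_image.mp hT1'
        constructor
        · rw [← hA]
          apply frag_subset_of_member K q.1 A hAK AZ hAZK
          rw [hA, hqZ]
          exact hAZsub
        · have hdisj : Disjoint q.2 q.1 := by
            rw [← hA]
            exact frag_disjoint K q.1 A hAK
          ext x
          rw [Finset.mem_sdiff, ← hqZ, Finset.mem_union]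
          constructor
          · intro hx
            exact ⟨Or.inl hx, fun hx2 => (Finset.disjoint_left.mp hdisj) hx2 hx⟩
          · rintro ⟨hx | hx, hx2⟩
            · exact hx
            · exact absurd hx hx2
      calc ((X.powerset.sigma L).filter (fun q => q.1 ∪ q.2 = Z)).card
          ≤ AZ.powerset.card := by
            apply Finset.card_le_card_of_injOn (fun q => q.2)
            · intro q hq
              rw [Finset.mem_coe, Finset.mem_powerset]
              exact (hprop q (Finset.mem_coe.mp hq)).1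
            · intro q hq q' hq' heq
              have heq' : q.2 = q'.2 := heq
              have h1 := (hprop q (Finset.mem_coe.mp hq)).2
              have h2 := (hprop q' (Finset.mem_coe.mp hq')).2
              have h3 : q.1 = q'.1 := by rw [h1, h2, heq']
              exact Sigma.ext h3 (heq_of_eq heq')
        _ = 2 ^ AZ.card := Finset.card_powerset AZ
        _ ≤ 2 ^ ℓ := Nat.pow_le_pow_right (by norm_num) (hℓ AZ hAZK)
  have hB : ∑ W ∈ X.powerset, ∑ T ∈ L W, bw X p (W ∪ T) ≤ 2 ^ ℓ := by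
    rw [Finset.sum_sigma' X.powerset L (fun W T => bw X p (W ∪ T))]
    have hmaps : ∀ q ∈ X.powerset.sigma L, q.1 ∪ q.2 ∈ X.powerset := by
      intro q hq
      obtain ⟨hq1, hq2⟩ := Finset.mem_sigma.mp hq
      obtain ⟨hT1, -⟩ := Finset.mem_filter.mp hq2
      obtain ⟨A, hAK, hA⟩ := Finset.mem_image.mp hT1
      rw [Finset.mem_powerset] at hq1 ⊢
      apply Finset.union_subset hq1
      rw [← hA]
      exact (frag_subset K q.1 A hAK).trans (hKX A hAK)
    rw [← Finset.sum_fiberwise_of_maps_to hmaps]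
    calc ∑ Z ∈ X.powerset, ∑ q ∈ (X.powerset.sigma L).filter (fun q => q.1 ∪ q.2 = Z),
          bw X p (q.1 ∪ q.2)
        ≤ ∑ Z ∈ X.powerset, 2 ^ ℓ * bw X p Z := by
          apply Finset.sum_le_sum
          intro Z _
          have hcongr : ∑ q ∈ (X.powerset.sigma L).filter (fun q => q.1 ∪ q.2 = Z),
              bw X p (q.1 ∪ q.2)
              = ∑ q ∈ (X.powerset.sigma L).filter (fun q => q.1 ∪ q.2 = Z), bw X p Z := by
            apply Finset.sum_congr rfl
            intro q hq
            rw [(Finset.mem_filter.mp hq).2]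
          rw [hcongr, Finset.sum_const, nsmul_eq_mul]
          apply mul_le_mul_of_nonneg_right _ (bw_nonneg X p hp0.le hp1 Z)
          exact_mod_cast hfiber Z
      _ = 2 ^ ℓ := by rw [← Finset.mul_sum, sum_bw, mul_one]
  calc ∑ W ∈ X.powerset, bw X p W * ∑ T ∈ L W, κ ^ T.card
      = ∑ W ∈ X.powerset, ∑ T ∈ L W, bw X p W * κ ^ T.card := by
        apply Finset.sum_congr rfl
        intro W _
        rw [Finset.mul_sum]
    _ ≤ ∑ W ∈ X.powerset, ∑ T ∈ L W, (κ / p) ^ t₀ * bw X p (W ∪ T) := by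
        apply Finset.sum_le_sum
        intro W hW
        apply Finset.sum_le_sum
        intro T hT
        exact hA W hW T hT
    _ = (κ / p) ^ t₀ * ∑ W ∈ X.powerset, ∑ T ∈ L W, bw X p (W ∪ T) := by
        rw [Finset.mul_sum]
        apply Finset.sum_congr rfl
        intro W _
        rw [Finset.mul_sum]
    _ ≤ (κ / p) ^ t₀ * 2 ^ ℓ := mul_le_mul_of_nonneg_left hB (by positivity)
    _ = 2 ^ ℓ * (κ / p) ^ t₀ := mul_comm _ _

end Vale.Agent.Lib.P064
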