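import Mathlib
import Vale.Agent.Lib.P064.Binom
import Vale.Agent.Lib.P064.Frag
import Vale.Agent.Lib.P064.Round

namespace Vale.Agent.Lib.P064

open Finset

open Classical in
/-- The support of a mass function inside the powerset of `X`. -/
noncomputable def msupp {α : Type*} [DecidableEq α] (X : Finset α) (m : Finset α → ℝ) :
    Finset (Finset α) :=
  X.powerset.filter (fun A => m A ≠ 0)

theorem mem_msupp {α : Type*} [DecidableEq α] (X : Finset α) (m : Finset α → ℝ) (A : Finset α) :
    A ∈ msupp X m ↔ A ⊆ X ∧ m A ≠ 0 := by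
  classical
  unfold msupp
  rw [Finset.mem_filter, Finset.mem_powerset]

open Classical in
/-- Indicator that `W` contains no member of `K`. -/
noncomputable def failInd {α : Type*} (K : Finset (Finset α)) (W : Finset α) : ℝ :=
  if ∀ A ∈ K, ¬ A ⊆ W then 1 else 0

theorem failInd_nonneg {α : Type*} (K : Finset (Finset α)) (W : Finset α) : 0 ≤ failInd K W := by
  unfold failInd
  split_ifs <;> norm_num

theorem failInd_le_one {α : Type*} (K : Finset (Finset α)) (W : Finset α) : failInd K W ≤ 1 := by
  unfold failInd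
  split_ifs <;> norm_num

/-- The probability that the `p`-random subset of `X` contains no member of `K`. -/
noncomputable def Pfail {α : Type*} [DecidableEq α] (X : Finset α) (p : ℝ)
    (K : Finset (Finset α)) : ℝ :=
  ∑ W ∈ X.powerset, bw X p W * failInd K W

theorem Pfail_nonneg {α : Type*} [DecidableEq α] (X : Finset α) (p : ℝ) (hp0 : 0 ≤ p)
    (hp1 : p ≤ 1) (K : Finset (Finset α)) : 0 ≤ Pfail X p K := by
  unfold Pfail
  apply Finset.sum_nonneg
  intro W _
  exact mul_nonneg (bw_nonneg X p hp0 hp1 W) (failInd_nonneg K W)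

theorem Pfail_le_one {α : Type*} [DecidableEq α] (X : Finset α) (p : ℝ) (hp0 : 0 ≤ p)
    (hp1 : p ≤ 1) (K : Finset (Finset α)) : Pfail X p K ≤ 1 := by
  unfold Pfail
  calc ∑ W ∈ X.powerset, bw X p W * failInd K W ≤ ∑ W ∈ X.powerset, bw X p W * 1 := by
        apply Finset.sum_le_sum
        intro W _
        exact mul_le_mul_of_nonneg_left (failInd_le_one K W) (bw_nonneg X p hp0 hp1 W)
    _ = 1 := by
        simp only [mul_one]
        exact sum_bw X p

theorem rounds_bound {α : Type*} [DecidableEq α] (X : Finset α) (p κ c₀ : ℝ)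
    (hp0 : 0 < p) (hp1 : p ≤ 1) (hκ0 : 0 ≤ κ) (hκp : κ ≤ p) (hc₀ : 0 ≤ c₀) :
    ∀ (j : ℕ) (m : Finset α → ℝ), (∀ A, 0 ≤ m A) →
      (∀ A ∈ X.powerset, m A ≠ 0 → A.card < 2 ^ j) →
      (∀ I : Finset α, ∑ A ∈ X.powerset.filter (fun A => I ⊆ A), m A ≤ c₀ * κ ^ I.card) →
      (∑ A ∈ X.powerset, m A) * Pfail X (1 - (1 - p) ^ j) (msupp X m)
        ≤ c₀ * ∑ i ∈ Finset.range j, (4 * κ / p) ^ (2 ^ i) := by
  classical
  intro j
  induction j with
  | zero =>
    intro m hm0 hsupp hspread
    simp only [Finset.range_zero, Finset.sum_empty, mul_zero]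
    by_cases hne : (msupp X m).Nonempty
    · obtain ⟨A, hA⟩ := hne
      have hA' := (mem_msupp X m A).mp hA
      have hcard : A.card < 2 ^ 0 := hsupp A (Finset.mem_powerset.mpr hA'.1) hA'.2
      have hAe : A = ∅ := Finset.card_eq_zero.mp (by omega)
      have hfail : ∀ W, failInd (msupp X m) W = 0 := by
        intro W
        unfold failInd
        rw [if_neg]
        intro h
        apply h A hA
        rw [hAe]
        exact Finset.empty_subset W
      have hP : Pfail X (1 - (1 - p) ^ 0) (msupp X m) = 0 := by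
        unfold Pfail
        apply Finset.sum_eq_zero
        intro W _
        rw [hfail W, mul_zero]
      rw [hP, mul_zero]
    · have htot : ∑ A ∈ X.powerset, m A = 0 := by
        apply Finset.sum_eq_zero
        intro A hA
        by_contra h
        exact hne ⟨A, (mem_msupp X m A).mpr ⟨Finset.mem_powerset.mp hA, h⟩⟩
      rw [htot, zero_mul]
  | succ j ih =>
    intro m hm0 hsupp hspread
    set K := msupp X m with hK
    have hKX : ∀ A ∈ K, A ⊆ X := fun A hA => ((mem_msupp X m A).mp hA).1
    have hKP : ∀ A ∈ K, A ∈ X.powerset := fun A hA => Finset.mem_powerset.mpr (hKX A hA)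
    have hKℓ : ∀ A ∈ K, A.card ≤ 2 ^ (j + 1) := by
      intro A hA
      have hA' := (mem_msupp X m A).mp hA
      exact (hsupp A (Finset.mem_powerset.mpr hA'.1) hA'.2).le
    let m₁ : Finset α → Finset α → ℝ := fun W₁ T =>
      if T.card < 2 ^ j then ∑ A ∈ K.filter (fun A => frag K W₁ A = T), m A else 0
    let drop : Finset α → ℝ := fun W₁ =>
      ∑ A ∈ K.filter (fun A => 2 ^ j ≤ (frag K W₁ A).card), m A
    have hdrop0 : ∀ W₁, 0 ≤ drop W₁ := fun W₁ => Finset.sum_nonneg (fun A _ => hm0 A)
    have hm₁0 : ∀ W₁ T, 0 ≤ m₁ W₁ T := by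
      intro W₁ T
      show 0 ≤ (if T.card < 2 ^ j then ∑ A ∈ K.filter (fun A => frag K W₁ A = T), m A else 0)
      split_ifs
      · exact Finset.sum_nonneg (fun A _ => hm0 A)
      · exact le_refl 0
    have hm₁le : ∀ W₁ T, m₁ W₁ T ≤ ∑ A ∈ K.filter (fun A => frag K W₁ A = T), m A := by
      intro W₁ T
      show (if T.card < 2 ^ j then ∑ A ∈ K.filter (fun A => frag K W₁ A = T), m A else 0) ≤ _
      split_ifs
      · exact le_refl _
      · exact Finset.sum_nonneg (fun A _ => hm0 A)
    have hm₁supp : ∀ W₁, ∀ T ∈ X.powerset, m₁ W₁ T ≠ 0 → T.card < 2 ^ j := by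
      intro W₁ T _ hne
      by_contra hcon
      apply hne
      show (if T.card < 2 ^ j then ∑ A ∈ K.filter (fun A => frag K W₁ A = T), m A else 0) = 0
      rw [if_neg hcon]
    have hm₁spread : ∀ W₁ (I : Finset α),
        ∑ T ∈ X.powerset.filter (fun T => I ⊆ T), m₁ W₁ T ≤ c₀ * κ ^ I.card := by
      intro W₁ I
      have hmaps : ∀ A ∈ K.filter (fun A => I ⊆ frag K W₁ A),
          frag K W₁ A ∈ X.powerset.filter (fun T => I ⊆ T) := by
        intro A hA
        obtain ⟨hAK, hI⟩ := Finset.mem_filter.mp hA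
        refine Finset.mem_filter.mpr ⟨Finset.mem_powerset.mpr ?_, hI⟩
        exact (frag_subset K W₁ A hAK).trans (hKX A hAK)
      calc ∑ T ∈ X.powerset.filter (fun T => I ⊆ T), m₁ W₁ T
          ≤ ∑ T ∈ X.powerset.filter (fun T => I ⊆ T),
              ∑ A ∈ (K.filter (fun A => I ⊆ frag K W₁ A)).filter (fun A => frag K W₁ A = T),
                m A := by
            apply Finset.sum_le_sum
            intro T hT
            refine (hm₁le W₁ T).trans (le_of_eq ?_)
            apply Finset.sum_congr _ (fun _ _ => rfl)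
            ext A
            simp only [Finset.mem_filter]
            constructor
            · rintro ⟨hAK, hAT⟩
              refine ⟨⟨hAK, ?_⟩, hAT⟩
              rw [hAT]
              exact (Finset.mem_filter.mp hT).2
            · rintro ⟨⟨hAK, -⟩, hAT⟩
              exact ⟨hAK, hAT⟩
        _ = ∑ A ∈ K.filter (fun A => I ⊆ frag K W₁ A), m A :=
            Finset.sum_fiberwise_of_maps_to hmaps _
        _ ≤ ∑ A ∈ X.powerset.filter (fun A => I ⊆ A), m A := by
            apply Finset.sum_le_sum_of_subset_of_nonneg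
            · intro A hA
              obtain ⟨hAK, hI⟩ := Finset.mem_filter.mp hA
              exact Finset.mem_filter.mpr ⟨hKP A hAK, hI.trans (frag_subset K W₁ A hAK)⟩
            · intro A _ _
              exact hm0 A
        _ ≤ c₀ * κ ^ I.card := hspread I
    have htot : ∀ W₁, ∑ A ∈ X.powerset, m A = ∑ T ∈ X.powerset, m₁ W₁ T + drop W₁ := by
      intro W₁
      have h1 : ∑ A ∈ X.powerset, m A = ∑ A ∈ K, m A := by
        rw [hK]
        unfold msupp
        rw [Finset.sum_filter_ne_zero]
      have h2 : ∑ A ∈ K, m A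
          = ∑ A ∈ K.filter (fun A => (frag K W₁ A).card < 2 ^ j), m A
            + ∑ A ∈ K.filter (fun A => ¬ (frag K W₁ A).card < 2 ^ j), m A :=
        (Finset.sum_filter_add_sum_filter_not K _ _).symm
      have h3 : ∑ A ∈ K.filter (fun A => ¬ (frag K W₁ A).card < 2 ^ j), m A = drop W₁ := by
        apply Finset.sum_congr _ (fun _ _ => rfl)
        ext A
        simp only [Finset.mem_filter, not_lt]
      have hmaps : ∀ A ∈ K.filter (fun A => (frag K W₁ A).card < 2 ^ j),
          frag K W₁ A ∈ X.powerset := by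
        intro A hA
        obtain ⟨hAK, -⟩ := Finset.mem_filter.mp hA
        exact Finset.mem_powerset.mpr ((frag_subset K W₁ A hAK).trans (hKX A hAK))
      have h4 : ∑ A ∈ K.filter (fun A => (frag K W₁ A).card < 2 ^ j), m A
          = ∑ T ∈ X.powerset, m₁ W₁ T := by
        rw [← Finset.sum_fiberwise_of_maps_to hmaps]
        apply Finset.sum_congr rfl
        intro T _
        show _ = (if T.card < 2 ^ j then ∑ A ∈ K.filter (fun A => frag K W₁ A = T), m A else 0)
        by_cases hT : T.card < 2 ^ j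
        · rw [if_pos hT]
          apply Finset.sum_congr _ (fun _ _ => rfl)
          ext A
          simp only [Finset.mem_filter]
          constructor
          · rintro ⟨⟨hAK, -⟩, hAT⟩
            exact ⟨hAK, hAT⟩
          · rintro ⟨hAK, hAT⟩
            refine ⟨⟨hAK, ?_⟩, hAT⟩
            rw [hAT]
            exact hT
        · rw [if_neg hT]
          apply Finset.sum_eq_zero
          intro A hA
          exfalso
          obtain ⟨hA1, hAT⟩ := Finset.mem_filter.mp hA
          obtain ⟨-, hlt⟩ := Finset.mem_filter.mp hA1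
          rw [hAT] at hlt
          exact hT hlt
      rw [h1, h2, h3, h4]
    have hdrop : ∀ W₁, drop W₁ ≤ c₀ *
        ∑ T ∈ (K.image (frag K W₁)).filter (fun T => 2 ^ j ≤ T.card), κ ^ T.card := by
      intro W₁
      have hmaps : ∀ A ∈ K.filter (fun A => 2 ^ j ≤ (frag K W₁ A).card),
          frag K W₁ A ∈ (K.image (frag K W₁)).filter (fun T => 2 ^ j ≤ T.card) := by
        intro A hA
        obtain ⟨hAK, hle⟩ := Finset.mem_filter.mp hA
        exact Finset.mem_filter.mpr ⟨Finset.mem_image_of_mem _ hAK, hle⟩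
      show ∑ A ∈ K.filter (fun A => 2 ^ j ≤ (frag K W₁ A).card), m A ≤ _
      rw [← Finset.sum_fiberwise_of_maps_to hmaps, Finset.mul_sum]
      apply Finset.sum_le_sum
      intro T _
      calc ∑ A ∈ (K.filter (fun A => 2 ^ j ≤ (frag K W₁ A).card)).filter
            (fun A => frag K W₁ A = T), m A
          ≤ ∑ A ∈ X.powerset.filter (fun A => T ⊆ A), m A := by
            apply Finset.sum_le_sum_of_subset_of_nonneg
            · intro A hA
              obtain ⟨hA1, hAT⟩ := Finset.mem_filter.mp hA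
              obtain ⟨hAK, -⟩ := Finset.mem_filter.mp hA1
              refine Finset.mem_filter.mpr ⟨hKP A hAK, ?_⟩
              rw [← hAT]
              exact frag_subset K W₁ A hAK
            · intro A _ _
              exact hm0 A
        _ ≤ c₀ * κ ^ T.card := hspread T
    have hfail : ∀ W₁ W', failInd K (W₁ ∪ W') ≤ failInd (msupp X (m₁ W₁)) W' := by
      intro W₁ W'
      by_cases h : ∀ A ∈ K, ¬ A ⊆ W₁ ∪ W'
      · have h' : ∀ T ∈ msupp X (m₁ W₁), ¬ T ⊆ W' := by
          intro T hT hTW
          have hT' := (mem_msupp X (m₁ W₁) T).mp hT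
          have hsum : ∑ A ∈ K.filter (fun A => frag K W₁ A = T), m A ≠ 0 := by
            intro h0
            apply hT'.2
            show (if T.card < 2 ^ j then ∑ A ∈ K.filter (fun A => frag K W₁ A = T), m A else 0) = 0
            rw [h0]
            simp
          obtain ⟨A, hA, -⟩ := Finset.exists_ne_zero_of_sum_ne_zero hsum
          obtain ⟨hAK, hAT⟩ := Finset.mem_filter.mp hA
          obtain ⟨A', hA'K, hA'sub⟩ := frag_exists_member K W₁ A hAK
          apply h A' hA'K
          rw [hAT] at hA'sub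
          exact hA'sub.trans (Finset.union_subset_union (Finset.Subset.refl _) hTW)
        unfold failInd
        rw [if_pos h, if_pos h']
      · unfold failInd
        rw [if_neg h]
        split_ifs <;> norm_num
    set b : ℝ := 1 - (1 - p) ^ j with hb
    have hq0 : (0 : ℝ) ≤ 1 - p := by linarith
    have hq1 : (1 : ℝ) - p ≤ 1 := by linarith
    have hb0 : 0 ≤ b := by
      have := pow_le_one₀ hq0 hq1 (n := j)
      linarith
    have hb1 : b ≤ 1 := by
      have : (0 : ℝ) ≤ (1 - p) ^ j := by positivity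
      linarith
    have hpj : (1 : ℝ) - (1 - p) ^ (j + 1) = 1 - (1 - p) * (1 - b) := by
      rw [hb, pow_succ]
      ring
    set tot := ∑ A ∈ X.powerset, m A with htotdef
    have htot0 : 0 ≤ tot := Finset.sum_nonneg (fun A _ => hm0 A)
    have hunion : Pfail X (1 - (1 - p) ^ (j + 1)) K
        = ∑ W₁ ∈ X.powerset, ∑ W' ∈ X.powerset, bw X p W₁ * bw X b W' * failInd K (W₁ ∪ W') := by
      unfold Pfail
      rw [hpj, ← sum_bw_union X p b (fun W => failInd K W)]
    have hstep1 : Pfail X (1 - (1 - p) ^ (j + 1)) K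
        ≤ ∑ W₁ ∈ X.powerset, bw X p W₁ * Pfail X b (msupp X (m₁ W₁)) := by
      rw [hunion]
      apply Finset.sum_le_sum
      intro W₁ _
      unfold Pfail
      rw [Finset.mul_sum]
      apply Finset.sum_le_sum
      intro W' _
      rw [mul_assoc]
      apply mul_le_mul_of_nonneg_left _ (bw_nonneg X p hp0.le hp1 W₁)
      exact mul_le_mul_of_nonneg_left (hfail W₁ W') (bw_nonneg X b hb0 hb1 W')
    set β : ℝ := ∑ i ∈ Finset.range j, (4 * κ / p) ^ (2 ^ i) with hβ
    have hstep2 : ∀ W₁ ∈ X.powerset,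
        tot * Pfail X b (msupp X (m₁ W₁)) ≤ c₀ * β + drop W₁ := by
      intro W₁ _
      have hIH := ih (m₁ W₁) (hm₁0 W₁) (hm₁supp W₁) (hm₁spread W₁)
      have hP0 := Pfail_nonneg X b hb0 hb1 (msupp X (m₁ W₁))
      have hP1 := Pfail_le_one X b hb0 hb1 (msupp X (m₁ W₁))
      rw [htot W₁, add_mul]
      have : drop W₁ * Pfail X b (msupp X (m₁ W₁)) ≤ drop W₁ * 1 :=
        mul_le_mul_of_nonneg_left hP1 (hdrop0 W₁)
      linarith
    have hround := round_bound X K hKX (2 ^ (j + 1)) hKℓ p κ hp0 hp1 hκ0 hκp (2 ^ j)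
    have hconst : (2 : ℝ) ^ (2 ^ (j + 1)) * (κ / p) ^ (2 ^ j) = (4 * κ / p) ^ (2 ^ j) := by
      rw [pow_succ, pow_mul', mul_div_assoc, mul_pow]
      norm_num
    rw [hconst] at hround
    calc tot * Pfail X (1 - (1 - p) ^ (j + 1)) K
        ≤ tot * ∑ W₁ ∈ X.powerset, bw X p W₁ * Pfail X b (msupp X (m₁ W₁)) :=
          mul_le_mul_of_nonneg_left hstep1 htot0
      _ = ∑ W₁ ∈ X.powerset, bw X p W₁ * (tot * Pfail X b (msupp X (m₁ W₁))) := by
          rw [Finset.mul_sum]
          apply Finset.sum_congr rfl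
          intro W₁ _
          ring
      _ ≤ ∑ W₁ ∈ X.powerset, bw X p W₁ * (c₀ * β + drop W₁) := by
          apply Finset.sum_le_sum
          intro W₁ hW₁
          exact mul_le_mul_of_nonneg_left (hstep2 W₁ hW₁) (bw_nonneg X p hp0.le hp1 W₁)
      _ = c₀ * β + ∑ W₁ ∈ X.powerset, bw X p W₁ * drop W₁ := by
          simp only [mul_add, Finset.sum_add_distrib]
          rw [← Finset.sum_mul, sum_bw, one_mul]
      _ ≤ c₀ * β + ∑ W₁ ∈ X.powerset, bw X p W₁ * (c₀ *
            ∑ T ∈ (K.image (frag K W₁)).filter (fun T => 2 ^ j ≤ T.card), κ ^ T.card) := by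
          apply add_le_add (le_refl _)
          apply Finset.sum_le_sum
          intro W₁ _
          exact mul_le_mul_of_nonneg_left (hdrop W₁) (bw_nonneg X p hp0.le hp1 W₁)
      _ = c₀ * β + c₀ * ∑ W₁ ∈ X.powerset, bw X p W₁ *
            ∑ T ∈ (K.image (frag K W₁)).filter (fun T => 2 ^ j ≤ T.card), κ ^ T.card := by
          congr 1
          rw [Finset.mul_sum]
          apply Finset.sum_congr rfl
          intro W₁ _
          ring
      _ ≤ c₀ * β + c₀ * (4 * κ / p) ^ (2 ^ j) := by
          apply add_le_add (le_refl _)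
          exact mul_le_mul_of_nonneg_left hround hc₀
      _ = c₀ * ∑ i ∈ Finset.range (j + 1), (4 * κ / p) ^ (2 ^ i) := by
          rw [Finset.sum_range_succ, mul_add]

end Vale.Agent.Lib.P064
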