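import Mathlib
import Vale.Agent.Lib.P064.Binom
import Vale.Agent.Lib.P064.Frag
import Vale.Agent.Lib.P064.Round
import Vale.Agent.Lib.P064.Rounds

namespace Vale.Agent.Lib.P064

open Finset

theorem geom_sum_bound (x : ℝ) (hx0 : 0 ≤ x) (hx : x ≤ 1 / 2) :
    ∀ J : ℕ, ∑ i ∈ Finset.range J, x ^ (2 ^ i) ≤ 2 * x - 2 * x ^ (2 ^ J) := by
  intro J
  induction J with
  | zero => simp
  | succ J ih =>
    rw [Finset.sum_range_succ]
    set y := x ^ (2 ^ J) with hy
    have hy0 : 0 ≤ y := by positivity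
    have hy1 : y ≤ 1 / 2 := by
      have h1 : x ^ (2 ^ J) ≤ x ^ 1 :=
        pow_le_pow_of_le_one hx0 (by linarith) (Nat.one_le_two_pow)
      rw [pow_one] at h1
      linarith
    have hsq : x ^ (2 ^ (J + 1)) = y ^ 2 := by
      rw [hy, ← pow_mul, pow_succ]
    rw [hsq]
    nlinarith

/-- A spread mass function on sets of size less than `2 ^ J`: the union of `J` independent
`p`-random sets contains a set of the support with probability at least `1/2`. -/
theorem spread_success {α : Type*} [DecidableEq α] (X : Finset α) (p κ : ℝ)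
    (hp0 : 0 < p) (hp1 : p ≤ 1) (hκ0 : 0 ≤ κ) (hκ : 32 * κ ≤ p) (J : ℕ)
    (m : Finset α → ℝ) (hm0 : ∀ A, 0 ≤ m A)
    (hsupp : ∀ A ∈ X.powerset, m A ≠ 0 → A.card < 2 ^ J)
    (hspread : ∀ I : Finset α, ∑ A ∈ X.powerset.filter (fun A => I ⊆ A), m A ≤ 2 * κ ^ I.card)
    (htot : ∑ A ∈ X.powerset, m A = 1) :
    Pfail X (1 - (1 - p) ^ J) (msupp X m) ≤ 1 / 2 := by
  have hκp : κ ≤ p := by linarith
  have h := rounds_bound X p κ 2 hp0 hp1 hκ0 hκp (by norm_num) J m hm0 hsupp hspread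
  rw [htot, one_mul] at h
  have hx0 : 0 ≤ 4 * κ / p := by positivity
  have hx1 : 4 * κ / p ≤ 1 / 8 := by
    rw [div_le_iff₀ hp0]
    linarith
  have hg := geom_sum_bound (4 * κ / p) hx0 (by linarith) J
  have hpow : 0 ≤ (4 * κ / p) ^ (2 ^ J) := by positivity
  linarith

end Vale.Agent.Lib.P064
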