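import Mathlib
import Vale.Agent.Lib.P064.Defs
import Vale.Agent.Lib.P064.DefsPc
import Vale.Agent.Lib.P064.Expectation
import Vale.Agent.Lib.P064.Transfer
import Vale.Agent.Lib.P064.Aut
import Vale.Agent.Lib.P064.General
import Vale.Agent.Lib.P064.GraphCount
import Vale.Agent.Lib.P064.Spread

namespace Vale.Agent.Lib.P064

open Finset

theorem spread_bound {W : Type*} [Fintype W] (H : SimpleGraph W) (n : ℕ) (κ : ℝ) (hκ0 : 0 ≤ κ)
    (hκ : ∀ F : H.Subgraph, (H.copyCount F.coe : ℝ) / 2
      ≤ ((⊤ : SimpleGraph (Fin n)).copyCount F.coe : ℝ) * κ ^ F.coe.edgeSet.ncard)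
    (I : Finset (Sym2 (Fin n))) (hI : ∀ e ∈ I, ¬ e.IsDiag) :
    (((injFin H (⊤ : SimpleGraph (Fin n))).filter (fun σ => I ⊆ edgeImg H n σ)).card : ℝ)
      ≤ 2 * κ ^ I.card * (n.descFactorial (Fintype.card W) : ℝ) := by
  classical
  rcases I.eq_empty_or_nonempty with rfl | hne
  · have h1 : ((injFin H (⊤ : SimpleGraph (Fin n))).filter
        (fun σ => (∅ : Finset (Sym2 (Fin n))) ⊆ edgeImg H n σ)).card
        ≤ (injFin H (⊤ : SimpleGraph (Fin n))).card := Finset.card_filter_le _ _
    rw [card_injFin_top] at h1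
    have h2 : (0 : ℝ) ≤ (n.descFactorial (Fintype.card W) : ℝ) := Nat.cast_nonneg _
    simp only [Finset.card_empty, pow_zero, mul_one]
    have h3 : (((injFin H (⊤ : SimpleGraph (Fin n))).filter
        (fun σ => (∅ : Finset (Sym2 (Fin n))) ⊆ edgeImg H n σ)).card : ℝ)
        ≤ (n.descFactorial (Fintype.card W) : ℝ) := by exact_mod_cast h1
    linarith
  · set k := Fintype.card ↥(vsupp I) with hk
    have h1 := card_contain_le H n I hne
    have hD0 : (0 : ℝ) ≤ (n.descFactorial (Fintype.card W) : ℝ) := Nat.cast_nonneg _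
    rcases (injFin (graphOn I) H).eq_empty_or_nonempty with hemp | ⟨τ, hτ⟩
    · rw [hemp, Finset.card_empty, mul_zero] at h1
      have h0 : ((injFin H (⊤ : SimpleGraph (Fin n))).filter
          (fun σ => I ⊆ edgeImg H n σ)).card = 0 := Nat.le_zero.mp h1
      rw [h0]
      simp only [Nat.cast_zero]
      positivity
    · obtain ⟨ι⟩ := subOf_iso (graphOn I) H τ hτ
      set F := subOf (graphOn I) H τ with hF
      have hκF := hκ F
      rw [← copyCount_congr_iso H (graphOn I) F.coe ι,
        ← copyCount_congr_iso (⊤ : SimpleGraph (Fin n)) (graphOn I) F.coe ι,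
        ← Set.ncard_congr' ι.mapEdgeSet, graphOn_edgeSet_ncard I hI] at hκF
      have hkW : k ≤ Fintype.card W :=
        Fintype.card_le_of_injective τ ((mem_injFin (graphOn I) H τ).mp hτ).1
      have hsplit : n.descFactorial (Fintype.card W)
          = n.descFactorial k * (n - k).descFactorial (Fintype.card W - k) := by
        have := descFactorial_split n k (Fintype.card W - k)
        rw [Nat.add_sub_cancel' hkW] at this
        exact this
      have e1 := card_injFin_eq (graphOn I) H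
      have e2 := card_injFin_eq (graphOn I) (⊤ : SimpleGraph (Fin n))
      rw [card_injFin_top] at e2
      set a := Nat.card (graphOn I ≃g graphOn I) with ha
      set NH := H.copyCount (graphOn I) with hNH
      set NT := (⊤ : SimpleGraph (Fin n)).copyCount (graphOn I) with hNT
      set D₂ := (n - k).descFactorial (Fintype.card W - k) with hD₂
      have h2 : (((injFin H (⊤ : SimpleGraph (Fin n))).filter
          (fun σ => I ⊆ edgeImg H n σ)).card : ℝ) ≤ (D₂ : ℝ) * ((NH : ℝ) * (a : ℝ)) := by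
        have : ((injFin H (⊤ : SimpleGraph (Fin n))).filter
            (fun σ => I ⊆ edgeImg H n σ)).card ≤ D₂ * (NH * a) := by
          rw [← e1]
          exact h1
        exact_mod_cast this
      have h3 : (NH : ℝ) ≤ 2 * ((NT : ℝ) * κ ^ I.card) := by linarith
      have ha0 : (0 : ℝ) ≤ (a : ℝ) := Nat.cast_nonneg _
      have hD₂0 : (0 : ℝ) ≤ (D₂ : ℝ) := Nat.cast_nonneg _
      have e2' : ((n.descFactorial k : ℕ) : ℝ) = (NT : ℝ) * (a : ℝ) := by exact_mod_cast e2
      calc (((injFin H (⊤ : SimpleGraph (Fin n))).filter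
            (fun σ => I ⊆ edgeImg H n σ)).card : ℝ)
          ≤ (D₂ : ℝ) * ((NH : ℝ) * (a : ℝ)) := h2
        _ ≤ (D₂ : ℝ) * ((2 * ((NT : ℝ) * κ ^ I.card)) * (a : ℝ)) := by
            apply mul_le_mul_of_nonneg_left _ hD₂0
            exact mul_le_mul_of_nonneg_right h3 ha0
        _ = 2 * κ ^ I.card * (((NT : ℝ) * (a : ℝ)) * (D₂ : ℝ)) := by ring
        _ = 2 * κ ^ I.card * (n.descFactorial (Fintype.card W) : ℝ) := by
            rw [← e2', hsplit]
            push_cast
            ring

/-- The mass function of the uniformly random labelled copy of `H` in the complete graph. -/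
noncomputable def copyMass {W : Type*} [Fintype W] (H : SimpleGraph W) (n : ℕ)
    (A : Finset (Sym2 (Fin n))) : ℝ :=
  (((injFin H (⊤ : SimpleGraph (Fin n))).filter (fun σ => edgeImg H n σ = A)).card : ℝ)
    / (n.descFactorial (Fintype.card W) : ℝ)

theorem copyMass_nonneg {W : Type*} [Fintype W] (H : SimpleGraph W) (n : ℕ)
    (A : Finset (Sym2 (Fin n))) : 0 ≤ copyMass H n A := by
  unfold copyMass
  positivity

theorem copyMass_supp {W : Type*} [Fintype W] (H : SimpleGraph W) (n : ℕ)
    (A : Finset (Sym2 (Fin n))) (h : copyMass H n A ≠ 0) :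
    ∃ σ : W → Fin n, Function.Injective σ ∧ edgeImg H n σ = A := by
  have hne : ((injFin H (⊤ : SimpleGraph (Fin n))).filter (fun σ => edgeImg H n σ = A)).Nonempty := by
    rw [Finset.nonempty_iff_ne_empty]
    intro hemp
    apply h
    unfold copyMass
    rw [hemp]
    simp
  obtain ⟨σ, hσ⟩ := hne
  obtain ⟨h1, h2⟩ := Finset.mem_filter.mp hσ
  exact ⟨σ, (mem_injFin_top H n σ).mp h1, h2⟩

theorem descFactorial_pos' (n k : ℕ) (h : k ≤ n) : (0 : ℝ) < (n.descFactorial k : ℝ) := by
  have : n.descFactorial k ≠ 0 := by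
    intro h0
    rw [Nat.descFactorial_eq_zero_iff_lt] at h0
    omega
  exact_mod_cast Nat.pos_of_ne_zero this

theorem copyMass_total {W : Type*} [Fintype W] (H : SimpleGraph W) (n : ℕ)
    (hW : Fintype.card W ≤ n) :
    ∑ A ∈ (⊤ : SimpleGraph (Fin n)).edgeFinset.powerset, copyMass H n A = 1 := by
  classical
  have hD := descFactorial_pos' n (Fintype.card W) hW
  unfold copyMass
  rw [← Finset.sum_div, div_eq_one_iff_eq hD.ne', ← Nat.cast_sum]
  congr 1
  rw [← card_injFin_top H n]
  symm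
  apply Finset.card_eq_sum_card_fiberwise
  intro σ hσ
  rw [Finset.mem_coe, Finset.mem_powerset]
  exact edgeImg_subset_top H n σ ((mem_injFin_top H n σ).mp (Finset.mem_coe.mp hσ))

theorem copyMass_spread {W : Type*} [Fintype W] (H : SimpleGraph W) (n : ℕ)
    (hW : Fintype.card W ≤ n) (κ : ℝ) (hκ0 : 0 ≤ κ)
    (hκ : ∀ F : H.Subgraph, (H.copyCount F.coe : ℝ) / 2
      ≤ ((⊤ : SimpleGraph (Fin n)).copyCount F.coe : ℝ) * κ ^ F.coe.edgeSet.ncard)
    (I : Finset (Sym2 (Fin n))) :
    ∑ A ∈ (⊤ : SimpleGraph (Fin n)).edgeFinset.powerset.filter (fun A => I ⊆ A), copyMass H n A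
      ≤ 2 * κ ^ I.card := by
  classical
  have hD := descFactorial_pos' n (Fintype.card W) hW
  by_cases hI : ∀ e ∈ I, ¬ e.IsDiag
  · have hmaps : ∀ σ ∈ (injFin H (⊤ : SimpleGraph (Fin n))).filter (fun σ => I ⊆ edgeImg H n σ),
        edgeImg H n σ ∈ (⊤ : SimpleGraph (Fin n)).edgeFinset.powerset.filter (fun A => I ⊆ A) := by
      intro σ hσ
      obtain ⟨h1, h2⟩ := Finset.mem_filter.mp hσ
      refine Finset.mem_filter.mpr ⟨Finset.mem_powerset.mpr ?_, h2⟩
      exact edgeImg_subset_top H n σ ((mem_injFin_top H n σ).mp h1)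
    have hcount := Finset.card_eq_sum_card_fiberwise hmaps
    have hsum : ∑ A ∈ (⊤ : SimpleGraph (Fin n)).edgeFinset.powerset.filter (fun A => I ⊆ A),
        copyMass H n A
        = (((injFin H (⊤ : SimpleGraph (Fin n))).filter (fun σ => I ⊆ edgeImg H n σ)).card : ℝ)
          / (n.descFactorial (Fintype.card W) : ℝ) := by
      unfold copyMass
      rw [← Finset.sum_div, hcount, Nat.cast_sum]
      congr 1
      apply Finset.sum_congr rfl
      intro A hA
      congr 2
      ext σ
      simp only [Finset.mem_filter]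
      constructor
      · rintro ⟨h1, h2⟩
        refine ⟨⟨h1, ?_⟩, h2⟩
        rw [h2]
        exact (Finset.mem_filter.mp hA).2
      · rintro ⟨⟨h1, -⟩, h2⟩
        exact ⟨h1, h2⟩
    rw [hsum, div_le_iff₀ hD]
    exact spread_bound H n κ hκ0 hκ I hI
  · have hemp : (⊤ : SimpleGraph (Fin n)).edgeFinset.powerset.filter (fun A => I ⊆ A) = ∅ := by
      apply Finset.eq_empty_of_forall_notMem
      intro A hA
      obtain ⟨h1, h2⟩ := Finset.mem_filter.mp hA
      apply hI
      intro e he
      have := Finset.mem_powerset.mp h1 (h2 he)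
      rw [SimpleGraph.mem_edgeFinset] at this
      exact SimpleGraph.not_isDiag_of_mem_edgeSet _ this
    rw [hemp, Finset.sum_empty]
    positivity

open Classical in
theorem sum_gnp_eq (n : ℕ) (p : ℝ) (f : SimpleGraph (Fin n) → ℝ) :
    ∑ G : SimpleGraph (Fin n), gnpProb n p G * f G
      = ∑ A ∈ (⊤ : SimpleGraph (Fin n)).edgeFinset.powerset,
          bw (⊤ : SimpleGraph (Fin n)).edgeFinset p A
            * f (SimpleGraph.fromEdgeSet (A : Set (Sym2 (Fin n)))) := by
  have hN : n.choose 2 = (⊤ : SimpleGraph (Fin n)).edgeFinset.card := by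
    rw [SimpleGraph.card_edgeFinset_top_eq_card_choose_two, Fintype.card_fin]
  have hcard : ∀ G : SimpleGraph (Fin n), G.edgeSet.ncard = G.edgeFinset.card := by
    intro G
    rw [Set.ncard_eq_toFinset_card']
    rfl
  apply Finset.sum_nbij' (fun G : SimpleGraph (Fin n) => G.edgeFinset)
    (fun A : Finset (Sym2 (Fin n)) => SimpleGraph.fromEdgeSet (A : Set (Sym2 (Fin n))))
  · intro G _
    rw [Finset.mem_powerset]
    exact SimpleGraph.edgeFinset_mono le_top
  · intro A _
    exact Finset.mem_univ _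
  · intro G _
    rw [SimpleGraph.coe_edgeFinset, SimpleGraph.fromEdgeSet_edgeSet]
  · intro A hA
    rw [Finset.mem_powerset] at hA
    apply Finset.coe_injective
    rw [SimpleGraph.coe_edgeFinset, SimpleGraph.edgeSet_fromEdgeSet]
    ext e
    constructor
    · intro he
      exact he.1
    · intro he
      refine ⟨he, ?_⟩
      have := hA he
      rw [SimpleGraph.mem_edgeFinset] at this
      exact (SimpleGraph.not_isDiag_of_mem_edgeSet _ this)
  · intro G _
    rw [SimpleGraph.coe_edgeFinset, SimpleGraph.fromEdgeSet_edgeSet]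
    unfold gnpProb bw
    rw [hcard G, hN]

theorem contain_half {W : Type*} [Fintype W] (H : SimpleGraph W) (n : ℕ)
    (hW : Fintype.card W ≤ n) (κ : ℝ) (hκ0 : 0 ≤ κ)
    (hκ : ∀ F : H.Subgraph, (H.copyCount F.coe : ℝ) / 2
      ≤ ((⊤ : SimpleGraph (Fin n)).copyCount F.coe : ℝ) * κ ^ F.coe.edgeSet.ncard)
    (p : ℝ) (hp0 : 0 < p) (hp1 : p ≤ 1) (h32 : 32 * κ ≤ p) (J : ℕ)
    (hJ : H.edgeSet.ncard < 2 ^ J) :
    1 / 2 ≤ containProb n (1 - (1 - p) ^ J) H := by
  classical
  set X := (⊤ : SimpleGraph (Fin n)).edgeFinset with hX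
  have hsupp : ∀ A ∈ X.powerset, copyMass H n A ≠ 0 → A.card < 2 ^ J := by
    intro A _ hA
    obtain ⟨σ, hσ, rfl⟩ := copyMass_supp H n A hA
    rw [card_edgeImg H n σ hσ]
    exact hJ
  have hfail := spread_success X p κ hp0 hp1 hκ0 h32 J (copyMass H n) (copyMass_nonneg H n)
    hsupp (copyMass_spread H n hW κ hκ0 hκ) (copyMass_total H n hW)
  set pJ : ℝ := 1 - (1 - p) ^ J with hpJ
  have hq0 : (0 : ℝ) ≤ 1 - p := by linarith
  have hq1 : (1 : ℝ) - p ≤ 1 := by linarith
  have hpJ0 : 0 ≤ pJ := by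
    have := pow_le_one₀ hq0 hq1 (n := J)
    linarith
  have hpJ1 : pJ ≤ 1 := by
    have : (0 : ℝ) ≤ (1 - p) ^ J := by positivity
    linarith
  unfold containProb
  rw [sum_gnp_eq n pJ (fun G => if 0 < G.copyCount H then 1 else 0)]
  have hpoint : ∀ A ∈ X.powerset,
      bw X pJ A * (1 - failInd (msupp X (copyMass H n)) A)
        ≤ bw X pJ A * (if 0 < (SimpleGraph.fromEdgeSet (A : Set (Sym2 (Fin n)))).copyCount H
            then 1 else 0) := by
    intro A _
    apply mul_le_mul_of_nonneg_left _ (bw_nonneg X pJ hpJ0 hpJ1 A)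
    by_cases h : ∀ S ∈ msupp X (copyMass H n), ¬ S ⊆ A
    · have : failInd (msupp X (copyMass H n)) A = 1 := by
        unfold failInd
        rw [if_pos h]
      rw [this, sub_self]
      split_ifs <;> norm_num
    · have hex : ∃ S ∈ msupp X (copyMass H n), S ⊆ A := by
        by_contra hcon
        apply h
        intro S hS hSA
        exact hcon ⟨S, hS, hSA⟩
      obtain ⟨S, hS, hSA⟩ := hex
      obtain ⟨σ, hσ, rfl⟩ := copyMass_supp H n S ((mem_msupp X (copyMass H n) S).mp hS).2
      have hcopy : 0 < (SimpleGraph.fromEdgeSet (A : Set (Sym2 (Fin n)))).copyCount H := by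
        rw [SimpleGraph.copyCount_pos]
        refine ⟨⟨⟨σ, ?_⟩, hσ⟩⟩
        intro a b hab
        rw [SimpleGraph.fromEdgeSet_adj]
        refine ⟨?_, fun h => hab.ne (hσ h)⟩
        apply Finset.mem_coe.mpr
        apply hSA
        rw [mem_edgeImg]
        exact ⟨s(a, b), hab, rfl⟩
      rw [if_pos hcopy]
      have := failInd_nonneg (msupp X (copyMass H n)) A
      linarith
  have hsum : ∑ A ∈ X.powerset, bw X pJ A * (1 - failInd (msupp X (copyMass H n)) A)
      = 1 - Pfail X pJ (msupp X (copyMass H n)) := by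
    unfold Pfail
    simp only [mul_sub, mul_one, Finset.sum_sub_distrib]
    rw [sum_bw]
  calc (1 : ℝ) / 2 ≤ 1 - Pfail X pJ (msupp X (copyMass H n)) := by linarith
    _ = ∑ A ∈ X.powerset, bw X pJ A * (1 - failInd (msupp X (copyMass H n)) A) := hsum.symm
    _ ≤ _ := Finset.sum_le_sum hpoint

end Vale.Agent.Lib.P064
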