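import Mathlib
import Vale.Agent.Lib.P064.Defs
import Vale.Agent.Lib.P064.DefsPc
import Vale.Agent.Lib.P064.Expectation
import Vale.Agent.Lib.P064.Sparse
import Vale.Agent.Lib.P064.GraphSpread

namespace Vale.Agent.Lib.P064

open Finset

theorem pEtilde_mem (n : ℕ) {W : Type*} [Fintype W] (H : SimpleGraph W)
    (hW : Fintype.card W ≤ n) :
    0 ≤ pEtilde n H ∧ pEtilde n H ≤ 1 ∧
      ∀ F : H.Subgraph, (H.copyCount F.coe : ℝ) / 2 ≤ expectedCopies n (pEtilde n H) F.coe := by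
  set P : Set ℝ := {p : ℝ | 0 ≤ p ∧ p ≤ 1 ∧
    ∀ F : H.Subgraph, (H.copyCount F.coe : ℝ) / 2 ≤ expectedCopies n p F.coe} with hP
  have hPeq : P = {p : ℝ | 0 ≤ p} ∩ ({p : ℝ | p ≤ 1} ∩ ⋂ F : H.Subgraph,
      {p : ℝ | (H.copyCount F.coe : ℝ) / 2 ≤ ((⊤ : SimpleGraph (Fin n)).copyCount F.coe : ℝ)
        * p ^ F.coe.edgeSet.ncard}) := by
    ext p
    simp only [hP, Set.mem_ofPred_eq, Set.mem_inter_iff, Set.mem_iInter, expectedCopies_eq]
  have hclosed : IsClosed P := by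
    rw [hPeq]
    apply IsClosed.inter (isClosed_le continuous_const continuous_id)
    apply IsClosed.inter (isClosed_le continuous_id continuous_const)
    apply isClosed_iInter
    intro F
    exact isClosed_le continuous_const (by fun_prop)
  have hne : P.Nonempty := by
    refine ⟨1, zero_le_one, le_refl 1, ?_⟩
    intro F
    rw [expectedCopies_eq, one_pow, mul_one]
    have h1 : (H.copyCount F.coe : ℝ) ≤ ((⊤ : SimpleGraph (Fin n)).copyCount F.coe : ℝ) := by
      exact_mod_cast copyCount_le_top H n hW F.coe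
    have h3 : (0 : ℝ) ≤ (H.copyCount F.coe : ℝ) := Nat.cast_nonneg _
    linarith
  have hbdd : BddBelow P := ⟨0, fun p hp => hp.1⟩
  have hmem : sInf P ∈ P := hclosed.csInf_mem hne hbdd
  exact hmem

open Classical in
theorem gnpProb_one_top (n : ℕ) : gnpProb n 1 (⊤ : SimpleGraph (Fin n)) = 1 := by
  have hN : n.choose 2 = (⊤ : SimpleGraph (Fin n)).edgeFinset.card := by
    rw [SimpleGraph.card_edgeFinset_top_eq_card_choose_two, Fintype.card_fin]
  have hcard : (⊤ : SimpleGraph (Fin n)).edgeSet.ncard = (⊤ : SimpleGraph (Fin n)).edgeFinset.card := by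
    rw [Set.ncard_eq_toFinset_card']
    rfl
  unfold gnpProb
  rw [hcard, hN]
  simp

theorem gnpProb_nonneg (n : ℕ) (p : ℝ) (hp0 : 0 ≤ p) (hp1 : p ≤ 1) (G : SimpleGraph (Fin n)) :
    0 ≤ gnpProb n p G := by
  unfold gnpProb
  have : (0 : ℝ) ≤ 1 - p := by linarith
  positivity

theorem containProb_one (n : ℕ) {W : Type*} [Fintype W] (H : SimpleGraph W)
    (hW : Fintype.card W ≤ n) : 1 / 2 ≤ containProb n 1 H := by
  have hpos : 0 < (⊤ : SimpleGraph (Fin n)).copyCount H := by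
    have h1 : 0 < H.copyCount H := SimpleGraph.copyCount_pos.mpr (SimpleGraph.IsContained.refl H)
    have h2 := copyCount_le_top H n hW H
    omega
  unfold containProb
  have hsingle := Finset.single_le_sum
    (f := fun G : SimpleGraph (Fin n) => gnpProb n 1 G * (if 0 < G.copyCount H then (1 : ℝ) else 0))
    (s := Finset.univ) (fun G _ => by
      apply mul_nonneg (gnpProb_nonneg n 1 zero_le_one (le_refl 1) G)
      split_ifs <;> norm_num)
    (Finset.mem_univ (⊤ : SimpleGraph (Fin n)))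
  rw [gnpProb_one_top, if_pos hpos] at hsingle
  linarith

theorem pc_le_of_eps (n : ℕ) {W : Type*} [Fintype W] (H : SimpleGraph W)
    (hW : Fintype.card W ≤ n) (κ : ℝ) (hκ0 : 0 ≤ κ)
    (hκ : ∀ F : H.Subgraph, (H.copyCount F.coe : ℝ) / 2
      ≤ ((⊤ : SimpleGraph (Fin n)).copyCount F.coe : ℝ) * κ ^ F.coe.edgeSet.ncard)
    (J : ℕ) (hJ : H.edgeSet.ncard < 2 ^ J) (ε : ℝ) (hε0 : 0 < ε) (hε1 : ε ≤ 1)
    (h32 : 32 * κ ≤ ε) : pc n H ≤ J * ε := by
  have hhalf := contain_half H n hW κ hκ0 hκ ε hε0 hε1 h32 J hJ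
  have hq0 : (0 : ℝ) ≤ 1 - ε := by linarith
  have hq1 : (1 : ℝ) - ε ≤ 1 := by linarith
  have hpJ0 : 0 ≤ 1 - (1 - ε) ^ J := by
    have := pow_le_one₀ hq0 hq1 (n := J)
    linarith
  have hpJ1 : 1 - (1 - ε) ^ J ≤ 1 := by
    have : (0 : ℝ) ≤ (1 - ε) ^ J := by positivity
    linarith
  have hbdd : BddBelow {p : ℝ | 0 ≤ p ∧ p ≤ 1 ∧ 1 / 2 ≤ containProb n p H} :=
    ⟨0, fun p hp => hp.1⟩
  have h1 : pc n H ≤ 1 - (1 - ε) ^ J := csInf_le hbdd ⟨hpJ0, hpJ1, hhalf⟩
  have hbern := one_add_mul_le_pow (a := -ε) (by linarith) J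
  have h2 : (1 : ℝ) + -ε = 1 - ε := by ring
  rw [h2] at hbern
  linarith

theorem edge_count_lt (n : ℕ) {W : Type*} [Fintype W] (H : SimpleGraph W)
    (hW : Fintype.card W ≤ n) : H.edgeSet.ncard < 2 ^ (2 * Nat.log 2 n + 2) := by
  classical
  have h1 : H.edgeSet.ncard = H.edgeFinset.card := by
    rw [Set.ncard_eq_toFinset_card']
    rfl
  have h2 : H.edgeFinset.card ≤ (Fintype.card W).choose 2 :=
    SimpleGraph.card_edgeFinset_le_card_choose_two
  have h3 : (Fintype.card W).choose 2 ≤ n.choose 2 := Nat.choose_le_choose 2 hW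
  have h4 : n.choose 2 ≤ n ^ 2 := Nat.choose_le_pow n 2
  have h5 : n < 2 ^ (Nat.log 2 n + 1) := Nat.lt_pow_succ_log_self (by norm_num) n
  have h6 : n ^ 2 < (2 ^ (Nat.log 2 n + 1)) ^ 2 := Nat.pow_lt_pow_left h5 (by norm_num)
  have h7 : (2 ^ (Nat.log 2 n + 1)) ^ 2 = 2 ^ (2 * Nat.log 2 n + 2) := by
    rw [← pow_mul]
    congr 1
    ring
  rw [h1]
  omega

theorem rounds_le_log (n : ℕ) (hn : 2 ≤ n) :
    32 * ((2 * Nat.log 2 n + 2 : ℕ) : ℝ) ≤ 200 * Real.log n := by
  have hlog2 : (0.64 : ℝ) ≤ Real.log 2 := by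
    have := Real.log_two_gt_d9
    linarith
  have hn0 : n ≠ 0 := by omega
  have h1 : 2 ^ Nat.log 2 n ≤ n := Nat.pow_log_le_self 2 hn0
  have h2 : ((2 : ℝ)) ^ Nat.log 2 n ≤ (n : ℝ) := by exact_mod_cast h1
  have h3 : Real.log ((2 : ℝ) ^ Nat.log 2 n) ≤ Real.log n :=
    Real.log_le_log (by positivity) h2
  rw [Real.log_pow] at h3
  have h4 : Real.log 2 ≤ Real.log n :=
    Real.log_le_log (by norm_num) (by exact_mod_cast hn)
  have h5 : (0 : ℝ) ≤ (Nat.log 2 n : ℝ) := Nat.cast_nonneg _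
  push_cast
  nlinarith

/-- The threshold is at most a logarithmic factor above `p̃_E`. -/
theorem pc_le_pEtilde (n : ℕ) (hn : 2 ≤ n) {W : Type*} [Fintype W] (H : SimpleGraph W)
    (hW : Fintype.card W ≤ n) : pc n H ≤ 200 * pEtilde n H * Real.log n := by
  obtain ⟨hκ0, hκ1, hκmem⟩ := pEtilde_mem n H hW
  set κ := pEtilde n H with hκdef
  have hκ : ∀ F : H.Subgraph, (H.copyCount F.coe : ℝ) / 2
      ≤ ((⊤ : SimpleGraph (Fin n)).copyCount F.coe : ℝ) * κ ^ F.coe.edgeSet.ncard := by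
    intro F
    have := hκmem F
    rw [expectedCopies_eq] at this
    exact this
  set J := 2 * Nat.log 2 n + 2 with hJdef
  have hJ := edge_count_lt n H hW
  have hJlog := rounds_le_log n hn
  have hJpos : (0 : ℝ) < (J : ℝ) := by
    have : 0 < J := by omega
    exact_mod_cast this
  have hlogn : (0.64 : ℝ) ≤ Real.log n := by
    have h1 := Real.log_two_gt_d9
    have h2 : Real.log 2 ≤ Real.log n :=
      Real.log_le_log (by norm_num) (by exact_mod_cast hn)
    linarith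
  have hbdd : BddBelow {p : ℝ | 0 ≤ p ∧ p ≤ 1 ∧ 1 / 2 ≤ containProb n p H} :=
    ⟨0, fun p hp => hp.1⟩
  by_cases hbig : 1 < 32 * κ
  · have h1 : pc n H ≤ 1 := csInf_le hbdd ⟨zero_le_one, le_refl 1, containProb_one n H hW⟩
    nlinarith
  · have hsmall : 32 * κ ≤ 1 := not_lt.mp hbig
    rcases hκ0.lt_or_eq with hpos | hzero
    · have h1 := pc_le_of_eps n H hW κ hκ0 hκ J hJ (32 * κ) (by linarith) hsmall (le_refl _)
      calc pc n H ≤ J * (32 * κ) := h1
        _ = (32 * (J : ℝ)) * κ := by ring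
        _ ≤ (200 * Real.log n) * κ := mul_le_mul_of_nonneg_right hJlog hκ0
        _ = 200 * κ * Real.log n := by ring
    · have hpc0 : pc n H ≤ 0 := by
        by_contra hcon
        have hpcpos : 0 < pc n H := not_le.mp hcon
        set ε : ℝ := min 1 (pc n H / (2 * J)) with hε
        have hε0 : 0 < ε := lt_min one_pos (by positivity)
        have hε1 : ε ≤ 1 := min_le_left _ _
        have h1 := pc_le_of_eps n H hW κ hκ0 hκ J hJ ε hε0 hε1 (by rw [← hzero]; linarith)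
        have h2 : ε ≤ pc n H / (2 * J) := min_le_right _ _
        have h3 : (J : ℝ) * ε ≤ J * (pc n H / (2 * J)) := mul_le_mul_of_nonneg_left h2 hJpos.le
        have h4 : (J : ℝ) * (pc n H / (2 * J)) = pc n H / 2 := by
          field_simp
        linarith
      rw [← hzero]
      linarith

/-- The bound of Q1 in the sparse regime: `p_c ≤ C(c) * p_E * log n` whenever `n * p_E ≤ c`. -/
theorem q1_sparse (n : ℕ) (hn : 2 ≤ n) {W : Type*} [Fintype W] (H : SimpleGraph W)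
    (hW : Fintype.card W ≤ n) (c : ℝ) (hc : (n : ℝ) * pE n H ≤ c) :
    pc n H ≤ 259200 * Real.exp (8 * c) * pE n H * Real.log n := by
  have h1 := pc_le_pEtilde n hn H hW
  have h2 := pEtilde_le n H hW c hc
  have hlogn : (0 : ℝ) ≤ Real.log n := Real.log_nonneg (by exact_mod_cast (by omega : 1 ≤ n))
  calc pc n H ≤ 200 * pEtilde n H * Real.log n := h1
    _ ≤ 200 * (1296 * Real.exp (8 * c) * pE n H) * Real.log n := by
        apply mul_le_mul_of_nonneg_right _ hlogn
        exact mul_le_mul_of_nonneg_left h2 (by norm_num)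
    _ = 259200 * Real.exp (8 * c) * pE n H * Real.log n := by ring

end Vale.Agent.Lib.P064
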