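import Mathlib
import Vale.Agent.Lib.P064.Config

namespace Vale.Agent.Lib.P064

open Finset

/-- Induction along an exploration of `C` from `u`: a property that holds for `C` and passes
from `insert v R` to `R` whenever `v` is reached by an arc from `R`, holds for every `R`
containing `u`. -/
theorem reach_induction {V : Type*} [DecidableEq V] (A : V → V → Prop) (C : Finset V) (u : V)
    (hreach : ∀ B : Finset V, B ⊆ C → B.Nonempty → u ∉ B → ∃ p ∈ C, p ∉ B ∧ ∃ v ∈ B, A p v)
    (Q : Finset V → Prop) (hC : Q C)
    (hstep : ∀ R : Finset V, u ∈ R → R ⊆ C → ∀ p ∈ R, ∀ v ∈ C, v ∉ R → A p v →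
      Q (insert v R) → Q R) :
    ∀ R : Finset V, u ∈ R → R ⊆ C → Q R := by
  have key : ∀ k : ℕ, ∀ R : Finset V, u ∈ R → R ⊆ C → (C \ R).card = k → Q R := by
    intro k
    induction k with
    | zero =>
      intro R _ hRC hk
      have h0 : C \ R = ∅ := Finset.card_eq_zero.mp hk
      have hCR : C ⊆ R := Finset.sdiff_eq_empty_iff_subset.mp h0
      have hRC' : R = C := Finset.Subset.antisymm hRC hCR
      rw [hRC']
      exact hC
    | succ k ih =>
      intro R huR hRC hk
      have hne : (C \ R).Nonempty := Finset.card_pos.mp (by omega)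
      obtain ⟨p, hpC, hpB, v, hvB, hpv⟩ := hreach (C \ R) Finset.sdiff_subset hne
        (fun h => (Finset.mem_sdiff.mp h).2 huR)
      have hpR : p ∈ R := by
        by_contra h
        exact hpB (Finset.mem_sdiff.mpr ⟨hpC, h⟩)
      obtain ⟨hvC, hvR⟩ := Finset.mem_sdiff.mp hvB
      apply hstep R huR hRC p hpR v hvC hvR hpv
      apply ih (insert v R) (Finset.mem_insert_of_mem huR) (Finset.insert_subset hvC hRC)
      have h1 : C \ insert v R = (C \ R).erase v := by
        ext w
        simp only [Finset.mem_sdiff, Finset.mem_insert, Finset.mem_erase]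
        tauto
      rw [h1, Finset.card_erase_of_mem hvB, hk]
      rfl
  intro R huR hRC
  exact key _ R huR hRC rfl

theorem card_sdiff_insert {V : Type*} [DecidableEq V] (C R : Finset V) (v : V) (hvC : v ∈ C)
    (hvR : v ∉ R) : (C \ R).card = (C \ insert v R).card + 1 := by
  have hvB : v ∈ C \ R := Finset.mem_sdiff.mpr ⟨hvC, hvR⟩
  have h1 : C \ insert v R = (C \ R).erase v := by
    ext w
    simp only [Finset.mem_sdiff, Finset.mem_insert, Finset.mem_erase]
    tauto
  rw [h1, Finset.card_erase_of_mem hvB]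
  have : 0 < (C \ R).card := Finset.card_pos.mpr ⟨v, hvB⟩
  omega

/-- The number of maps in a family that agree outside `C`, send `u` to `x`, and send the arcs
of a pattern inside `C` to arcs of an orientation of out-degree at most `a`. -/
theorem explore_bound {V W : Type*} [DecidableEq V] [DecidableEq W] (A : V → V → Prop)
    (Arc : W → W → Prop) (a : ℕ)
    (hout : ∀ x, ∃ N : Finset W, N.card ≤ a ∧ ∀ y, Arc x y → y ∈ N)
    (C : Finset V) (u : V) (hu : u ∈ C)
    (hreach : ∀ B : Finset V, B ⊆ C → B.Nonempty → u ∉ B → ∃ p ∈ C, p ∉ B ∧ ∃ v ∈ B, A p v)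
    (X : Finset (V → W)) (x : W)
    (hx : ∀ φ ∈ X, φ u = x)
    (harc : ∀ φ ∈ X, ∀ p v, A p v → Arc (φ p) (φ v))
    (hagree : ∀ φ ∈ X, ∀ φ' ∈ X, ∀ v, v ∉ C → φ v = φ' v) :
    X.card ≤ a ^ (C.card - 1) := by
  classical
  let r : Finset V → (V → W) → V → Option W :=
    fun R φ v => if v ∈ R then some (φ v) else none
  have hQ := reach_induction A C u hreach
    (fun R => X.card ≤ a ^ (C \ R).card * (X.image (r R)).card) ?_ ?_ {u}
    (Finset.mem_singleton_self u) (Finset.singleton_subset_iff.mpr hu)
  · have h1 : (X.image (r {u})).card ≤ 1 := by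
      apply Finset.card_le_one.mpr
      intro σ hσ σ' hσ'
      obtain ⟨φ, hφ, rfl⟩ := Finset.mem_image.mp hσ
      obtain ⟨φ', hφ', rfl⟩ := Finset.mem_image.mp hσ'
      funext w
      show (if w ∈ ({u} : Finset V) then some (φ w) else none)
        = (if w ∈ ({u} : Finset V) then some (φ' w) else none)
      by_cases hw : w ∈ ({u} : Finset V)
      · rw [if_pos hw, if_pos hw]
        have hwu : w = u := Finset.mem_singleton.mp hw
        rw [hwu, hx φ hφ, hx φ' hφ']
      · rw [if_neg hw, if_neg hw]
    have h2 : (C \ {u}).card = C.card - 1 := by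
      rw [Finset.sdiff_singleton_eq_erase, Finset.card_erase_of_mem hu]
    rw [h2] at hQ
    calc X.card ≤ a ^ (C.card - 1) * (X.image (r {u})).card := hQ
      _ ≤ a ^ (C.card - 1) * 1 := Nat.mul_le_mul_left _ h1
      _ = a ^ (C.card - 1) := mul_one _
  · show X.card ≤ a ^ (C \ C).card * (X.image (r C)).card
    rw [Finset.sdiff_self, Finset.card_empty, pow_zero, one_mul]
    apply le_of_eq
    symm
    apply Finset.card_image_of_injOn
    intro φ hφ φ' hφ' h
    funext v
    by_cases hv : v ∈ C
    · have h1 := congrFun h v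
      have h2 : (if v ∈ C then some (φ v) else none) = (if v ∈ C then some (φ' v) else none) := h1
      rw [if_pos hv, if_pos hv] at h2
      exact Option.some.inj h2
    · exact hagree φ (Finset.mem_coe.mp hφ) φ' (Finset.mem_coe.mp hφ') v hv
  · intro R huR hRC p hpR v hvC hvR hpv hQ'
    show X.card ≤ a ^ (C \ R).card * (X.image (r R)).card
    have hQ'' : X.card ≤ a ^ (C \ insert v R).card * (X.image (r (insert v R))).card := hQ'
    rw [card_sdiff_insert C R v hvC hvR, pow_succ, mul_assoc]
    refine hQ''.trans (Nat.mul_le_mul_left _ ?_)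
    let f : (V → Option W) → V → Option W := fun σ w => if w ∈ R then σ w else none
    have himg : (X.image (r (insert v R))).image f = X.image (r R) := by
      rw [Finset.image_image]
      apply Finset.image_congr
      intro φ _
      funext w
      show (if w ∈ R then (if w ∈ insert v R then some (φ w) else none) else none)
        = (if w ∈ R then some (φ w) else none)
      by_cases hw : w ∈ R
      · rw [if_pos hw, if_pos hw, if_pos (Finset.mem_insert_of_mem hw)]
      · rw [if_neg hw, if_neg hw]
    rw [← himg]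
    apply Finset.card_le_mul_card_image
    intro ρ hρ
    obtain ⟨σ₁, hσ₁, rfl⟩ := Finset.mem_image.mp hρ
    obtain ⟨φ₁, hφ₁, rfl⟩ := Finset.mem_image.mp hσ₁
    obtain ⟨N, hN, hNout⟩ := hout (φ₁ p)
    refine le_trans ?_ hN
    have hval : ∀ (φ : V → W) (w : V), w ∈ insert v R → r (insert v R) φ w = some (φ w) := by
      intro φ w hw
      show (if w ∈ insert v R then some (φ w) else none) = some (φ w)
      rw [if_pos hw]
    have hval' : ∀ (φ : V → W) (w : V), w ∉ insert v R → r (insert v R) φ w = none := by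
      intro φ w hw
      show (if w ∈ insert v R then some (φ w) else none) = none
      rw [if_neg hw]
    have hf : ∀ (σ : V → Option W) (w : V), w ∈ R → f σ w = σ w := by
      intro σ w hw
      show (if w ∈ R then σ w else none) = σ w
      rw [if_pos hw]
    apply Finset.card_le_card_of_forall_subsingleton (fun (σ : V → Option W) (y : W) => σ v = some y)
    · intro σ hσ
      obtain ⟨hσs, hσf⟩ := Finset.mem_filter.mp hσ
      obtain ⟨φ, hφ, rfl⟩ := Finset.mem_image.mp hσs
      refine ⟨φ v, ?_, hval φ v (Finset.mem_insert_self v R)⟩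
      apply hNout
      have h1 := congrFun hσf p
      rw [hf _ p hpR, hf _ p hpR, hval φ p (Finset.mem_insert_of_mem hpR),
        hval φ₁ p (Finset.mem_insert_of_mem hpR)] at h1
      rw [← Option.some.inj h1]
      exact harc φ hφ p v hpv
    · intro y _ σ hσ σ' hσ'
      obtain ⟨hσ1, hσv⟩ := hσ
      obtain ⟨hσ1', hσv'⟩ := hσ'
      obtain ⟨hσs, hσf⟩ := Finset.mem_filter.mp hσ1
      obtain ⟨hσs', hσf'⟩ := Finset.mem_filter.mp hσ1'
      obtain ⟨φ, hφ, rfl⟩ := Finset.mem_image.mp hσs
      obtain ⟨φ', hφ', rfl⟩ := Finset.mem_image.mp hσs'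
      funext w
      by_cases hw : w ∈ R
      · have h1 := congrFun (hσf.trans hσf'.symm) w
        rw [hf _ w hw, hf _ w hw] at h1
        exact h1
      · by_cases hwv : w = v
        · rw [hwv]
          exact hσv.trans hσv'.symm
        · have hw' : w ∉ insert v R := by
            intro h
            rcases Finset.mem_insert.mp h with h | h
            · exact hwv h
            · exact hw h
          rw [hval' φ w hw', hval' φ' w hw']

open Classical in
/-- The edges of `P` with both endpoints in `R`. -/
noncomputable def ins {V : Type*} [Fintype V] (P : SimpleGraph V) (R : Finset V) :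
    Finset (Sym2 V) :=
  Finset.univ.filter (fun e => e ∈ P.edgeSet ∧ ∀ w ∈ e, w ∈ R)

theorem mem_ins {V : Type*} [Fintype V] (P : SimpleGraph V) (R : Finset V) (e : Sym2 V) :
    e ∈ ins P R ↔ e ∈ P.edgeSet ∧ ∀ w ∈ e, w ∈ R := by
  classical
  unfold ins
  rw [Finset.mem_filter]
  exact ⟨fun h => h.2, fun h => ⟨Finset.mem_univ _, h⟩⟩

theorem mk_mem_ins {V : Type*} [Fintype V] (P : SimpleGraph V) (R : Finset V) (x y : V) :
    s(x, y) ∈ ins P R ↔ P.Adj x y ∧ x ∈ R ∧ y ∈ R := by
  rw [mem_ins, SimpleGraph.mem_edgeSet]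
  constructor
  · rintro ⟨h, h'⟩
    exact ⟨h, h' x (Sym2.mem_mk_left x y), h' y (Sym2.mem_mk_right x y)⟩
  · rintro ⟨h, hx, hy⟩
    refine ⟨h, ?_⟩
    intro w hw
    rcases Sym2.mem_iff.mp hw with rfl | rfl
    · exact hx
    · exact hy

/-- A set explored from `u` along arcs spans at least `|C| - 1` edges. -/
theorem inside_edges_bound {V : Type*} [Fintype V] [DecidableEq V] (A : V → V → Prop)
    (P : SimpleGraph V) (hAP : ∀ p v, A p v → p ≠ v → P.Adj p v)
    (C : Finset V) (u : V) (hu : u ∈ C)
    (hreach : ∀ B : Finset V, B ⊆ C → B.Nonempty → u ∉ B → ∃ p ∈ C, p ∉ B ∧ ∃ v ∈ B, A p v) :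
    C.card ≤ (ins P C).card + 1 := by
  classical
  have hQ := reach_induction A C u hreach
    (fun R => (C \ R).card + (ins P R).card ≤ (ins P C).card) ?_ ?_ {u}
    (Finset.mem_singleton_self u) (Finset.singleton_subset_iff.mpr hu)
  · have h2 : (C \ {u}).card = C.card - 1 := by
      rw [Finset.sdiff_singleton_eq_erase, Finset.card_erase_of_mem hu]
    have h3 : (C \ {u}).card + (ins P {u}).card ≤ (ins P C).card := hQ
    omega
  · show (C \ C).card + (ins P C).card ≤ (ins P C).card
    rw [Finset.sdiff_self, Finset.card_empty, zero_add]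
  · intro R huR hRC p hpR v hvC hvR hpv hQ'
    show (C \ R).card + (ins P R).card ≤ (ins P C).card
    have hQ'' : (C \ insert v R).card + (ins P (insert v R)).card ≤ (ins P C).card := hQ'
    have h1 := card_sdiff_insert C R v hvC hvR
    have hne : p ≠ v := fun h => hvR (h ▸ hpR)
    have hadj : P.Adj p v := hAP p v hpv hne
    have h2 : (ins P R).card < (ins P (insert v R)).card := by
      apply Finset.card_lt_card
      rw [Finset.ssubset_iff_of_subset]
      · refine ⟨s(p, v), ?_, ?_⟩
        · rw [mk_mem_ins]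
          exact ⟨hadj, Finset.mem_insert_of_mem hpR, Finset.mem_insert_self v R⟩
        · rw [mk_mem_ins]
          exact fun h => hvR h.2.2
      · intro e he
        rw [mem_ins] at he ⊢
        exact ⟨he.1, fun w hw => Finset.mem_insert_of_mem (he.2 w hw)⟩
    omega

theorem ins_add_le_inc {V : Type*} [Fintype V] [DecidableEq V] (P : SimpleGraph V)
    (C Y : Finset V) (hY : ∀ v ∈ Y, v ∉ C ∧ ∃ u ∈ C, P.Adj u v) :
    (ins P C).card + Y.card ≤ (inc P C).card := by
  classical
  have hsub : ins P C ⊆ inc P C := by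
    intro e he
    induction e using Sym2.inductionOn with
    | hf x y =>
      rw [mk_mem_ins] at he
      rw [mk_mem_inc]
      exact ⟨he.1, Or.inl he.2.1⟩
  have h1 : Y.card ≤ (inc P C \ ins P C).card := by
    let f : V → Sym2 V := fun b => if hb : ∃ a ∈ C, P.Adj a b then s(hb.choose, b) else s(b, b)
    apply Finset.card_le_card_of_injOn f
    · intro b hb
      have hb' := (hY b (Finset.mem_coe.mp hb)).2
      have hf : f b = s(hb'.choose, b) := dif_pos hb'
      rw [Finset.mem_coe, hf, Finset.mem_sdiff, mk_mem_inc, mk_mem_ins]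
      exact ⟨⟨hb'.choose_spec.2, Or.inl hb'.choose_spec.1⟩,
        fun h => (hY b (Finset.mem_coe.mp hb)).1 h.2.2⟩
    · intro b hb c hc hbc
      have hb' := (hY b (Finset.mem_coe.mp hb)).2
      have hc' := (hY c (Finset.mem_coe.mp hc)).2
      have hfb : f b = s(hb'.choose, b) := dif_pos hb'
      have hfc : f c = s(hc'.choose, c) := dif_pos hc'
      rw [hfb, hfc, Sym2.eq_iff] at hbc
      rcases hbc with ⟨-, h2⟩ | ⟨h1, -⟩
      · exact h2
      · exfalso
        apply (hY c (Finset.mem_coe.mp hc)).1
        rw [← h1]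
        exact hb'.choose_spec.1
  have h2 : (inc P C \ ins P C).card = (inc P C).card - (ins P C).card :=
    Finset.card_sdiff_of_subset hsub
  have h3 := Finset.card_le_card hsub
  omega

end Vale.Agent.Lib.P064
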