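import Mathlib
import Vale.Agent.Lib.P064.Split
import Vale.Agent.Lib.P064.Aut

namespace Vale.Agent.Lib.P064

open Finset

/-- A fractional orientation of the edges of `H`: every edge is owned by at least one of its
endpoints (`Arc x y` says that `x` owns the edge `xy`), every vertex owns at most `a` edges, and
any set of edges all of whose owners lie in a vertex set `X` has size at most `(a / b) * |X|`. -/
structure Orientation {W : Type*} (H : SimpleGraph W) (a b : ℕ) where
  Arc : W → W → Prop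
  adj : ∀ x y, Arc x y → H.Adj x y
  total : ∀ x y, H.Adj x y → Arc x y ∨ Arc y x
  out : ∀ x, ∃ N : Finset W, N.card ≤ a ∧ ∀ y, Arc x y → y ∈ N
  charge : ∀ (X : Finset W) (E₀ : Finset (Sym2 W)), (∀ e ∈ E₀, e ∈ H.edgeSet) →
    (∀ x y, s(x, y) ∈ E₀ → Arc x y → x ∈ X) → b * E₀.card ≤ a * X.card

/-- The subgraph of `H` formed by a set of edges and the vertices they cover. -/
def subOfEdges {W : Type*} (H : SimpleGraph W) (E' : Finset (Sym2 W))
    (hE' : ∀ e ∈ E', e ∈ H.edgeSet) : H.Subgraph where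
  verts := {w | ∃ e ∈ E', w ∈ e}
  Adj x y := s(x, y) ∈ E'
  adj_sub h := hE' _ h
  edge_vert h := ⟨_, h, Sym2.mem_mk_left _ _⟩
  symm := ⟨fun x y h => by
    rw [Sym2.eq_swap]
    exact h⟩

theorem subOfEdges_edges {W : Type*} (H : SimpleGraph W) (E' : Finset (Sym2 W))
    (hE' : ∀ e ∈ E', e ∈ H.edgeSet) :
    (subOfEdges H E' hE').coe.edgeSet.ncard = E'.card := by
  have h1 : (subOfEdges H E' hE').coe.edgeSet.ncard = (subOfEdges H E' hE').edgeSet.ncard := by
    rw [← SimpleGraph.Subgraph.image_coe_edgeSet_coe]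
    rw [Set.ncard_image_of_injective]
    exact Sym2.map.injective Subtype.val_injective
  rw [h1, ← Set.ncard_coe_finset]
  congr 1
  ext e
  induction e using Sym2.inductionOn with
  | hf x y =>
    rw [SimpleGraph.Subgraph.mem_edgeSet, Finset.mem_coe]
    rfl

theorem density_le {W : Type*} [Fintype W] (H : SimpleGraph W) (n : ℕ) (q : ℝ) (hq0 : 0 < q)
    (hq1 : q < 1)
    (hyp : ∀ F : H.Subgraph,
      1 ≤ ((⊤ : SimpleGraph (Fin n)).copyCount F.coe : ℝ) * q ^ F.coe.edgeSet.ncard)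
    (a b : ℕ) (hab : (n : ℝ) ^ b * q ^ a ≤ 1)
    (E' : Finset (Sym2 W)) (hE' : ∀ e ∈ E', e ∈ H.edgeSet) (Vs : Finset W)
    (hVs : ∀ w, w ∈ Vs ↔ ∃ e ∈ E', w ∈ e) :
    b * E'.card ≤ a * Vs.card := by
  classical
  set F := subOfEdges H E' hE' with hF
  have hedges : F.coe.edgeSet.ncard = E'.card := subOfEdges_edges H E' hE'
  have hverts : Fintype.card ↥F.verts = Vs.card :=
    Fintype.card_of_subtype (p := fun x => x ∈ F.verts) Vs (fun w => hVs w)
  have hcopy : (⊤ : SimpleGraph (Fin n)).copyCount F.coe ≤ n ^ Vs.card := by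
    have h1 := card_injFin_eq F.coe (⊤ : SimpleGraph (Fin n))
    have h2 := card_injFin_top_le F.coe n
    have h3 := aut_pos F.coe
    rw [hverts] at h2
    calc (⊤ : SimpleGraph (Fin n)).copyCount F.coe
        ≤ (⊤ : SimpleGraph (Fin n)).copyCount F.coe * Nat.card (F.coe ≃g F.coe) :=
          Nat.le_mul_of_pos_right _ h3
      _ = (injFin F.coe (⊤ : SimpleGraph (Fin n))).card := h1.symm
      _ ≤ n ^ Vs.card := h2
  have h := hyp F
  rw [hedges] at h
  set v := Vs.card with hv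
  set e := E'.card with he
  have h4 : (1 : ℝ) ≤ (n : ℝ) ^ v * q ^ e := by
    refine h.trans ?_
    apply mul_le_mul_of_nonneg_right _ (by positivity)
    exact_mod_cast hcopy
  by_contra hcon
  have hcon' : a * v + 1 ≤ b * e := by omega
  have h5 : (1 : ℝ) ≤ ((n : ℝ) ^ v * q ^ e) ^ b := one_le_pow₀ h4
  have h6 : ((n : ℝ) ^ b * q ^ a) ^ v ≤ 1 := pow_le_one₀ (by positivity) hab
  have h7 : q ^ (b * e) ≤ q ^ (a * v + 1) := pow_le_pow_of_le_one hq0.le hq1.le hcon'
  have h8 : ((n : ℝ) ^ v * q ^ e) ^ b = (n : ℝ) ^ (b * v) * q ^ (b * e) := by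
    rw [mul_pow, ← pow_mul, ← pow_mul, mul_comm v b, mul_comm e b]
  have h9 : ((n : ℝ) ^ b * q ^ a) ^ v = (n : ℝ) ^ (b * v) * q ^ (a * v) := by
    rw [mul_pow, ← pow_mul, ← pow_mul]
  rw [h8] at h5
  rw [h9] at h6
  have h10 : (n : ℝ) ^ (b * v) * q ^ (b * e) ≤ (n : ℝ) ^ (b * v) * q ^ (a * v) * q := by
    calc (n : ℝ) ^ (b * v) * q ^ (b * e) ≤ (n : ℝ) ^ (b * v) * q ^ (a * v + 1) :=
          mul_le_mul_of_nonneg_left h7 (by positivity)
      _ = (n : ℝ) ^ (b * v) * q ^ (a * v) * q := by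
          rw [pow_succ]
          ring
  have h11 : (n : ℝ) ^ (b * v) * q ^ (a * v) * q ≤ 1 * q :=
    mul_le_mul_of_nonneg_right h6 hq0.le
  linarith

theorem exists_owner {W : Type*} [Fintype W] (H : SimpleGraph W) (a b : ℕ)
    (hdens : ∀ (E' : Finset (Sym2 W)) (Vs : Finset W), (∀ e ∈ E', e ∈ H.edgeSet) →
      (∀ w, w ∈ Vs ↔ ∃ e ∈ E', w ∈ e) → b * E'.card ≤ a * Vs.card) :
    ∃ g : {e : Sym2 W // e ∈ H.edgeSet} × Fin b → W × Fin a,
      Function.Injective g ∧ ∀ x, (g x).1 ∈ x.1.1 := by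
  classical
  let t : {e : Sym2 W // e ∈ H.edgeSet} × Fin b → Finset (W × Fin a) :=
    fun x => (Finset.univ.filter (fun w => w ∈ x.1.1)) ×ˢ Finset.univ
  have hall : ∀ s : Finset ({e : Sym2 W // e ∈ H.edgeSet} × Fin b),
      s.card ≤ (s.biUnion t).card := by
    intro s
    set E' : Finset (Sym2 W) := s.image (fun x => x.1.1) with hE'
    set Vs : Finset W := Finset.univ.filter (fun w => ∃ e ∈ E', w ∈ e) with hVs
    have h1 : s.card ≤ b * E'.card := by
      have h0 : s.card ≤ (E' ×ˢ (Finset.univ : Finset (Fin b))).card := by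
        apply Finset.card_le_card_of_injOn (fun x => (x.1.1, x.2))
        · intro x hx
          rw [Finset.mem_coe, Finset.mem_product]
          exact ⟨Finset.mem_image_of_mem _ (Finset.mem_coe.mp hx), Finset.mem_univ _⟩
        · intro x _ y _ hxy
          have hxy' : (x.1.1, x.2) = (y.1.1, y.2) := hxy
          obtain ⟨h1, h2⟩ := Prod.mk.inj hxy'
          exact Prod.ext (Subtype.ext h1) h2
      rw [Finset.card_product, Finset.card_univ, Fintype.card_fin, mul_comm] at h0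
      exact h0
    have h2 : b * E'.card ≤ a * Vs.card := by
      apply hdens E' Vs
      · intro e he
        obtain ⟨x, -, rfl⟩ := Finset.mem_image.mp he
        exact x.1.2
      · intro w
        rw [hVs, Finset.mem_filter]
        exact ⟨fun h => h.2, fun h => ⟨Finset.mem_univ _, h⟩⟩
    have h3 : Vs ×ˢ (Finset.univ : Finset (Fin a)) ⊆ s.biUnion t := by
      intro p hp
      rw [Finset.mem_product, hVs, Finset.mem_filter] at hp
      obtain ⟨⟨-, e, he, hw⟩, -⟩ := hp
      obtain ⟨x, hx, rfl⟩ := Finset.mem_image.mp he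
      rw [Finset.mem_biUnion]
      exact ⟨x, hx, Finset.mem_product.mpr
        ⟨Finset.mem_filter.mpr ⟨Finset.mem_univ _, hw⟩, Finset.mem_univ _⟩⟩
    have h4 := Finset.card_le_card h3
    rw [Finset.card_product, Finset.card_univ, Fintype.card_fin, mul_comm] at h4
    exact h1.trans (h2.trans h4)
  obtain ⟨g, hg, hgt⟩ := (Finset.all_card_le_biUnion_card_iff_existsInjective' t).mp hall
  refine ⟨g, hg, fun x => ?_⟩
  have h := hgt x
  rw [Finset.mem_product, Finset.mem_filter] at h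
  exact h.1.2

theorem exists_orientation {W : Type*} [Fintype W] (H : SimpleGraph W) (n : ℕ) (q : ℝ)
    (hq0 : 0 < q) (hq1 : q < 1)
    (hyp : ∀ F : H.Subgraph,
      1 ≤ ((⊤ : SimpleGraph (Fin n)).copyCount F.coe : ℝ) * q ^ F.coe.edgeSet.ncard)
    (a b : ℕ) (hb : 1 ≤ b) (hab : (n : ℝ) ^ b * q ^ a ≤ 1) :
    Nonempty (Orientation H a b) := by
  classical
  obtain ⟨g, hg, hgm⟩ := exists_owner H a b
    (fun E' Vs hE' hVs => density_le H n q hq0 hq1 hyp a b hab E' hE' Vs hVs)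
  refine ⟨{ Arc := fun x y => ∃ (e : {e : Sym2 W // e ∈ H.edgeSet}) (i : Fin b),
              e.1 = s(x, y) ∧ (g (e, i)).1 = x
            adj := ?_
            total := ?_
            out := ?_
            charge := ?_ }⟩
  · rintro x y ⟨e, i, he, -⟩
    have h := e.2
    rw [he] at h
    exact h
  · intro x y hxy
    have hmem := hgm (⟨s(x, y), hxy⟩, ⟨0, hb⟩)
    rcases Sym2.mem_iff.mp hmem with h | h
    · exact Or.inl ⟨⟨s(x, y), hxy⟩, ⟨0, hb⟩, rfl, h⟩
    · exact Or.inr ⟨⟨s(x, y), hxy⟩, ⟨0, hb⟩, Sym2.eq_swap, h⟩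
  · intro x
    refine ⟨Finset.univ.filter (fun y => ∃ (e : {e : Sym2 W // e ∈ H.edgeSet}) (i : Fin b),
      e.1 = s(x, y) ∧ (g (e, i)).1 = x), ?_, fun y hy => Finset.mem_filter.mpr ⟨Finset.mem_univ _, hy⟩⟩
    have h0 : (Finset.univ.filter (fun y => ∃ (e : {e : Sym2 W // e ∈ H.edgeSet}) (i : Fin b),
        e.1 = s(x, y) ∧ (g (e, i)).1 = x)).card ≤ (Finset.univ : Finset (Fin a)).card := by
      apply Finset.card_le_card_of_forall_subsingleton
        (fun (y : W) (j : Fin a) => ∃ (e : {e : Sym2 W // e ∈ H.edgeSet}) (i : Fin b),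
          e.1 = s(x, y) ∧ g (e, i) = (x, j))
      · intro y hy
        obtain ⟨e, i, he, hx⟩ := (Finset.mem_filter.mp hy).2
        exact ⟨(g (e, i)).2, Finset.mem_univ _, e, i, he, Prod.ext hx rfl⟩
      · intro j _ y hy y' hy'
        obtain ⟨-, e, i, he, hgj⟩ := hy
        obtain ⟨-, e', i', he', hgj'⟩ := hy'
        have h1 := hg (hgj.trans hgj'.symm)
        have hee : e = e' := congrArg Prod.fst h1
        have h2 : s(x, y) = s(x, y') := by rw [← he, ← he', hee]
        exact Sym2.congr_right.mp h2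
    rw [Finset.card_univ, Fintype.card_fin] at h0
    exact h0
  · intro X E₀ hE₀ hown
    set S : Finset ({e : Sym2 W // e ∈ H.edgeSet} × Fin b) :=
      (Finset.univ.filter (fun e : {e : Sym2 W // e ∈ H.edgeSet} => e.1 ∈ E₀)) ×ˢ Finset.univ
      with hS
    have hScard : S.card = E₀.card * b := by
      rw [hS, Finset.card_product, Finset.card_univ, Fintype.card_fin]
      congr 1
      rw [← Finset.card_image_of_injective _ Subtype.val_injective]
      congr 1
      ext e
      rw [Finset.mem_image]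
      constructor
      · rintro ⟨e', he', rfl⟩
        exact (Finset.mem_filter.mp he').2
      · intro he
        exact ⟨⟨e, hE₀ e he⟩, Finset.mem_filter.mpr ⟨Finset.mem_univ _, he⟩, rfl⟩
    have hle : S.card ≤ (X ×ˢ (Finset.univ : Finset (Fin a))).card := by
      apply Finset.card_le_card_of_injOn g
      · intro x hx
        rw [Finset.mem_coe, hS, Finset.mem_product, Finset.mem_filter] at hx
        rw [Finset.mem_coe, Finset.mem_product]
        refine ⟨?_, Finset.mem_univ _⟩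
        have hmem := hgm x
        obtain ⟨⟨e, he⟩, i⟩ := x
        induction e using Sym2.inductionOn with
        | hf x' y' =>
          rcases Sym2.mem_iff.mp hmem with h | h
          · rw [h]
            exact hown x' y' hx.1.2 ⟨⟨s(x', y'), he⟩, i, rfl, h⟩
          · rw [h]
            refine hown y' x' ?_ ⟨⟨s(x', y'), he⟩, i, Sym2.eq_swap, h⟩
            rw [Sym2.eq_swap]
            exact hx.1.2
      · exact hg.injOn
    rw [hScard, Finset.card_product, Finset.card_univ, Fintype.card_fin] at hle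
    calc b * E₀.card = E₀.card * b := mul_comm _ _
      _ ≤ X.card * a := hle
      _ = a * X.card := mul_comm _ _

theorem exists_ab (n : ℕ) (hn : 2 ≤ n) (q : ℝ) (hq0 : 0 < q) (hq : q ≤ 1 / 2) :
    ∃ a b : ℕ, 1 ≤ a ∧ 1 ≤ b ∧ (n : ℝ) ^ b * q ^ a ≤ 1 ∧
      (1 / 3 : ℝ) ^ b ≤ (n : ℝ) ^ b * q ^ a ∧ (a : ℝ) ≤ 4 * Real.log n := by
  have hn' : (2 : ℝ) ≤ n := by exact_mod_cast hn
  have hn0 : (0 : ℝ) < n := by linarith
  have hlog2 : (0.69 : ℝ) < Real.log 2 := by
    have := Real.log_two_gt_d9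
    linarith
  have hlogn : Real.log 2 ≤ Real.log n := Real.log_le_log (by norm_num) hn'
  have hlogn0 : 0 < Real.log n := by linarith
  set t := -Real.log q with ht
  have ht2 : Real.log 2 ≤ t := by
    rw [ht]
    have h1 : Real.log q ≤ Real.log (1 / 2) := Real.log_le_log hq0 hq
    have h2 : Real.log (1 / 2 : ℝ) = -Real.log 2 := by rw [one_div, Real.log_inv]
    linarith
  have ht0 : 0 < t := by linarith
  set b := ⌈t⌉₊ with hb
  have hb1 : t ≤ b := Nat.le_ceil t
  have hb2 : (b : ℝ) < t + 1 := Nat.ceil_lt_add_one ht0.le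
  have hbpos : 1 ≤ b := Nat.ceil_pos.mpr ht0
  have hb0 : (0 : ℝ) < b := by exact_mod_cast hbpos
  set r := (b : ℝ) * Real.log n / t with hr
  have hr0 : 0 < r := by positivity
  set a := ⌈r⌉₊ with ha
  have ha1 : r ≤ a := Nat.le_ceil r
  have ha2 : (a : ℝ) < r + 1 := Nat.ceil_lt_add_one hr0.le
  have hapos : 1 ≤ a := Nat.ceil_pos.mpr hr0
  have hrt : r * t = b * Real.log n := by rw [hr, div_mul_cancel₀ _ ht0.ne']
  have hkey : (n : ℝ) ^ b * q ^ a = Real.exp (b * Real.log n - a * t) := by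
    have h1 : (n : ℝ) ^ b = Real.exp (b * Real.log n) := by
      rw [Real.exp_nat_mul, Real.exp_log hn0]
    have h2 : q ^ a = Real.exp (-(a * t)) := by
      rw [ht, show -((a : ℝ) * -Real.log q) = a * Real.log q by ring, Real.exp_nat_mul,
        Real.exp_log hq0]
    rw [h1, h2, ← Real.exp_add]
    congr 1
  refine ⟨a, b, hapos, hbpos, ?_, ?_, ?_⟩
  · rw [hkey, ← Real.exp_zero]
    apply Real.exp_le_exp.mpr
    have h1 : r * t ≤ a * t := mul_le_mul_of_nonneg_right ha1 ht0.le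
    linarith
  · rw [hkey]
    have h1 : (1 / 3 : ℝ) ^ b ≤ Real.exp (-(b : ℝ)) := by
      have h2 : (1 / 3 : ℝ) ≤ Real.exp (-1) := by
        rw [Real.exp_neg, one_div]
        exact inv_anti₀ (Real.exp_pos 1) Real.exp_one_lt_three.le
      calc (1 / 3 : ℝ) ^ b ≤ (Real.exp (-1)) ^ b := pow_le_pow_left₀ (by norm_num) h2 b
        _ = Real.exp (-(b : ℝ)) := by
            rw [← Real.exp_nat_mul]
            congr 1
            ring
    refine h1.trans (Real.exp_le_exp.mpr ?_)
    have h3 : (a : ℝ) * t ≤ (r + 1) * t := mul_le_mul_of_nonneg_right ha2.le ht0.le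
    rw [add_mul, hrt, one_mul] at h3
    linarith
  · have hA : (b : ℝ) * Real.log n ≤ (t + 1) * Real.log n :=
      mul_le_mul_of_nonneg_right hb2.le hlogn0.le
    have hB : (t + 1) * Real.log n ≤ 2.5 * t * Real.log n :=
      mul_le_mul_of_nonneg_right (by linarith) hlogn0.le
    have h1 : r ≤ 2.5 * Real.log n := by
      by_contra hcon
      have hcon' : 2.5 * Real.log n < r := not_le.mp hcon
      have h2 : 2.5 * Real.log n * t < r * t := mul_lt_mul_of_pos_right hcon' ht0
      have h3 : 2.5 * Real.log n * t = 2.5 * t * Real.log n := by ring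
      linarith
    linarith

theorem lambda_lower (n : ℕ) (q : ℝ) (hq0 : 0 < q) (hq1 : q ≤ 1) (a b : ℕ) (hb : 1 ≤ b)
    (h3 : (1 / 3 : ℝ) ^ b ≤ (n : ℝ) ^ b * q ^ a) (c m : ℕ) (hcm : b * m ≤ a * c) :
    (1 / 3 : ℝ) ^ c ≤ (n : ℝ) ^ c * q ^ m := by
  have h1 : ((1 / 3 : ℝ) ^ c) ^ b ≤ ((n : ℝ) ^ c * q ^ m) ^ b := by
    calc ((1 / 3 : ℝ) ^ c) ^ b = ((1 / 3 : ℝ) ^ b) ^ c := by
          rw [← pow_mul, ← pow_mul, mul_comm]
      _ ≤ ((n : ℝ) ^ b * q ^ a) ^ c := pow_le_pow_left₀ (by positivity) h3 c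
      _ = (n : ℝ) ^ (c * b) * q ^ (a * c) := by
          rw [mul_pow, ← pow_mul, ← pow_mul, mul_comm b c]
      _ ≤ (n : ℝ) ^ (c * b) * q ^ (b * m) := by
          apply mul_le_mul_of_nonneg_left _ (by positivity)
          exact pow_le_pow_of_le_one hq0.le hq1 hcm
      _ = ((n : ℝ) ^ c * q ^ m) ^ b := by
          rw [mul_pow, ← pow_mul, ← pow_mul, mul_comm m b]
  exact le_of_pow_le_pow_left₀ (by omega) (by positivity) h1

end Vale.Agent.Lib.P064
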