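import Mathlib
import Vale.Agent.Lib.P064.Config
import Vale.Agent.Lib.P064.Counting

namespace Vale.Agent.Lib.P064

open Finset

/-- The subgraph of `H` spanned by the images, under the maps of a family `D`, of the edges of
a pattern graph `P` that touch the vertex set `C`. -/
def sunSub {V W : Type*} (H : SimpleGraph W) (P : SimpleGraph V) (C Y : Finset V)
    (D : Finset (V → W))
    (hY : ∀ v, v ∉ C → (∃ u ∈ C, P.Adj u v) → v ∈ Y)
    (hhom : ∀ φ ∈ D, ∀ u v, P.Adj u v → u ∈ C → H.Adj (φ u) (φ v)) : H.Subgraph where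
  verts := {w | ∃ φ ∈ D, ∃ v, (v ∈ C ∨ v ∈ Y) ∧ φ v = w}
  Adj x y := ∃ φ ∈ D, ∃ u v, P.Adj u v ∧ (u ∈ C ∨ v ∈ C) ∧ φ u = x ∧ φ v = y
  adj_sub := by
    rintro x y ⟨φ, hφ, u, v, huv, hc, rfl, rfl⟩
    rcases hc with hc | hc
    · exact hhom φ hφ u v huv hc
    · exact (hhom φ hφ v u huv.symm hc).symm
  edge_vert := by
    rintro x y ⟨φ, hφ, u, v, huv, hc, rfl, rfl⟩
    by_cases hu : u ∈ C
    · exact ⟨φ, hφ, u, Or.inl hu, rfl⟩
    · have hv : v ∈ C := hc.resolve_left hu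
      exact ⟨φ, hφ, u, Or.inr (hY u hu ⟨v, hv, huv.symm⟩), rfl⟩
  symm := ⟨fun x y ⟨φ, hφ, u, v, huv, hc, hx, hy⟩ => ⟨φ, hφ, v, u, huv.symm, hc.symm, hy, hx⟩⟩

theorem sunSub_edges {V W : Type*} [Fintype V] [Fintype W] (H : SimpleGraph W)
    (P : SimpleGraph V) (C Y : Finset V) (D : Finset (V → W))
    (hY : ∀ v, v ∉ C → (∃ u ∈ C, P.Adj u v) → v ∈ Y)
    (hhom : ∀ φ ∈ D, ∀ u v, P.Adj u v → u ∈ C → H.Adj (φ u) (φ v))
    (hinj : ∀ φ ∈ D, Function.Injective φ)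
    (hagree : ∀ φ ∈ D, ∀ φ' ∈ D, ∀ v, v ∉ C → φ v = φ' v)
    (hdisj : ∀ φ ∈ D, ∀ φ' ∈ D, φ ≠ φ' → ∀ u ∈ C, ∀ u' ∈ C, φ u ≠ φ' u') :
    (sunSub H P C Y D hY hhom).coe.edgeSet.ncard = D.card * (inc P C).card := by
  classical
  set FT := sunSub H P C Y D hY hhom with hFT
  have h1 : FT.coe.edgeSet.ncard = FT.edgeSet.ncard := by
    rw [← SimpleGraph.Subgraph.image_coe_edgeSet_coe]
    rw [Set.ncard_image_of_injective]
    exact Sym2.map.injective Subtype.val_injective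
  have h2 : FT.edgeSet = ↑(D.biUnion (fun φ => (inc P C).image (Sym2.map φ))) := by
    ext e
    induction e using Sym2.inductionOn with
    | hf x y =>
      rw [SimpleGraph.Subgraph.mem_edgeSet, Finset.mem_coe, Finset.mem_biUnion]
      constructor
      · rintro ⟨φ, hφ, u, v, huv, hc, rfl, rfl⟩
        refine ⟨φ, hφ, ?_⟩
        rw [Finset.mem_image]
        exact ⟨s(u, v), (mk_mem_inc P C u v).mpr ⟨huv, hc⟩, rfl⟩
      · rintro ⟨φ, hφ, he⟩
        obtain ⟨e', he', heq⟩ := Finset.mem_image.mp he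
        induction e' using Sym2.inductionOn with
        | hf u v =>
          rw [mk_mem_inc] at he'
          rw [Sym2.map_mk, Sym2.eq_iff] at heq
          rcases heq with ⟨hx, hy⟩ | ⟨hx, hy⟩
          · exact ⟨φ, hφ, u, v, he'.1, he'.2, hx, hy⟩
          · exact ⟨φ, hφ, v, u, he'.1.symm, he'.2.symm, hy, hx⟩
  rw [h1, h2, Set.ncard_coe_finset, Finset.card_biUnion]
  · rw [Finset.sum_congr rfl (fun φ hφ =>
      Finset.card_image_of_injective _ (Sym2.map.injective (hinj φ hφ))),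
      Finset.sum_const, smul_eq_mul]
  · intro φ hφ φ' hφ' hne
    have K : ∀ u ∈ C, ∀ w, φ u ≠ φ' w := by
      intro u hu w
      by_cases hw : w ∈ C
      · exact hdisj φ hφ φ' hφ' hne u hu w hw
      · rw [hagree φ' hφ' φ hφ w hw]
        intro h
        exact hw ((hinj φ hφ h) ▸ hu)
    rw [Function.onFun, Finset.disjoint_left]
    intro e he he'
    obtain ⟨e₁, he₁, rfl⟩ := Finset.mem_image.mp he
    obtain ⟨e₂, he₂, heq⟩ := Finset.mem_image.mp he'
    rw [mem_inc] at he₁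
    obtain ⟨-, z, hzC, hz⟩ := he₁
    have hmem : φ z ∈ Sym2.map φ' e₂ := by
      rw [heq]
      exact Sym2.mem_map.mpr ⟨z, hz, rfl⟩
    obtain ⟨w, -, hw⟩ := Sym2.mem_map.mp hmem
    exact K z hzC w hw.symm

/-- The sunflower count: if the maps of `D` agree outside `C` and have pairwise disjoint images
of `C`, then the expectation hypothesis applied to the union of their images bounds `|D|`. -/
theorem sunflower_count {V W : Type*} [Fintype V] [Fintype W] (H : SimpleGraph W) (n : ℕ)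
    (hn : 1 ≤ n) (q : ℝ) (hq0 : 0 ≤ q)
    (hyp : ∀ F : H.Subgraph,
      1 ≤ ((⊤ : SimpleGraph (Fin n)).copyCount F.coe : ℝ) * q ^ F.coe.edgeSet.ncard)
    (P : SimpleGraph V) (C Y : Finset V) (hC : C.Nonempty)
    (hY : ∀ v, v ∈ Y ↔ v ∉ C ∧ ∃ u ∈ C, P.Adj u v)
    (hnb : ∀ u ∈ C, ∃ v, P.Adj u v)
    (D : Finset (V → W))
    (hinj : ∀ φ ∈ D, Function.Injective φ)
    (hhom : ∀ φ ∈ D, ∀ u v, P.Adj u v → u ∈ C → H.Adj (φ u) (φ v))
    (hagree : ∀ φ ∈ D, ∀ φ' ∈ D, ∀ v, v ∉ C → φ v = φ' v)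
    (hdisj : ∀ φ ∈ D, ∀ φ' ∈ D, φ ≠ φ' → ∀ u ∈ C, ∀ u' ∈ C, φ u ≠ φ' u') :
    (1 : ℝ) ≤ (n : ℝ) ^ Y.card * ((n ^ C.card).choose D.card : ℝ)
      * q ^ (D.card * (inc P C).card) := by
  classical
  have hn' : (1 : ℝ) ≤ n := by exact_mod_cast hn
  rcases D.eq_empty_or_nonempty with rfl | hne
  · simp only [Finset.card_empty, Nat.choose_zero_right, Nat.cast_one, mul_one, zero_mul,
      pow_zero]
    exact one_le_pow₀ hn'
  obtain ⟨φ₀, hφ₀⟩ := hne
  obtain ⟨u₀, hu₀⟩ := hC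
  have hY' : ∀ v, v ∉ C → (∃ u ∈ C, P.Adj u v) → v ∈ Y := fun v h1 h2 => (hY v).mpr ⟨h1, h2⟩
  set FT := sunSub H P C Y D hY' hhom with hFT
  have hE : FT.coe.edgeSet.ncard = D.card * (inc P C).card :=
    sunSub_edges H P C Y D hY' hhom hinj hagree hdisj
  have h1 := hyp FT
  rw [hE] at h1
  have hvert : ∀ φ ∈ D, ∀ v, (v ∈ C ∨ v ∈ Y) → φ v ∈ FT.verts :=
    fun φ hφ v hv => ⟨φ, hφ, v, hv, rfl⟩
  have hadjFT : ∀ φ ∈ D, ∀ u v, P.Adj u v → (u ∈ C ∨ v ∈ C) → FT.Adj (φ u) (φ v) :=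
    fun φ hφ u v huv hc => ⟨φ, hφ, u, v, huv, hc, rfl, rfl⟩
  have hmemCY : ∀ u v, P.Adj u v → (u ∈ C ∨ v ∈ C) → (u ∈ C ∨ u ∈ Y) := by
    intro u v huv hc
    by_cases hu : u ∈ C
    · exact Or.inl hu
    · exact Or.inr (hY' u hu ⟨v, hc.resolve_left hu, huv.symm⟩)
  have hv₀ : φ₀ u₀ ∈ FT.verts := hvert φ₀ hφ₀ u₀ (Or.inl hu₀)
  let ext : (FT.verts → Fin n) → W → Fin n :=
    fun ρ w => if hw : w ∈ FT.verts then ρ ⟨w, hw⟩ else ρ ⟨φ₀ u₀, hv₀⟩
  have hext : ∀ (ρ : FT.verts → Fin n) (w : W) (hw : w ∈ FT.verts), ext ρ w = ρ ⟨w, hw⟩ := by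
    intro ρ w hw
    exact dif_pos hw
  have hextinj : ∀ ρ : FT.verts → Fin n, Function.Injective ρ → Set.InjOn (ext ρ) FT.verts := by
    intro ρ hρ a ha b hb hab
    rw [hext ρ a ha, hext ρ b hb] at hab
    exact congrArg Subtype.val (hρ hab)
  let glue : (↥Y → Fin n) → (↥C → Fin n) → V → Option (Fin n) :=
    fun g f v => if h : v ∈ C then some (f ⟨v, h⟩) else if h' : v ∈ Y then some (g ⟨v, h'⟩) else none
  let enc : (FT.verts → Fin n) → (↥Y → Fin n) × Finset (↥C → Fin n) :=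
    fun ρ => (fun y => ext ρ (φ₀ y), D.image (fun φ => fun u : ↥C => ext ρ (φ u)))
  let R : (↥Y → Fin n) × Finset (↥C → Fin n) → Fin n → Fin n → Prop :=
    fun c x y => ∃ f ∈ c.2, ∃ u v, P.Adj u v ∧ (u ∈ C ∨ v ∈ C) ∧ glue c.1 f u = some x ∧
      glue c.1 f v = some y
  have hglue : ∀ (ρ : FT.verts → Fin n), ∀ φ ∈ D, ∀ w, (w ∈ C ∨ w ∈ Y) →
      glue (fun y : ↥Y => ext ρ (φ₀ y)) (fun u : ↥C => ext ρ (φ u)) w = some (ext ρ (φ w)) := by
    intro ρ φ hφ w hw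
    by_cases hwC : w ∈ C
    · exact dif_pos hwC
    · have hwY : w ∈ Y := hw.resolve_left hwC
      have h2 : glue (fun y : ↥Y => ext ρ (φ₀ y)) (fun u : ↥C => ext ρ (φ u)) w
          = some (ext ρ (φ₀ w)) := by
        show (if h : w ∈ C then some (ext ρ (φ w))
          else if h' : w ∈ Y then some (ext ρ (φ₀ w)) else none) = some (ext ρ (φ₀ w))
        rw [dif_neg hwC, dif_pos hwY]
      rw [h2, hagree φ₀ hφ₀ φ hφ w hwC]
  have key : ∀ ρ : FT.verts → Fin n, ∀ x y,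
      (∃ a b, FT.coe.Adj a b ∧ ρ a = x ∧ ρ b = y) ↔ R (enc ρ) x y := by
    intro ρ x y
    constructor
    · rintro ⟨a, b, hab, rfl, rfl⟩
      have hab' : FT.Adj a b := hab
      obtain ⟨φ, hφ, u, v, huv, hc, hua, hvb⟩ := hab'
      refine ⟨fun u : ↥C => ext ρ (φ u), Finset.mem_image_of_mem _ hφ, u, v, huv, hc, ?_, ?_⟩
      · have h3 := hglue ρ φ hφ u (hmemCY u v huv hc)
        have h4 : ext ρ (φ u) = ρ a := by
          rw [hext ρ (φ u) (hvert φ hφ u (hmemCY u v huv hc))]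
          congr 1
          exact Subtype.ext hua
        rw [← h4]
        exact h3
      · have h3 := hglue ρ φ hφ v (hmemCY v u huv.symm hc.symm)
        have h4 : ext ρ (φ v) = ρ b := by
          rw [hext ρ (φ v) (hvert φ hφ v (hmemCY v u huv.symm hc.symm))]
          congr 1
          exact Subtype.ext hvb
        rw [← h4]
        exact h3
    · rintro ⟨f, hf, u, v, huv, hc, hgu, hgv⟩
      obtain ⟨φ, hφ, rfl⟩ := Finset.mem_image.mp hf
      have hu' := hmemCY u v huv hc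
      have hv' := hmemCY v u huv.symm hc.symm
      have h3 := hglue ρ φ hφ u hu'
      have h4 := hglue ρ φ hφ v hv'
      have h5 : ext ρ (φ u) = x := Option.some.inj (h3.symm.trans hgu)
      have h6 : ext ρ (φ v) = y := Option.some.inj (h4.symm.trans hgv)
      refine ⟨⟨φ u, hvert φ hφ u hu'⟩, ⟨φ v, hvert φ hφ v hv'⟩, hadjFT φ hφ u v huv hc, ?_, ?_⟩
      · rw [← hext ρ (φ u) (hvert φ hφ u hu')]
        exact h5
      · rw [← hext ρ (φ v) (hvert φ hφ v hv')]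
        exact h6
  have hrange : ∀ ρ : FT.verts → Fin n, Set.range ρ = {x | ∃ y, R (enc ρ) x y} := by
    intro ρ
    ext x
    simp only [Set.mem_range, Set.mem_ofPred_eq]
    constructor
    · rintro ⟨a, rfl⟩
      have hnb' : ∃ b : FT.verts, FT.coe.Adj a b := by
        obtain ⟨φ, hφ, v, hv, hva⟩ := a.2
        rcases hv with hvC | hvY
        · obtain ⟨v', hvv'⟩ := hnb v hvC
          have hadj := hadjFT φ hφ v v' hvv' (Or.inl hvC)
          rw [hva] at hadj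
          exact ⟨⟨φ v', FT.edge_vert hadj.symm⟩, hadj⟩
        · obtain ⟨-, u, huC, huv⟩ := (hY v).mp hvY
          have hadj := hadjFT φ hφ v u huv.symm (Or.inr huC)
          rw [hva] at hadj
          exact ⟨⟨φ u, FT.edge_vert hadj.symm⟩, hadj⟩
      obtain ⟨b, hab⟩ := hnb'
      exact ⟨ρ b, (key ρ (ρ a) (ρ b)).mp ⟨a, b, hab, rfl, rfl⟩⟩
    · rintro ⟨y, hR⟩
      obtain ⟨a, b, -, ha, -⟩ := (key ρ x y).mpr hR
      exact ⟨a, ha⟩
  have hcount : (⊤ : SimpleGraph (Fin n)).copyCount FT.coe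
      ≤ n ^ Y.card * (n ^ C.card).choose D.card := by
    have hS : ((Finset.univ : Finset (↥Y → Fin n)) ×ˢ
        (Finset.powersetCard D.card (Finset.univ : Finset (↥C → Fin n)))).card
        = n ^ Y.card * (n ^ C.card).choose D.card := by
      rw [Finset.card_product, Finset.card_powersetCard, Finset.card_univ, Finset.card_univ,
        Fintype.card_fun, Fintype.card_fun, Fintype.card_fin, Fintype.card_coe, Fintype.card_coe]
    rw [← hS]
    apply copyCount_le_card_of_enc (⊤ : SimpleGraph (Fin n)) FT.coe _ enc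
    · intro ρ hρ _
      rw [Finset.mem_product, Finset.mem_powersetCard]
      refine ⟨Finset.mem_univ _, Finset.subset_univ _, ?_⟩
      apply Finset.card_image_of_injOn
      intro φ hφ φ' hφ' heq
      by_contra hne'
      have h2 := congrFun heq ⟨u₀, hu₀⟩
      have h3 : ext ρ (φ u₀) = ext ρ (φ' u₀) := h2
      have h4 := hextinj ρ hρ (hvert φ (Finset.mem_coe.mp hφ) u₀ (Or.inl hu₀))
        (hvert φ' (Finset.mem_coe.mp hφ') u₀ (Or.inl hu₀)) h3
      exact hdisj φ (Finset.mem_coe.mp hφ) φ' (Finset.mem_coe.mp hφ') hne' u₀ hu₀ u₀ hu₀ h4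
    · intro ρ ρ' _ _ _ _ henc
      constructor
      · rw [hrange ρ, hrange ρ', henc]
      · intro x y
        rw [key ρ, key ρ', henc]
  refine h1.trans ?_
  apply mul_le_mul_of_nonneg_right _ (by positivity)
  exact_mod_cast hcount

theorem sunflower_numeric (n y c t m : ℕ) (hn : 1 ≤ n) (q : ℝ) (hq0 : 0 ≤ q)
    (h : (1 : ℝ) ≤ (n : ℝ) ^ y * ((n ^ c).choose t : ℝ) * q ^ (t * m)) :
    (t : ℝ) ≤ 7.5 * ((n : ℝ) ^ c * q ^ m) ∨ (t : ℝ) ≤ y * Real.log n := by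
  by_cases hcase : (t : ℝ) ≤ 7.5 * ((n : ℝ) ^ c * q ^ m)
  · exact Or.inl hcase
  right
  have hcase' : 7.5 * ((n : ℝ) ^ c * q ^ m) < t := not_le.mp hcase
  set lam := (n : ℝ) ^ c * q ^ m with hlam
  have hlam0 : 0 ≤ lam := by positivity
  have hn' : (1 : ℝ) ≤ n := by exact_mod_cast hn
  have h1 : ((n ^ c).choose t : ℝ) ≤ ((n : ℝ) ^ c) ^ t / (t.factorial : ℝ) := by
    have h0 := Nat.choose_le_pow_div (α := ℝ) t (n ^ c)
    push_cast at h0
    exact h0
  have hfact : (0 : ℝ) < t.factorial := by exact_mod_cast Nat.factorial_pos t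
  have h2 : (1 : ℝ) ≤ (n : ℝ) ^ y * (lam ^ t / (t.factorial : ℝ)) := by
    calc (1 : ℝ) ≤ (n : ℝ) ^ y * ((n ^ c).choose t : ℝ) * q ^ (t * m) := h
      _ ≤ (n : ℝ) ^ y * (((n : ℝ) ^ c) ^ t / (t.factorial : ℝ)) * q ^ (t * m) := by
          apply mul_le_mul_of_nonneg_right _ (by positivity)
          exact mul_le_mul_of_nonneg_left h1 (by positivity)
      _ = (n : ℝ) ^ y * (lam ^ t / (t.factorial : ℝ)) := by
          rw [hlam, mul_pow, ← pow_mul q m t, mul_comm m t]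
          ring
  have h3 : lam ^ t ≤ ((t : ℝ) / 7.5) ^ t := by
    apply pow_le_pow_left₀ hlam0
    rw [le_div_iff₀ (by norm_num)]
    linarith
  have h4 : (t : ℝ) ^ t / (t.factorial : ℝ) ≤ Real.exp t :=
    Real.pow_div_factorial_le_exp (t : ℝ) (Nat.cast_nonneg t) t
  have h5 : Real.exp (2 * (t : ℝ)) ≤ (7.5 : ℝ) ^ t := by
    have h50 : Real.exp 2 ≤ 7.5 := by
      have h51 := Real.exp_one_lt_d9
      have h52 : Real.exp 2 = Real.exp 1 * Real.exp 1 := by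
        rw [← Real.exp_add]
        norm_num
      rw [h52]
      nlinarith [Real.exp_pos 1]
    calc Real.exp (2 * (t : ℝ)) = Real.exp ((t : ℝ) * 2) := by rw [mul_comm]
      _ = (Real.exp 2) ^ t := Real.exp_nat_mul 2 t
      _ ≤ 7.5 ^ t := pow_le_pow_left₀ (Real.exp_pos 2).le h50 t
  have h6 : lam ^ t / (t.factorial : ℝ) ≤ Real.exp (-(t : ℝ)) := by
    calc lam ^ t / (t.factorial : ℝ) ≤ ((t : ℝ) / 7.5) ^ t / (t.factorial : ℝ) :=
          div_le_div_of_nonneg_right h3 hfact.le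
      _ = ((t : ℝ) ^ t / (t.factorial : ℝ)) / 7.5 ^ t := by
          rw [div_pow]
          ring
      _ ≤ Real.exp t / 7.5 ^ t := div_le_div_of_nonneg_right h4 (by positivity)
      _ ≤ Real.exp t / Real.exp (2 * (t : ℝ)) :=
          div_le_div_of_nonneg_left (Real.exp_pos _).le (Real.exp_pos _) h5
      _ = Real.exp (-(t : ℝ)) := by
          rw [← Real.exp_sub]
          congr 1
          ring
  have h7 : (1 : ℝ) ≤ (n : ℝ) ^ y * Real.exp (-(t : ℝ)) :=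
    h2.trans (mul_le_mul_of_nonneg_left h6 (by positivity))
  have h8 : Real.exp (t : ℝ) ≤ (n : ℝ) ^ y := by
    rw [Real.exp_neg] at h7
    have h80 := mul_le_mul_of_nonneg_right h7 (Real.exp_pos (t : ℝ)).le
    rw [one_mul, mul_assoc, inv_mul_cancel₀ (Real.exp_pos _).ne', mul_one] at h80
    exact h80
  have h9 := Real.log_le_log (Real.exp_pos _) h8
  rw [Real.log_exp, Real.log_pow] at h9
  exact h9

end Vale.Agent.Lib.P064
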