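import Mathlib
import Vale.Agent.Lib.P064.Config
import Vale.Agent.Lib.P064.Orient
import Vale.Agent.Lib.P064.Explore
import Vale.Agent.Lib.P064.Sunflower

namespace Vale.Agent.Lib.P064

open Finset

universe u

theorem sq_le_four_pow (c : ℕ) (hc : 1 ≤ c) : c ^ 2 ≤ 4 ^ (c - 1) := by
  induction c, hc using Nat.le_induction with
  | base => norm_num
  | succ n hn ih =>
    have h1 : 4 ^ (n + 1 - 1) = 4 * 4 ^ (n - 1) := by
      have h2 : n + 1 - 1 = (n - 1) + 1 := by omega
      rw [h2, pow_succ]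
      ring
    rw [h1]
    nlinarith

theorem fiber_numeric (t c y m a : ℕ) (lam L logn : ℝ)
    (ht : (t : ℝ) ≤ 7.5 * lam ∨ (t : ℝ) ≤ y * logn)
    (hlam : (1 / 3 : ℝ) ^ c ≤ lam) (hm : y + c ≤ m + 1) (hm1 : 1 ≤ m) (hc : 1 ≤ c)
    (hL1 : 30 * (a : ℝ) ≤ L) (hL2 : logn ≤ L) (hL3 : 8 ≤ L) (hlogn : 0 ≤ logn) :
    (t : ℝ) * (c : ℝ) ^ 2 * (a : ℝ) ^ (c - 1) ≤ 3 ^ c * lam * L ^ m := by
  have hlam0 : 0 < lam := lt_of_lt_of_le (by positivity) hlam
  have hL1' : (1 : ℝ) ≤ L := by linarith
  have hL0 : (0 : ℝ) ≤ L := by linarith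
  have ha0 : (0 : ℝ) ≤ a := Nat.cast_nonneg a
  have hF1 : (c : ℝ) ^ 2 * (a : ℝ) ^ (c - 1) ≤ L ^ (c - 1) := by
    have h1 : (c : ℝ) ^ 2 ≤ 4 ^ (c - 1) := by exact_mod_cast sq_le_four_pow c hc
    calc (c : ℝ) ^ 2 * (a : ℝ) ^ (c - 1) ≤ 4 ^ (c - 1) * (a : ℝ) ^ (c - 1) :=
          mul_le_mul_of_nonneg_right h1 (by positivity)
      _ = (4 * (a : ℝ)) ^ (c - 1) := (mul_pow _ _ _).symm
      _ ≤ L ^ (c - 1) := pow_le_pow_left₀ (by positivity) (by linarith) _
  have hF0 : (0 : ℝ) ≤ (c : ℝ) ^ 2 * (a : ℝ) ^ (c - 1) := by positivity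
  have h3c : (1 : ℝ) ≤ 3 ^ c * lam := by
    have h0 : (3 : ℝ) ^ c * (1 / 3) ^ c = 1 := by
      rw [← mul_pow]
      norm_num
    calc (1 : ℝ) = 3 ^ c * (1 / 3) ^ c := h0.symm
      _ ≤ 3 ^ c * lam := mul_le_mul_of_nonneg_left hlam (by positivity)
  have hLm : L ^ (c - 1) ≤ L ^ m := pow_le_pow_right₀ hL1' (by omega)
  rcases ht with ht | ht
  · rcases Nat.lt_or_ge c 2 with hc2 | hc2
    · have hc1 : c = 1 := by omega
      subst hc1
      simp only [Nat.cast_one, one_pow, mul_one, Nat.sub_self, pow_zero, pow_one]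
      have hLm1 : L ≤ L ^ m := by
        calc L = L ^ 1 := (pow_one L).symm
          _ ≤ L ^ m := pow_le_pow_right₀ hL1' hm1
      nlinarith
    · have h9 : (7.5 : ℝ) ≤ 3 ^ c := by
        calc (7.5 : ℝ) ≤ 3 ^ 2 := by norm_num
          _ ≤ 3 ^ c := pow_le_pow_right₀ (by norm_num) hc2
      calc (t : ℝ) * (c : ℝ) ^ 2 * (a : ℝ) ^ (c - 1)
          = (t : ℝ) * ((c : ℝ) ^ 2 * (a : ℝ) ^ (c - 1)) := by ring
        _ ≤ (7.5 * lam) * L ^ (c - 1) := mul_le_mul ht hF1 hF0 (by positivity)
        _ ≤ (3 ^ c * lam) * L ^ m :=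
            mul_le_mul (mul_le_mul_of_nonneg_right h9 hlam0.le) hLm (by positivity) (by positivity)
  · rcases Nat.eq_zero_or_pos y with hy | hy
    · subst hy
      simp only [Nat.cast_zero, zero_mul] at ht
      have ht0 : (t : ℝ) = 0 := le_antisymm ht (Nat.cast_nonneg t)
      rw [ht0, zero_mul, zero_mul]
      positivity
    · have hy1 : (y : ℝ) ≤ L ^ (y - 1) := by
        have h1 : y ≤ 2 ^ (y - 1) := by
          have h0 := Nat.lt_two_pow_self (n := y - 1)
          omega
        calc (y : ℝ) ≤ 2 ^ (y - 1) := by exact_mod_cast h1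
          _ ≤ L ^ (y - 1) := pow_le_pow_left₀ (by norm_num) (by linarith) _
      have h2 : (y : ℝ) * logn ≤ L ^ y := by
        calc (y : ℝ) * logn ≤ L ^ (y - 1) * L := mul_le_mul hy1 hL2 hlogn (by positivity)
          _ = L ^ y := by
              rw [← pow_succ]
              congr 1
              omega
      calc (t : ℝ) * (c : ℝ) ^ 2 * (a : ℝ) ^ (c - 1)
          = (t : ℝ) * ((c : ℝ) ^ 2 * (a : ℝ) ^ (c - 1)) := by ring
        _ ≤ (L ^ y) * L ^ (c - 1) := mul_le_mul (ht.trans h2) hF1 hF0 (by positivity)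
        _ = L ^ (y + (c - 1)) := (pow_add _ _ _).symm
        _ ≤ L ^ m := pow_le_pow_right₀ hL1' (by omega)
        _ = 1 * L ^ m := (one_mul _).symm
        _ ≤ (3 ^ c * lam) * L ^ m := mul_le_mul_of_nonneg_right h3c (by positivity)

/-- The bound for one fibre of the restriction map: the maps in `X` agree outside the source
component `C` of the pattern. -/
theorem fiber_bound {V W : Type*} [Fintype V] [DecidableEq V] [Fintype W] (H : SimpleGraph W)
    (n : ℕ) (hn : 2 ≤ n) (hW : Fintype.card W ≤ n) (q : ℝ) (hq0 : 0 < q) (hq1 : q ≤ 1)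
    (hyp : ∀ F : H.Subgraph,
      1 ≤ ((⊤ : SimpleGraph (Fin n)).copyCount F.coe : ℝ) * q ^ F.coe.edgeSet.ncard)
    (a b : ℕ) (hb : 1 ≤ b) (h3 : (1 / 3 : ℝ) ^ b ≤ (n : ℝ) ^ b * q ^ a)
    (O : Orientation H a b) (L : ℝ) (hL1 : 30 * (a : ℝ) ≤ L) (hL2 : Real.log n ≤ L)
    (hL3 : 8 ≤ L)
    (A : V → V → Prop) (C : Finset V) (hC : C.Nonempty)
    (hclosed : ∀ u, u ∉ C → ∀ v ∈ C, ¬ A u v)
    (hreach : ∀ u ∈ C, ∀ B : Finset V, B ⊆ C → B.Nonempty → u ∉ B →
      ∃ p ∈ C, p ∉ B ∧ ∃ v ∈ B, A p v)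
    (X : Finset (V → W))
    (hinj : ∀ φ ∈ X, Function.Injective φ)
    (harc : ∀ φ ∈ X, ∀ u v, A u v → O.Arc (φ u) (φ v))
    (hrev : ∀ φ ∈ X, ∀ u v, A u v → O.Arc (φ v) (φ u) → A v u)
    (hagree : ∀ φ ∈ X, ∀ φ' ∈ X, ∀ v, v ∉ C → φ v = φ' v) :
    (X.card : ℝ) ≤ (3 * (n : ℝ)) ^ C.card * (L * q) ^ (inc (SimpleGraph.fromRel A) C).card := by
  classical
  set P := SimpleGraph.fromRel A with hP
  have hPadj : ∀ u v, P.Adj u v ↔ u ≠ v ∧ (A u v ∨ A v u) :=
    fun u v => SimpleGraph.fromRel_adj A u v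
  have hn1 : (1 : ℝ) ≤ n := by exact_mod_cast (by omega : 1 ≤ n)
  have hLq : 0 ≤ L * q := by
    have : (0 : ℝ) ≤ L := by linarith
    positivity
  rcases X.eq_empty_or_nonempty with rfl | hXne
  · simp only [Finset.card_empty, Nat.cast_zero]
    positivity
  obtain ⟨φ₁, hφ₁⟩ := hXne
  by_cases hiso : ∃ u ∈ C, ∀ v, ¬ P.Adj u v
  · obtain ⟨u, huC, hu⟩ := hiso
    have hCu : C = {u} := by
      by_contra hne
      have hB : (C.erase u).Nonempty := by
        rw [Finset.nonempty_iff_ne_empty]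
        intro h
        apply hne
        apply Finset.eq_singleton_iff_unique_mem.mpr
        refine ⟨huC, fun w hw => ?_⟩
        by_contra hwu
        have hmem : w ∈ C.erase u := Finset.mem_erase.mpr ⟨hwu, hw⟩
        rw [h] at hmem
        exact absurd hmem (Finset.notMem_empty _)
      obtain ⟨p, hpC, hpB, v, hvB, hpv⟩ := hreach u huC (C.erase u) (Finset.erase_subset _ _) hB
        (Finset.notMem_erase u C)
      have hpu : p = u := by
        by_contra h
        exact hpB (Finset.mem_erase.mpr ⟨h, hpC⟩)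
      have hvu : v ≠ u := (Finset.mem_erase.mp hvB).1
      rw [hpu] at hpv
      exact hu v ((hPadj u v).mpr ⟨fun h => hvu h.symm, Or.inl hpv⟩)
    have hinc : inc P C = ∅ := by
      apply Finset.eq_empty_of_forall_notMem
      intro e he
      induction e using Sym2.inductionOn with
      | hf x y =>
        rw [mk_mem_inc, hCu] at he
        rcases he.2 with h | h
        · rw [Finset.mem_singleton] at h
          rw [h] at he
          exact hu y he.1
        · rw [Finset.mem_singleton] at h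
          rw [h] at he
          exact hu x he.1.symm
    have hcard : X.card ≤ Fintype.card W := by
      rw [← Finset.card_univ]
      apply Finset.card_le_card_of_injOn (fun φ => φ u)
      · intro φ _
        exact Finset.mem_coe.mpr (Finset.mem_univ _)
      · intro φ hφ φ' hφ' h
        funext w
        by_cases hw : w = u
        · rw [hw]
          exact h
        · apply hagree φ (Finset.mem_coe.mp hφ) φ' (Finset.mem_coe.mp hφ') w
          rw [hCu, Finset.mem_singleton]
          exact hw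
    rw [hinc, hCu]
    simp only [Finset.card_singleton, pow_one, Finset.card_empty, pow_zero, mul_one]
    have h1 : (X.card : ℝ) ≤ n := by exact_mod_cast hcard.trans hW
    linarith
  · have hnb : ∀ u ∈ C, ∃ v, P.Adj u v := by
      intro u hu
      by_contra h
      exact hiso ⟨u, hu, fun v hv => h ⟨v, hv⟩⟩
    set Y : Finset V := Finset.univ.filter (fun v => v ∉ C ∧ ∃ u ∈ C, P.Adj u v) with hYdef
    have hY : ∀ v, v ∈ Y ↔ v ∉ C ∧ ∃ u ∈ C, P.Adj u v := by
      intro v
      rw [hYdef, Finset.mem_filter]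
      exact ⟨fun h => h.2, fun h => ⟨Finset.mem_univ _, h⟩⟩
    have hhomC : ∀ φ ∈ X, ∀ u v, P.Adj u v → u ∈ C → H.Adj (φ u) (φ v) := by
      intro φ hφ u v huv _
      rcases ((hPadj u v).mp huv).2 with h | h
      · exact O.adj _ _ (harc φ hφ u v h)
      · exact (O.adj _ _ (harc φ hφ v u h)).symm
    let good : Finset (V → W) → Prop :=
      fun D => ∀ φ ∈ D, ∀ φ' ∈ D, φ ≠ φ' → ∀ u ∈ C, ∀ u' ∈ C, φ u ≠ φ' u'
    have hgood0 : good ∅ := by
      intro φ hφ
      exact absurd hφ (Finset.notMem_empty _)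
    obtain ⟨D, hDmem, hDmax⟩ := Finset.exists_max_image (X.powerset.filter good) Finset.card
      ⟨∅, Finset.mem_filter.mpr ⟨Finset.mem_powerset.mpr (Finset.empty_subset _), hgood0⟩⟩
    have hDX : D ⊆ X := Finset.mem_powerset.mp (Finset.mem_filter.mp hDmem).1
    have hDgood : good D := (Finset.mem_filter.mp hDmem).2
    have hconf : ∀ φ ∈ X, ∃ φ' ∈ D, ∃ u ∈ C, ∃ u' ∈ C, φ u = φ' u' := by
      intro φ hφ
      by_cases hφD : φ ∈ D
      · obtain ⟨u₀, hu₀⟩ := hC
        exact ⟨φ, hφD, u₀, hu₀, u₀, hu₀, rfl⟩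
      · by_contra hcon
        have hcon' : ∀ φ' ∈ D, ∀ u ∈ C, ∀ u' ∈ C, φ u ≠ φ' u' := by
          intro φ' hφ' u hu u' hu' h
          exact hcon ⟨φ', hφ', u, hu, u', hu', h⟩
        have hgood' : good (insert φ D) := by
          intro ψ hψ ψ' hψ' hne u hu u' hu'
          rcases Finset.mem_insert.mp hψ with rfl | hψD
          · rcases Finset.mem_insert.mp hψ' with rfl | hψ'D
            · exact absurd rfl hne
            · exact hcon' ψ' hψ'D u hu u' hu'
          · rcases Finset.mem_insert.mp hψ' with rfl | hψ'D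
            · exact fun h => hcon' ψ hψD u' hu' u hu h.symm
            · exact hDgood ψ hψD ψ' hψ'D hne u hu u' hu'
        have hmem' : insert φ D ∈ X.powerset.filter good :=
          Finset.mem_filter.mpr ⟨Finset.mem_powerset.mpr (Finset.insert_subset hφ hDX), hgood'⟩
        have h1 := hDmax _ hmem'
        rw [Finset.card_insert_of_notMem hφD] at h1
        omega
    have hsun := sunflower_count H n (by omega) q hq0.le hyp P C Y hC hY hnb D
      (fun φ hφ => hinj φ (hDX hφ)) (fun φ hφ => hhomC φ (hDX hφ))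
      (fun φ hφ φ' hφ' => hagree φ (hDX hφ) φ' (hDX hφ')) hDgood
    have hnum := sunflower_numeric n Y.card C.card D.card (inc P C).card (by omega) q hq0.le hsun
    have hexp : X.card ≤ D.card * C.card ^ 2 * a ^ (C.card - 1) := by
      have hsub : X ⊆ (D ×ˢ (C ×ˢ C)).biUnion
          (fun z => X.filter (fun φ => φ z.2.2 = z.1 z.2.1)) := by
        intro φ hφ
        obtain ⟨φ', hφ', u, hu, u', hu', h⟩ := hconf φ hφ
        rw [Finset.mem_biUnion]
        exact ⟨(φ', (u', u)), Finset.mem_product.mpr ⟨hφ', Finset.mem_product.mpr ⟨hu', hu⟩⟩,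
          Finset.mem_filter.mpr ⟨hφ, h⟩⟩
      calc X.card ≤ ((D ×ˢ (C ×ˢ C)).biUnion
            (fun z => X.filter (fun φ => φ z.2.2 = z.1 z.2.1))).card := Finset.card_le_card hsub
        _ ≤ ∑ z ∈ D ×ˢ (C ×ˢ C), (X.filter (fun φ => φ z.2.2 = z.1 z.2.1)).card :=
            Finset.card_biUnion_le
        _ ≤ ∑ _z ∈ D ×ˢ (C ×ˢ C), a ^ (C.card - 1) := by
            apply Finset.sum_le_sum
            intro z hz
            obtain ⟨hz1, hz2⟩ := Finset.mem_product.mp hz
            obtain ⟨hz21, hz22⟩ := Finset.mem_product.mp hz2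
            apply explore_bound A O.Arc a O.out C z.2.2 hz22 (hreach z.2.2 hz22) _ (z.1 z.2.1)
            · intro φ hφ
              exact (Finset.mem_filter.mp hφ).2
            · intro φ hφ p v hpv
              exact harc φ (Finset.mem_filter.mp hφ).1 p v hpv
            · intro φ hφ φ' hφ' v hv
              exact hagree φ (Finset.mem_filter.mp hφ).1 φ' (Finset.mem_filter.mp hφ').1 v hv
        _ = D.card * C.card ^ 2 * a ^ (C.card - 1) := by
            rw [Finset.sum_const, smul_eq_mul, Finset.card_product, Finset.card_product]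
            ring
    have claim : ∀ u v, P.Adj u v → (u ∈ C ∨ v ∈ C) → O.Arc (φ₁ u) (φ₁ v) → u ∈ C := by
      intro u v huv hc harc'
      by_contra huC
      have hvC : v ∈ C := hc.resolve_left huC
      rcases ((hPadj u v).mp huv).2 with h | h
      · exact hclosed u huC v hvC h
      · exact hclosed u huC v hvC (hrev φ₁ hφ₁ v u h harc')
    have hcharge : b * (inc P C).card ≤ a * C.card := by
      have h := O.charge (C.image φ₁) ((inc P C).image (Sym2.map φ₁)) ?_ ?_
      · rw [Finset.card_image_of_injective _ (Sym2.map.injective (hinj φ₁ hφ₁)),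
          Finset.card_image_of_injective _ (hinj φ₁ hφ₁)] at h
        exact h
      · intro e he
        obtain ⟨e', he', rfl⟩ := Finset.mem_image.mp he
        induction e' using Sym2.inductionOn with
        | hf u v =>
          rw [mk_mem_inc] at he'
          rw [Sym2.map_mk, SimpleGraph.mem_edgeSet]
          rcases he'.2 with hc | hc
          · exact hhomC φ₁ hφ₁ u v he'.1 hc
          · exact (hhomC φ₁ hφ₁ v u he'.1.symm hc).symm
      · intro x y hxy harcxy
        obtain ⟨e', he', heq⟩ := Finset.mem_image.mp hxy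
        induction e' using Sym2.inductionOn with
        | hf u v =>
          rw [mk_mem_inc] at he'
          rw [Sym2.map_mk, Sym2.eq_iff] at heq
          rcases heq with ⟨hx, hy⟩ | ⟨hx, hy⟩
          · rw [← hx, ← hy] at harcxy
            rw [← hx]
            exact Finset.mem_image_of_mem _ (claim u v he'.1 he'.2 harcxy)
          · rw [← hx, ← hy] at harcxy
            rw [← hy]
            exact Finset.mem_image_of_mem _ (claim v u he'.1.symm he'.2.symm harcxy)
    have hlam := lambda_lower n q hq0 hq1 a b hb h3 C.card (inc P C).card hcharge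
    obtain ⟨u₀, hu₀⟩ := hC
    have hins := inside_edges_bound A P
      (fun p v hpv hne => (hPadj p v).mpr ⟨hne, Or.inl hpv⟩) C u₀ hu₀ (hreach u₀ hu₀)
    have hincge := ins_add_le_inc P C Y (fun v hv => (hY v).mp hv)
    have hm : Y.card + C.card ≤ (inc P C).card + 1 := by omega
    have hm1 : 1 ≤ (inc P C).card := by
      obtain ⟨v, hv⟩ := hnb u₀ hu₀
      exact Finset.card_pos.mpr ⟨s(u₀, v), (mk_mem_inc P C u₀ v).mpr ⟨hv, Or.inl hu₀⟩⟩
    have hc1 : 1 ≤ C.card := Finset.card_pos.mpr ⟨u₀, hu₀⟩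
    have hlogn : 0 ≤ Real.log n := Real.log_nonneg hn1
    have hfinal := fiber_numeric D.card C.card Y.card (inc P C).card a
      ((n : ℝ) ^ C.card * q ^ (inc P C).card) L (Real.log n) hnum hlam hm hm1 hc1 hL1 hL2 hL3
      hlogn
    calc (X.card : ℝ) ≤ ((D.card * C.card ^ 2 * a ^ (C.card - 1) : ℕ) : ℝ) := by
          exact_mod_cast hexp
      _ = (D.card : ℝ) * (C.card : ℝ) ^ 2 * (a : ℝ) ^ (C.card - 1) := by
          push_cast
          ring
      _ ≤ 3 ^ C.card * ((n : ℝ) ^ C.card * q ^ (inc P C).card) * L ^ (inc P C).card := hfinal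
      _ = (3 * (n : ℝ)) ^ C.card * (L * q) ^ (inc P C).card := by
          rw [mul_pow, mul_pow]
          ring

end Vale.Agent.Lib.P064
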