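import Mathlib
import Vale.Agent.Lib.P064.Config
import Vale.Agent.Lib.P064.Orient
import Vale.Agent.Lib.P064.Digraph

namespace Vale.Agent.Lib.P064

open Finset

universe u

open Classical in
/-- The injective maps that send every arc of the pattern `A` to an arc of `Arc`, and whose
reversed arcs are exactly those prescribed by `A`. -/
noncomputable def PhiSet {V W : Type*} [Fintype V] [Fintype W] (Arc : W → W → Prop)
    (A : V → V → Prop) : Finset (V → W) :=
  Finset.univ.filter (fun φ => Function.Injective φ ∧ (∀ u v, A u v → Arc (φ u) (φ v)) ∧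
    (∀ u v, A u v → Arc (φ v) (φ u) → A v u))

theorem mem_PhiSet {V W : Type*} [Fintype V] [Fintype W] (Arc : W → W → Prop)
    (A : V → V → Prop) (φ : V → W) :
    φ ∈ PhiSet Arc A ↔ Function.Injective φ ∧ (∀ u v, A u v → Arc (φ u) (φ v)) ∧
      (∀ u v, A u v → Arc (φ v) (φ u) → A v u) := by
  classical
  unfold PhiSet
  rw [Finset.mem_filter]
  exact ⟨fun h => h.2, fun h => ⟨Finset.mem_univ _, h⟩⟩

theorem fromRel_edge_split {V : Type*} [Fintype V] (A : V → V → Prop) (C : Finset V) :
    (SimpleGraph.fromRel A).edgeSet.ncard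
      = (SimpleGraph.fromRel (fun x y : {v : V // v ∉ C} => A x.1 y.1)).edgeSet.ncard
        + (inc (SimpleGraph.fromRel A) C).card := by
  classical
  have hadj : ∀ x y : {v : V // v ∉ C},
      (SimpleGraph.fromRel (fun x y : {v : V // v ∉ C} => A x.1 y.1)).Adj x y
        ↔ (SimpleGraph.fromRel A).Adj x.1 y.1 := by
    intro x y
    rw [SimpleGraph.fromRel_adj, SimpleGraph.fromRel_adj]
    constructor
    · rintro ⟨hne, h⟩
      exact ⟨fun h' => hne (Subtype.ext h'), h⟩
    · rintro ⟨hne, h⟩
      exact ⟨fun h' => hne (congrArg Subtype.val h'), h⟩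
  have h1 : (SimpleGraph.fromRel A).edgeSet
      = (Sym2.map Subtype.val ''
          (SimpleGraph.fromRel (fun x y : {v : V // v ∉ C} => A x.1 y.1)).edgeSet)
        ∪ ↑(inc (SimpleGraph.fromRel A) C) := by
    ext e
    induction e using Sym2.inductionOn with
    | hf x y =>
      rw [SimpleGraph.mem_edgeSet, Set.mem_union, Set.mem_image, Finset.mem_coe, mk_mem_inc]
      constructor
      · intro hxy
        by_cases hc : x ∈ C ∨ y ∈ C
        · exact Or.inr ⟨hxy, hc⟩
        · have hx : x ∉ C := fun h => hc (Or.inl h)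
          have hy : y ∉ C := fun h => hc (Or.inr h)
          exact Or.inl ⟨s(⟨x, hx⟩, ⟨y, hy⟩), (hadj _ _).mpr hxy, rfl⟩
      · rintro (⟨e', he', heq⟩ | ⟨hxy, -⟩)
        · induction e' using Sym2.inductionOn with
          | hf x' y' =>
            rw [Sym2.map_mk] at heq
            rw [← SimpleGraph.mem_edgeSet, ← heq]
            exact (hadj x' y').mp he'
        · exact hxy
  have hdisj : Disjoint (Sym2.map Subtype.val ''
      (SimpleGraph.fromRel (fun x y : {v : V // v ∉ C} => A x.1 y.1)).edgeSet)
      (↑(inc (SimpleGraph.fromRel A) C) : Set (Sym2 V)) := by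
    rw [Set.disjoint_left]
    rintro e ⟨e', -, rfl⟩ he
    induction e' using Sym2.inductionOn with
    | hf x' y' =>
      rw [Sym2.map_mk, Finset.mem_coe, mk_mem_inc] at he
      rcases he.2 with h | h
      · exact x'.2 h
      · exact y'.2 h
  rw [h1, Set.ncard_union_eq hdisj (Set.toFinite _) (Set.toFinite _),
    Set.ncard_image_of_injective _ (Sym2.map.injective Subtype.val_injective),
    Set.ncard_coe_finset]

/-- The counting bound for oriented patterns. -/
theorem digraph_bound {W : Type*} [Fintype W] (H : SimpleGraph W) (n : ℕ) (hn : 2 ≤ n)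
    (hW : Fintype.card W ≤ n) (q : ℝ) (hq0 : 0 < q) (hq1 : q ≤ 1)
    (hyp : ∀ F : H.Subgraph,
      1 ≤ ((⊤ : SimpleGraph (Fin n)).copyCount F.coe : ℝ) * q ^ F.coe.edgeSet.ncard)
    (a b : ℕ) (hb : 1 ≤ b) (h3 : (1 / 3 : ℝ) ^ b ≤ (n : ℝ) ^ b * q ^ a)
    (O : Orientation H a b) (L : ℝ) (hL1 : 30 * (a : ℝ) ≤ L) (hL2 : Real.log n ≤ L)
    (hL3 : 8 ≤ L) :
    ∀ (k : ℕ) (V : Type u) [Fintype V] (A : V → V → Prop), Fintype.card V = k →
      ((PhiSet O.Arc A).card : ℝ)
        ≤ (3 * (n : ℝ)) ^ k * (L * q) ^ (SimpleGraph.fromRel A).edgeSet.ncard := by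
  have hLq : 0 ≤ L * q := by
    have : (0 : ℝ) ≤ L := by linarith
    positivity
  intro k
  induction k using Nat.strong_induction_on with
  | _ k ih =>
    intro V _ A hcard
    classical
    rcases isEmpty_or_nonempty V with hV | hV
    · have hk : k = 0 := by
        rw [← hcard]
        exact Fintype.card_eq_zero
      have he : (SimpleGraph.fromRel A).edgeSet.ncard = 0 := by
        rw [Set.ncard_eq_zero]
        ext e
        induction e using Sym2.inductionOn with
        | hf a b => exact isEmptyElim a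
      have hle : (PhiSet O.Arc A).card ≤ 1 := Finset.card_le_one_of_subsingleton _
      rw [hk, he]
      simp only [pow_zero, mul_one]
      exact_mod_cast hle
    · let closed : Finset V → Prop := fun C => C.Nonempty ∧ ∀ u, u ∉ C → ∀ v ∈ C, ¬ A u v
      have hclosed_univ : closed Finset.univ :=
        ⟨Finset.univ_nonempty, fun u hu => absurd (Finset.mem_univ u) hu⟩
      obtain ⟨C, hCmem, hCmin⟩ := Finset.exists_min_image (Finset.univ.filter closed) Finset.card
        ⟨Finset.univ, Finset.mem_filter.mpr ⟨Finset.mem_univ _, hclosed_univ⟩⟩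
      have hCc : closed C := (Finset.mem_filter.mp hCmem).2
      obtain ⟨hCne, hclosed⟩ := hCc
      have hreach : ∀ u ∈ C, ∀ B : Finset V, B ⊆ C → B.Nonempty → u ∉ B →
          ∃ p ∈ C, p ∉ B ∧ ∃ v ∈ B, A p v := by
        intro u hu B hBC hBne huB
        by_contra hcon
        have hBclosed : closed B := by
          refine ⟨hBne, ?_⟩
          intro p hpB v hvB hpv
          by_cases hpC : p ∈ C
          · exact hcon ⟨p, hpC, hpB, v, hvB, hpv⟩
          · exact hclosed p hpC v (hBC hvB) hpv
        have h1 := hCmin B (Finset.mem_filter.mpr ⟨Finset.mem_univ _, hBclosed⟩)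
        have h2 : B.card < C.card :=
          Finset.card_lt_card ((Finset.ssubset_iff_of_subset hBC).mpr ⟨u, hu, huB⟩)
        omega
      have hCpos : 0 < C.card := Finset.card_pos.mpr hCne
      have hCk : C.card ≤ k := by
        rw [← hcard]
        exact Finset.card_le_univ C
      have hcard' : Fintype.card {v : V // v ∉ C} = k - C.card := by
        rw [Fintype.card_of_subtype Cᶜ (fun x => Finset.mem_compl), Finset.card_compl, hcard]
      have ih' := ih (k - C.card) (by omega) {v : V // v ∉ C}
        (fun x y : {v : V // v ∉ C} => A x.1 y.1) hcard'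
      have hsplit := fromRel_edge_split A C
      have hmaps : ∀ φ ∈ PhiSet O.Arc A, (fun x : {v : V // v ∉ C} => φ x.1)
          ∈ PhiSet O.Arc (fun x y : {v : V // v ∉ C} => A x.1 y.1) := by
        intro φ hφ
        rw [mem_PhiSet] at hφ ⊢
        obtain ⟨h1, h2, h3'⟩ := hφ
        refine ⟨?_, ?_, ?_⟩
        · intro x y hxy
          exact Subtype.ext (h1 hxy)
        · intro x y hxy
          exact h2 x.1 y.1 hxy
        · intro x y hxy harc
          exact h3' x.1 y.1 hxy harc
      have hfib : ∀ ψ ∈ PhiSet O.Arc (fun x y : {v : V // v ∉ C} => A x.1 y.1),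
          ((((PhiSet O.Arc A).filter
            (fun φ => (fun x : {v : V // v ∉ C} => φ x.1) = ψ)).card : ℕ) : ℝ)
            ≤ (3 * (n : ℝ)) ^ C.card * (L * q) ^ (inc (SimpleGraph.fromRel A) C).card := by
        intro ψ _
        apply fiber_bound H n hn hW q hq0 hq1 hyp a b hb h3 O L hL1 hL2 hL3 A C hCne hclosed
          hreach
        · intro φ hφ
          exact ((mem_PhiSet O.Arc A φ).mp (Finset.mem_filter.mp hφ).1).1
        · intro φ hφ
          exact ((mem_PhiSet O.Arc A φ).mp (Finset.mem_filter.mp hφ).1).2.1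
        · intro φ hφ
          exact ((mem_PhiSet O.Arc A φ).mp (Finset.mem_filter.mp hφ).1).2.2
        · intro φ hφ φ' hφ' v hv
          have h1 := (Finset.mem_filter.mp hφ).2
          have h2 := (Finset.mem_filter.mp hφ').2
          exact congrFun (h1.trans h2.symm) ⟨v, hv⟩
      have hkC : k = (k - C.card) + C.card := by omega
      calc ((PhiSet O.Arc A).card : ℝ)
          = ∑ ψ ∈ PhiSet O.Arc (fun x y : {v : V // v ∉ C} => A x.1 y.1),
              ((((PhiSet O.Arc A).filter
                (fun φ => (fun x : {v : V // v ∉ C} => φ x.1) = ψ)).card : ℕ) : ℝ) := by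
            rw [Finset.card_eq_sum_card_fiberwise hmaps]
            push_cast
            rfl
        _ ≤ ∑ _ψ ∈ PhiSet O.Arc (fun x y : {v : V // v ∉ C} => A x.1 y.1),
              (3 * (n : ℝ)) ^ C.card * (L * q) ^ (inc (SimpleGraph.fromRel A) C).card :=
            Finset.sum_le_sum hfib
        _ = ((PhiSet O.Arc (fun x y : {v : V // v ∉ C} => A x.1 y.1)).card : ℝ)
              * ((3 * (n : ℝ)) ^ C.card * (L * q) ^ (inc (SimpleGraph.fromRel A) C).card) := by
            rw [Finset.sum_const, nsmul_eq_mul]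
        _ ≤ ((3 * (n : ℝ)) ^ (k - C.card) * (L * q)
              ^ (SimpleGraph.fromRel (fun x y : {v : V // v ∉ C} => A x.1 y.1)).edgeSet.ncard)
              * ((3 * (n : ℝ)) ^ C.card * (L * q) ^ (inc (SimpleGraph.fromRel A) C).card) :=
            mul_le_mul_of_nonneg_right ih' (by positivity)
        _ = (3 * (n : ℝ)) ^ k * (L * q) ^ (SimpleGraph.fromRel A).edgeSet.ncard := by
            have hpk : (3 * (n : ℝ)) ^ k
                = (3 * (n : ℝ)) ^ (k - C.card) * (3 * (n : ℝ)) ^ C.card := by
              rw [← pow_add, ← hkC]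
            rw [hsplit, pow_add, hpk]
            ring

end Vale.Agent.Lib.P064
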