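import Mathlib
import Vale.Agent.Lib.P064.Defs
import Vale.Agent.Lib.P064.DefsPc
import Vale.Agent.Lib.P064.Expectation
import Vale.Agent.Lib.P064.Sparse
import Vale.Agent.Lib.P064.Threshold
import Vale.Agent.Lib.P064.DigraphInd

namespace Vale.Agent.Lib.P064

open Finset

universe u

theorem card_adjPairs_le {U : Type*} [Fintype U] (F : SimpleGraph U) (D : Finset (U × U))
    (hD : ∀ p ∈ D, F.Adj p.1 p.2) : D.card ≤ 2 * F.edgeSet.ncard := by
  classical
  have h2 : F.edgeSet.ncard = F.edgeFinset.card := by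
    rw [Set.ncard_eq_toFinset_card']
    rfl
  rw [h2, ← SimpleGraph.dart_card_eq_twice_card_edges, ← Finset.card_univ]
  apply Finset.card_le_card_of_forall_subsingleton (fun (p : U × U) (d : F.Dart) => d.toProd = p)
  · intro p hp
    exact ⟨⟨p, hD p hp⟩, Finset.mem_univ _, rfl⟩
  · intro d _ p hp p' hp'
    exact hp.2.symm.trans hp'.2

/-- Summing the oriented-pattern bound over all orientation codes. -/
theorem inj_le_codes {W : Type*} [Fintype W] (H : SimpleGraph W) (n : ℕ) (hn : 2 ≤ n)
    (hW : Fintype.card W ≤ n) (q : ℝ) (hq0 : 0 < q) (hq1 : q ≤ 1)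
    (hyp : ∀ F : H.Subgraph,
      1 ≤ ((⊤ : SimpleGraph (Fin n)).copyCount F.coe : ℝ) * q ^ F.coe.edgeSet.ncard)
    (a b : ℕ) (hb : 1 ≤ b) (h3 : (1 / 3 : ℝ) ^ b ≤ (n : ℝ) ^ b * q ^ a)
    (O : Orientation H a b) (L : ℝ) (hL1 : 30 * (a : ℝ) ≤ L) (hL2 : Real.log n ≤ L)
    (hL3 : 8 ≤ L) {U : Type u} [Fintype U] (F : SimpleGraph U) :
    ((injFin F H).card : ℝ)
      ≤ 4 ^ F.edgeSet.ncard
        * ((3 * (n : ℝ)) ^ Fintype.card U * (L * q) ^ F.edgeSet.ncard) := by
  classical
  have hLq : 0 ≤ L * q := by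
    have : (0 : ℝ) ≤ L := by linarith
    positivity
  set e := F.edgeSet.ncard with he
  set Dp : Finset (U × U) := Finset.univ.filter (fun p => F.Adj p.1 p.2) with hDp
  have hDcard : Dp.card ≤ 2 * e := card_adjPairs_le F Dp (fun p hp => (Finset.mem_filter.mp hp).2)
  let code : (U → W) → Finset (U × U) :=
    fun φ => Finset.univ.filter (fun p => F.Adj p.1 p.2 ∧ O.Arc (φ p.1) (φ p.2))
  have hcode : ∀ (φ : U → W) (u v : U), (u, v) ∈ code φ ↔ F.Adj u v ∧ O.Arc (φ u) (φ v) := by
    intro φ u v
    show (u, v) ∈ Finset.univ.filter (fun p : U × U => F.Adj p.1 p.2 ∧ O.Arc (φ p.1) (φ p.2)) ↔ _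
    rw [Finset.mem_filter]
    exact ⟨fun h => h.2, fun h => ⟨Finset.mem_univ _, h⟩⟩
  have hcode_mem : ∀ φ ∈ injFin F H, code φ ∈ Dp.powerset := by
    intro φ _
    rw [Finset.mem_powerset]
    intro p hp
    exact Finset.mem_filter.mpr ⟨Finset.mem_univ _, (Finset.mem_filter.mp hp).2.1⟩
  have hfib : ∀ S ∈ Dp.powerset,
      ((((injFin F H).filter (fun φ => code φ = S)).card : ℕ) : ℝ)
        ≤ (3 * (n : ℝ)) ^ Fintype.card U * (L * q) ^ e := by
    intro S _
    rcases ((injFin F H).filter (fun φ => code φ = S)).eq_empty_or_nonempty with h0 | ⟨φ₀, hφ₀⟩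
    · rw [h0]
      simp only [Finset.card_empty, Nat.cast_zero]
      positivity
    · let A : U → U → Prop := fun u v => (u, v) ∈ S
      have hA : ∀ φ, code φ = S → ∀ u v, A u v ↔ F.Adj u v ∧ O.Arc (φ u) (φ v) := by
        intro φ hφ u v
        show (u, v) ∈ S ↔ _
        rw [← hφ]
        exact hcode φ u v
      obtain ⟨hφ₀inj, hφ₀code⟩ := Finset.mem_filter.mp hφ₀
      rw [mem_injFin] at hφ₀inj
      have hrel : SimpleGraph.fromRel A = F := by
        ext u v
        rw [SimpleGraph.fromRel_adj, hA φ₀ hφ₀code, hA φ₀ hφ₀code]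
        constructor
        · rintro ⟨-, h | h⟩
          · exact h.1
          · exact h.1.symm
        · intro huv
          refine ⟨F.ne_of_adj huv, ?_⟩
          rcases O.total _ _ (hφ₀inj.2 u v huv) with h | h
          · exact Or.inl ⟨huv, h⟩
          · exact Or.inr ⟨huv.symm, h⟩
      have hsub : (injFin F H).filter (fun φ => code φ = S) ⊆ PhiSet O.Arc A := by
        intro φ hφ
        obtain ⟨hφinj, hφcode⟩ := Finset.mem_filter.mp hφ
        rw [mem_injFin] at hφinj
        rw [mem_PhiSet]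
        refine ⟨hφinj.1, ?_, ?_⟩
        · intro u v huv
          exact ((hA φ hφcode u v).mp huv).2
        · intro u v huv harc
          exact (hA φ hφcode v u).mpr ⟨((hA φ hφcode u v).mp huv).1.symm, harc⟩
      have hdb := digraph_bound H n hn hW q hq0 hq1 hyp a b hb h3 O L hL1 hL2 hL3
        (Fintype.card U) U A rfl
      rw [hrel] at hdb
      calc ((((injFin F H).filter (fun φ => code φ = S)).card : ℕ) : ℝ)
          ≤ ((PhiSet O.Arc A).card : ℝ) := by exact_mod_cast Finset.card_le_card hsub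
        _ ≤ _ := hdb
  calc ((injFin F H).card : ℝ)
      = ∑ S ∈ Dp.powerset, ((((injFin F H).filter (fun φ => code φ = S)).card : ℕ) : ℝ) := by
        rw [Finset.card_eq_sum_card_fiberwise hcode_mem]
        push_cast
        rfl
    _ ≤ ∑ _S ∈ Dp.powerset, (3 * (n : ℝ)) ^ Fintype.card U * (L * q) ^ e :=
        Finset.sum_le_sum hfib
    _ = (Dp.powerset.card : ℝ) * ((3 * (n : ℝ)) ^ Fintype.card U * (L * q) ^ e) := by
        rw [Finset.sum_const, nsmul_eq_mul]
    _ ≤ 4 ^ e * ((3 * (n : ℝ)) ^ Fintype.card U * (L * q) ^ e) := by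
        apply mul_le_mul_of_nonneg_right _ (by positivity)
        rw [Finset.card_powerset]
        push_cast
        calc (2 : ℝ) ^ Dp.card ≤ 2 ^ (2 * e) := pow_le_pow_right₀ (by norm_num) hDcard
          _ = 4 ^ e := by
              rw [pow_mul]
              norm_num

theorem logsq_inj_bound {W : Type*} [Fintype W] (H : SimpleGraph W) (n : ℕ) (hn : 2 ≤ n)
    (hW : Fintype.card W ≤ n) (q : ℝ) (hq0 : 0 < q) (hq1 : q ≤ 1)
    (hyp : ∀ F : H.Subgraph,
      1 ≤ ((⊤ : SimpleGraph (Fin n)).copyCount F.coe : ℝ) * q ^ F.coe.edgeSet.ncard)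
    (a b : ℕ) (hb : 1 ≤ b) (h3 : (1 / 3 : ℝ) ^ b ≤ (n : ℝ) ^ b * q ^ a)
    (O : Orientation H a b) (L : ℝ) (hL1 : 30 * (a : ℝ) ≤ L) (hL2 : Real.log n ≤ L)
    (hL3 : 8 ≤ L) :
    ∀ (m : ℕ) (U : Type u) [Fintype U] (F : SimpleGraph U), Fintype.card U = m →
      ((injFin F H).card : ℝ)
        ≤ (n.descFactorial m : ℝ) * (324 * L * q) ^ F.edgeSet.ncard := by
  have hL0 : (0 : ℝ) ≤ L := by linarith
  have hB0 : (0 : ℝ) ≤ 324 * L * q := by positivity
  intro m
  induction m with
  | zero =>
    intro U _ F hcard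
    have hU : IsEmpty U := Fintype.card_eq_zero_iff.mp hcard
    have he : F.edgeSet.ncard = 0 := by
      rw [Set.ncard_eq_zero]
      ext e
      induction e using Sym2.inductionOn with
      | hf a b => exact isEmptyElim a
    have hle : (injFin F H).card ≤ 1 := Finset.card_le_one_of_subsingleton _
    rw [he]
    simp only [Nat.descFactorial_zero, Nat.cast_one, pow_zero, mul_one]
    exact_mod_cast hle
  | succ m ih =>
    intro U _ F hcard
    classical
    by_cases hiso : ∃ u, ∀ v, ¬ F.Adj u v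
    · obtain ⟨u, hu⟩ := hiso
      have hcardc : Fintype.card ↥({u}ᶜ : Set U) = m := by
        have h1 : Fintype.card ↥({u} : Set U) + Fintype.card ↥({u}ᶜ : Set U) = Fintype.card U := by
          rw [← Fintype.card_sum]
          exact Fintype.card_congr (Equiv.Set.sumCompl ({u} : Set U))
        have h2 : Fintype.card ↥({u} : Set U) = 1 := by simp
        omega
      have hcross : ∀ a b, F.Adj a b → (a ∈ ({u} : Set U) ↔ b ∈ ({u} : Set U)) := by
        intro a b hab
        constructor
        · intro ha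
          rw [Set.mem_singleton_iff] at ha
          rw [ha] at hab
          exact absurd hab (hu b)
        · intro hb
          rw [Set.mem_singleton_iff] at hb
          rw [hb] at hab
          exact absurd hab.symm (hu a)
      have he := edge_split F ({u} : Set U) hcross
      have he0 : (F.induce ({u} : Set U)).edgeSet.ncard = 0 := by
        rw [Set.ncard_eq_zero]
        ext e
        induction e using Sym2.inductionOn with
        | hf a b =>
          simp only [SimpleGraph.mem_edgeSet, Set.mem_empty_iff_false, iff_false]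
          intro hab
          have hab' : F.Adj a b := hab
          have ha : (a : U) = u := a.2
          rw [ha] at hab'
          exact hu b hab'
      rw [he0, zero_add] at he
      have h1 := card_injFin_remove F H u
      rw [hcard] at h1
      have h2 := ih ↥({u}ᶜ : Set U) (F.induce ({u}ᶜ : Set U)) hcardc
      rw [← he] at h2
      have h3' : Fintype.card W - (m + 1 - 1) ≤ n - m := by omega
      rw [Nat.descFactorial_succ]
      calc ((injFin F H).card : ℝ)
          ≤ ((Fintype.card W - (m + 1 - 1) : ℕ) : ℝ)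
            * ((injFin (F.induce ({u}ᶜ : Set U)) H).card : ℝ) := by exact_mod_cast h1
        _ ≤ ((n - m : ℕ) : ℝ) * ((n.descFactorial m : ℝ)
            * (324 * L * q) ^ F.edgeSet.ncard) := by
            apply mul_le_mul _ h2 (Nat.cast_nonneg _) (Nat.cast_nonneg _)
            exact_mod_cast h3'
        _ = (((n - m) * n.descFactorial m : ℕ) : ℝ)
            * (324 * L * q) ^ F.edgeSet.ncard := by
            push_cast
            ring
    · have hniso : ∀ a, ∃ b, F.Adj a b := by
        intro a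
        by_contra hcon
        exact hiso ⟨a, fun v hv => hcon ⟨v, hv⟩⟩
      by_cases hkW : m + 1 ≤ Fintype.card W
      · have hkn : m + 1 ≤ n := hkW.trans hW
        have h1 := inj_le_codes H n hn hW q hq0 hq1 hyp a b hb h3 O L hL1 hL2 hL3 F
        rw [hcard] at h1
        have h2 := pow_le_descFactorial n (m + 1) hkn
        have h3' : m + 1 ≤ 2 * F.edgeSet.ncard := by
          rw [← hcard]
          exact card_le_two_mul_edges F hniso
        set e := F.edgeSet.ncard with hedef
        have hD0 : (0 : ℝ) ≤ (n.descFactorial (m + 1) : ℝ) := Nat.cast_nonneg _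
        have hn0 : (0 : ℝ) ≤ n := Nat.cast_nonneg n
        have h4 : (3 * (n : ℝ)) ^ (m + 1) ≤ (n.descFactorial (m + 1) : ℝ) * 81 ^ e := by
          calc (3 * (n : ℝ)) ^ (m + 1) = 3 ^ (m + 1) * (n : ℝ) ^ (m + 1) := mul_pow _ _ _
            _ ≤ 3 ^ (m + 1) * (3 ^ (m + 1) * (n.descFactorial (m + 1) : ℝ)) :=
                mul_le_mul_of_nonneg_left h2 (by positivity)
            _ = (n.descFactorial (m + 1) : ℝ) * 9 ^ (m + 1) := by
                have h9 : (9 : ℝ) ^ (m + 1) = 3 ^ (m + 1) * 3 ^ (m + 1) := by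
                  rw [← mul_pow]
                  norm_num
                rw [h9]
                ring
            _ ≤ (n.descFactorial (m + 1) : ℝ) * 9 ^ (2 * e) := by
                apply mul_le_mul_of_nonneg_left _ hD0
                exact pow_le_pow_right₀ (by norm_num) h3'
            _ = (n.descFactorial (m + 1) : ℝ) * 81 ^ e := by
                rw [pow_mul]
                norm_num
        have hLq : (0 : ℝ) ≤ (L * q) ^ e := by positivity
        calc ((injFin F H).card : ℝ)
            ≤ 4 ^ e * ((3 * (n : ℝ)) ^ (m + 1) * (L * q) ^ e) := h1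
          _ ≤ 4 ^ e * (((n.descFactorial (m + 1) : ℝ) * 81 ^ e) * (L * q) ^ e) := by
              apply mul_le_mul_of_nonneg_left _ (by positivity)
              exact mul_le_mul_of_nonneg_right h4 hLq
          _ = (n.descFactorial (m + 1) : ℝ) * (324 * L * q) ^ e := by
              have h324 : (324 * L * q) ^ e = 4 ^ e * 81 ^ e * (L * q) ^ e := by
                rw [← mul_pow, ← mul_pow]
                congr 1
                ring
              rw [h324]
              ring
      · have h0 : (injFin F H).card = 0 := by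
          rw [Finset.card_eq_zero]
          apply Finset.eq_empty_of_forall_notMem
          intro φ hφ
          rw [mem_injFin] at hφ
          have := Fintype.card_le_of_injective φ hφ.1
          omega
        rw [h0]
        simp only [Nat.cast_zero]
        positivity

theorem logsq_copy_bound {W : Type*} [Fintype W] (H : SimpleGraph W) (n : ℕ) (hn : 2 ≤ n)
    (hW : Fintype.card W ≤ n) (q : ℝ) (hq0 : 0 < q) (hq1 : q ≤ 1)
    (hyp : ∀ F : H.Subgraph,
      1 ≤ ((⊤ : SimpleGraph (Fin n)).copyCount F.coe : ℝ) * q ^ F.coe.edgeSet.ncard)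
    (a b : ℕ) (hb : 1 ≤ b) (h3 : (1 / 3 : ℝ) ^ b ≤ (n : ℝ) ^ b * q ^ a)
    (O : Orientation H a b) (L : ℝ) (hL1 : 30 * (a : ℝ) ≤ L) (hL2 : Real.log n ≤ L)
    (hL3 : 8 ≤ L) {U : Type u} [Fintype U] (F : SimpleGraph U) :
    (H.copyCount F : ℝ) ≤ ((⊤ : SimpleGraph (Fin n)).copyCount F : ℝ)
      * (324 * L * q) ^ F.edgeSet.ncard := by
  have h1 := logsq_inj_bound H n hn hW q hq0 hq1 hyp a b hb h3 O L hL1 hL2 hL3
    (Fintype.card U) U F rfl
  rw [card_injFin_eq F H, ← card_injFin_top F n, card_injFin_eq F (⊤ : SimpleGraph (Fin n))] at h1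
  have ha : (0 : ℝ) < (Nat.card (F ≃g F) : ℝ) := by exact_mod_cast aut_pos F
  push_cast at h1
  have h2 : (H.copyCount F : ℝ) * (Nat.card (F ≃g F) : ℝ)
      ≤ (((⊤ : SimpleGraph (Fin n)).copyCount F : ℝ)
        * (324 * L * q) ^ F.edgeSet.ncard) * (Nat.card (F ≃g F) : ℝ) := by
    calc (H.copyCount F : ℝ) * (Nat.card (F ≃g F) : ℝ)
        ≤ ((⊤ : SimpleGraph (Fin n)).copyCount F : ℝ) * (Nat.card (F ≃g F) : ℝ)
          * (324 * L * q) ^ F.edgeSet.ncard := h1
      _ = _ := by ring
  exact le_of_mul_le_mul_right h2 ha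

end Vale.Agent.Lib.P064
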