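import Mathlib
import Vale.Agent.Lib.P064.Defs
import Vale.Agent.Lib.P064.DefsPc
import Vale.Agent.Lib.P064.Expectation
import Vale.Agent.Lib.P064.Sparse
import Vale.Agent.Lib.P064.Threshold
import Vale.Agent.Lib.P064.LogSq

namespace Vale.Agent.Lib.P064

open Finset

/-- The counting lemma for all graphs `F` with a logarithmic loss: if every subgraph of `H` has
expected count at least `1` at density `q`, then `N(H,F) ≤ E N(G(n, min 1 (38880 log n · q)), F)`
for every graph `F`. -/
theorem logsq_counting (n : ℕ) (hn : 2 ≤ n) {W : Type*} [Fintype W] (H : SimpleGraph W)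
    (hW : Fintype.card W ≤ n) (q : ℝ) (hq0 : 0 ≤ q)
    (hyp : ∀ F : H.Subgraph, 1 ≤ expectedCopies n q F.coe)
    {U : Type*} [Fintype U] (F : SimpleGraph U) :
    (H.copyCount F : ℝ)
      ≤ expectedCopies n (min 1 (38880 * Real.log n * q)) F := by
  have hyp' : ∀ F : H.Subgraph,
      1 ≤ ((⊤ : SimpleGraph (Fin n)).copyCount F.coe : ℝ) * q ^ F.coe.edgeSet.ncard := by
    intro F
    have := hyp F
    rw [expectedCopies_eq] at this
    exact this
  have hn' : (2 : ℝ) ≤ n := by exact_mod_cast hn
  have hlog2 : (0.69 : ℝ) < Real.log 2 := by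
    have := Real.log_two_gt_d9
    linarith
  have hlogn : Real.log 2 ≤ Real.log n := Real.log_le_log (by norm_num) hn'
  rw [expectedCopies_eq]
  by_cases hL : 1 ≤ 38880 * Real.log n * q
  · rw [min_eq_left hL, one_pow, mul_one]
    exact_mod_cast copyCount_le_top H n hW F
  · have hL' : 38880 * Real.log n * q < 1 := not_le.mp hL
    rw [min_eq_right hL'.le]
    rcases eq_or_lt_of_le hq0 with hq | hq
    · subst hq
      rw [mul_zero]
      rcases Nat.eq_zero_or_pos F.edgeSet.ncard with he | he
      · rw [he, pow_zero, mul_one]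
        exact_mod_cast copyCount_le_top H n hW F
      · have hH0 : H.copyCount F = 0 := by
          by_contra hne
          have hpos : 0 < H.copyCount F := Nat.pos_of_ne_zero hne
          rw [SimpleGraph.copyCount_pos] at hpos
          obtain ⟨f⟩ := hpos
          have hFe : F.edgeSet.Nonempty := by
            rw [Set.nonempty_iff_ne_empty]
            intro h
            rw [h, Set.ncard_empty] at he
            omega
          obtain ⟨e0, he0⟩ := hFe
          induction e0 using Sym2.inductionOn with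
          | hf x y =>
            have hadj : H.Adj (f x) (f y) := f.toHom.map_adj he0
            have h1 := hyp' (⊤ : H.Subgraph)
            have hne' : (⊤ : H.Subgraph).coe.edgeSet.ncard ≠ 0 := by
              intro h0
              rw [Set.ncard_eq_zero] at h0
              have hmem : s((⟨f x, trivial⟩ : (⊤ : H.Subgraph).verts), ⟨f y, trivial⟩)
                  ∈ (⊤ : H.Subgraph).coe.edgeSet := hadj
              rw [h0] at hmem
              exact hmem
            rw [zero_pow hne', mul_zero] at h1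
            linarith
        rw [hH0]
        simp only [Nat.cast_zero]
        positivity
    · have hq12 : q ≤ 1 / 2 := by nlinarith
      obtain ⟨a, b, ha, hb, hab, h3, ha4⟩ := exists_ab n hn q hq hq12
      obtain ⟨O⟩ := exists_orientation H n q hq (by linarith) hyp' a b hb hab
      have h := logsq_copy_bound H n hn hW q hq (by linarith) hyp' a b hb h3 O
        (120 * Real.log n) (by linarith) (by linarith) (by linarith) F
      have h4 : 324 * (120 * Real.log n) * q = 38880 * Real.log n * q := by ring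
      rw [h4] at h
      exact h

/-- `p̃_E ≤ 77760 · log n · p_E`. -/
theorem pEtilde_le_log (n : ℕ) (hn : 2 ≤ n) {W : Type*} [Fintype W] (H : SimpleGraph W)
    (hW : Fintype.card W ≤ n) :
    pEtilde n H ≤ 77760 * Real.log n * pE n H := by
  classical
  obtain ⟨hp0, hp1, hpE⟩ := pE_mem n H hW
  set p₀ := pE n H with hp₀
  have hn' : (2 : ℝ) ≤ n := by exact_mod_cast hn
  have hlog2 : (0.69 : ℝ) < Real.log 2 := by
    have := Real.log_two_gt_d9
    linarith
  have hlogn : Real.log 2 ≤ Real.log n := Real.log_le_log (by norm_num) hn'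
  have hbdd : BddBelow {p : ℝ | 0 ≤ p ∧ p ≤ 1 ∧
      ∀ F : H.Subgraph, (H.copyCount F.coe : ℝ) / 2 ≤ expectedCopies n p F.coe} :=
    ⟨0, fun p hp => hp.1⟩
  by_cases h2 : 2 * p₀ ≤ 1
  · have hyp : ∀ F : H.Subgraph, 1 ≤ expectedCopies n (2 * p₀) F.coe := by
      intro F
      have h1 := hpE F
      rw [expectedCopies_eq] at h1 ⊢
      have hN : (1 : ℝ) ≤ ((⊤ : SimpleGraph (Fin n)).copyCount F.coe : ℝ) := by
        exact_mod_cast one_le_copyCount_top H n hW F
      rcases Nat.eq_zero_or_pos F.coe.edgeSet.ncard with he | he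
      · rw [he, pow_zero, mul_one]
        exact hN
      · rw [mul_pow]
        have h2e : (2 : ℝ) ≤ 2 ^ F.coe.edgeSet.ncard := by
          calc (2 : ℝ) = 2 ^ 1 := by norm_num
            _ ≤ 2 ^ F.coe.edgeSet.ncard := pow_le_pow_right₀ (by norm_num) he
        have hx : (0 : ℝ) ≤ ((⊤ : SimpleGraph (Fin n)).copyCount F.coe : ℝ)
            * p₀ ^ F.coe.edgeSet.ncard := by positivity
        nlinarith
    have hcount := fun (F : H.Subgraph) =>
      logsq_counting n hn H hW (2 * p₀) (by linarith) hyp F.coe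
    set p' : ℝ := min 1 (38880 * Real.log n * (2 * p₀)) with hp'
    have hL0 : (0 : ℝ) ≤ 38880 * Real.log n * (2 * p₀) := by
      have : (0 : ℝ) ≤ Real.log n := by linarith
      positivity
    have hmem : p' ∈ {p : ℝ | 0 ≤ p ∧ p ≤ 1 ∧
        ∀ F : H.Subgraph, (H.copyCount F.coe : ℝ) / 2 ≤ expectedCopies n p F.coe} := by
      refine ⟨le_min zero_le_one hL0, min_le_left _ _, ?_⟩
      intro F
      have h1 := hcount F
      have h3 : (0 : ℝ) ≤ (H.copyCount F.coe : ℝ) := Nat.cast_nonneg _
      linarith
    have h4 : pEtilde n H ≤ p' := csInf_le hbdd hmem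
    calc pEtilde n H ≤ p' := h4
      _ ≤ 38880 * Real.log n * (2 * p₀) := min_le_right _ _
      _ = 77760 * Real.log n * p₀ := by ring
  · have hmem : (1 : ℝ) ∈ {p : ℝ | 0 ≤ p ∧ p ≤ 1 ∧
        ∀ F : H.Subgraph, (H.copyCount F.coe : ℝ) / 2 ≤ expectedCopies n p F.coe} := by
      refine ⟨zero_le_one, le_refl 1, ?_⟩
      intro F
      rw [expectedCopies_eq, one_pow, mul_one]
      have h1 : (H.copyCount F.coe : ℝ) ≤ ((⊤ : SimpleGraph (Fin n)).copyCount F.coe : ℝ) := by
        exact_mod_cast copyCount_le_top H n hW F.coe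
      have h3 : (0 : ℝ) ≤ (H.copyCount F.coe : ℝ) := Nat.cast_nonneg _
      linarith
    have h4 : pEtilde n H ≤ 1 := csInf_le hbdd hmem
    have h5 : (1 : ℝ) / 2 < p₀ := by linarith [not_le.mp h2]
    nlinarith

/-- `p_c ≤ 15552000 · p_E · (log n)^2`. -/
theorem pc_le_logsq (n : ℕ) (hn : 2 ≤ n) {W : Type*} [Fintype W] (H : SimpleGraph W)
    (hW : Fintype.card W ≤ n) :
    pc n H ≤ 15552000 * pE n H * (Real.log n) ^ 2 := by
  have h1 := pc_le_pEtilde n hn H hW
  have h2 := pEtilde_le_log n hn H hW
  have hlogn : (0 : ℝ) ≤ Real.log n := Real.log_nonneg (by exact_mod_cast (by omega : 1 ≤ n))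
  calc pc n H ≤ 200 * pEtilde n H * Real.log n := h1
    _ ≤ 200 * (77760 * Real.log n * pE n H) * Real.log n := by
        apply mul_le_mul_of_nonneg_right _ hlogn
        exact mul_le_mul_of_nonneg_left h2 (by norm_num)
    _ = 15552000 * pE n H * (Real.log n) ^ 2 := by ring

end Vale.Agent.Lib.P064
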