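import Mathlib
import Vale.Agent.Lib.P064.Counting

namespace Vale.Agent.Lib.P064

open Finset

/-- The star with `t` leaves. -/
abbrev starGraph (t : ℕ) : SimpleGraph (Fin 1 ⊕ Fin t) := completeBipartiteGraph (Fin 1) (Fin t)

theorem starGraph_adj_iff (t : ℕ) (a b : Fin 1 ⊕ Fin t) :
    (starGraph t).Adj a b ↔ (a = Sum.inl 0 ∧ ∃ j, b = Sum.inr j) ∨ (b = Sum.inl 0 ∧ ∃ j, a = Sum.inr j) := by
  rcases a with a | a <;> rcases b with b | b <;> simp [starGraph, completeBipartiteGraph]
  · exact Subsingleton.elim _ _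
  · exact Subsingleton.elim _ _

theorem starGraph_edgeSet_ncard (t : ℕ) : (starGraph t).edgeSet.ncard = t := by
  have h : (starGraph t).edgeSet = (fun j : Fin t => s(Sum.inl 0, Sum.inr j)) '' Set.univ := by
    ext e
    induction e using Sym2.ind with
    | _ a b =>
      rw [SimpleGraph.mem_edgeSet, starGraph_adj_iff]
      simp only [Set.image_univ, Set.mem_range, Sym2.eq, Sym2.rel_iff', Prod.mk.injEq, Prod.swap_prod_mk]
      constructor
      · rintro (⟨rfl, j, rfl⟩ | ⟨rfl, j, rfl⟩)
        · exact ⟨j, Or.inl ⟨rfl, rfl⟩⟩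
        · exact ⟨j, Or.inr ⟨rfl, rfl⟩⟩
      · rintro ⟨j, ⟨h1, h2⟩ | ⟨h1, h2⟩⟩
        · exact Or.inl ⟨h1.symm, j, h2.symm⟩
        · exact Or.inr ⟨h1.symm, j, h2.symm⟩
  rw [h, Set.ncard_image_of_injective, Set.ncard_univ, Nat.card_eq_fintype_card, Fintype.card_fin]
  intro i j hij
  simp only [Sym2.eq, Sym2.rel_iff', Prod.mk.injEq, Prod.swap_prod_mk] at hij
  rcases hij with ⟨_, h⟩ | ⟨h, _⟩
  · exact Sum.inr_injective h
  · exact absurd h (by simp)

theorem star_copyCount_le {W : Type*} [Fintype W] [DecidableEq W] (H : SimpleGraph W)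
    [DecidableRel H.Adj] (t : ℕ) :
    H.copyCount (starGraph t) ≤ ∑ v : W, (H.degree v).choose t := by
  classical
  have hcard : ((Finset.univ : Finset W).sigma (fun v => powersetCard t (H.neighborFinset v))).card
      = ∑ v : W, (H.degree v).choose t := by
    rw [Finset.card_sigma]
    apply Finset.sum_congr rfl
    intro v _
    rw [Finset.card_powersetCard, SimpleGraph.card_neighborFinset_eq_degree]
  rw [← hcard]
  apply copyCount_le_card_of_enc H (starGraph t) _
    (fun ψ => (⟨ψ (Sum.inl 0), Finset.univ.image (fun j : Fin t => ψ (Sum.inr j))⟩ : Σ _ : W, Finset W))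
  · intro ψ hinj hhom
    simp only [Finset.mem_sigma, Finset.mem_univ, true_and, Finset.mem_powersetCard]
    constructor
    · intro x hx
      simp only [Finset.mem_image, Finset.mem_univ, true_and] at hx
      obtain ⟨j, rfl⟩ := hx
      rw [SimpleGraph.mem_neighborFinset]
      apply hhom
      rw [starGraph_adj_iff]
      exact Or.inl ⟨rfl, j, rfl⟩
    · rw [Finset.card_image_of_injective]
      · simp
      · intro i j hij
        have := hinj hij
        exact Sum.inr_injective this
  · intro ψ ψ' _ _ _ _ henc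
    simp only [Sigma.mk.injEq, heq_eq_eq] at henc
    obtain ⟨hc, hS⟩ := henc
    have key : ∀ φ : Fin 1 ⊕ Fin t → W, (Set.range φ = {x | x = φ (Sum.inl 0) ∨
        x ∈ Finset.univ.image (fun j : Fin t => φ (Sum.inr j))}) ∧
        ∀ x y, (∃ a b, (starGraph t).Adj a b ∧ φ a = x ∧ φ b = y) ↔
          ((x = φ (Sum.inl 0) ∧ y ∈ Finset.univ.image (fun j : Fin t => φ (Sum.inr j))) ∨
           (y = φ (Sum.inl 0) ∧ x ∈ Finset.univ.image (fun j : Fin t => φ (Sum.inr j)))) := by
      intro φ
      constructor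
      · ext x
        simp only [Set.mem_range, Set.mem_ofPred_eq, Finset.mem_image, Finset.mem_univ, true_and]
        constructor
        · rintro ⟨a | j, rfl⟩
          · left
            congr 2
            exact Subsingleton.elim _ _
          · right
            exact ⟨j, rfl⟩
        · rintro (rfl | ⟨j, rfl⟩)
          · exact ⟨_, rfl⟩
          · exact ⟨_, rfl⟩
      · intro x y
        simp only [Finset.mem_image, Finset.mem_univ, true_and]
        constructor
        · rintro ⟨a, b, hab, rfl, rfl⟩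
          rw [starGraph_adj_iff] at hab
          rcases hab with ⟨rfl, j, rfl⟩ | ⟨rfl, j, rfl⟩
          · exact Or.inl ⟨rfl, j, rfl⟩
          · exact Or.inr ⟨rfl, j, rfl⟩
        · rintro (⟨rfl, j, rfl⟩ | ⟨rfl, j, rfl⟩)
          · exact ⟨Sum.inl 0, Sum.inr j, (starGraph_adj_iff _ _ _).mpr (Or.inl ⟨rfl, j, rfl⟩), rfl, rfl⟩
          · exact ⟨Sum.inr j, Sum.inl 0, (starGraph_adj_iff _ _ _).mpr (Or.inr ⟨rfl, j, rfl⟩), rfl, rfl⟩
    constructor
    · rw [(key ψ).1, (key ψ').1, hc, hS]
    · intro x y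
      rw [(key ψ).2, (key ψ').2, hc, hS]

theorem star_copy_exists (n t : ℕ) (T : Finset (Fin n)) (hT : T.card = t + 1) :
    ∃ f : SimpleGraph.Copy (starGraph t) (⊤ : SimpleGraph (Fin n)),
      (f.toSubgraph).verts = (T : Set (Fin n)) := by
  let e : Fin 1 ⊕ Fin t ≃ Fin (t + 1) := finSumFinEquiv.trans (finCongr (Nat.add_comm 1 t))
  let g : Fin 1 ⊕ Fin t → Fin n := fun a => T.orderEmbOfFin hT (e a)
  have hg : Function.Injective g := fun a b hab => e.injective ((T.orderEmbOfFin hT).injective hab)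
  have hhom : ∀ a b, (starGraph t).Adj a b → (⊤ : SimpleGraph (Fin n)).Adj (g a) (g b) := by
    intro a b hab
    rw [SimpleGraph.top_adj]
    exact fun h => hab.ne (hg h)
  refine ⟨⟨⟨g, fun {a b} h => hhom a b h⟩, hg⟩, ?_⟩
  have hr : Set.range g = (T : Set (Fin n)) := by
    rw [← Finset.range_orderEmbOfFin T hT]
    ext x
    constructor
    · rintro ⟨a, rfl⟩
      exact ⟨e a, rfl⟩
    · rintro ⟨b, rfl⟩
      exact ⟨e.symm b, by simp [g]⟩
  rw [← hr]
  simp only [SimpleGraph.Subgraph.map_verts, SimpleGraph.Subgraph.verts_top, Set.image_univ]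
  rfl

theorem choose_le_star_copyCount_top (n t : ℕ) :
    n.choose (t + 1) ≤ (⊤ : SimpleGraph (Fin n)).copyCount (starGraph t) := by
  classical
  choose f hf using star_copy_exists n t
  have hc : n.choose (t + 1) = (powersetCard (t + 1) (Finset.univ : Finset (Fin n))).card := by
    rw [Finset.card_powersetCard, Finset.card_univ, Fintype.card_fin]
  rw [hc]
  apply card_le_copyCount _ _ _
    (fun T : Finset (Fin n) => if h : T.card = t + 1 then (f T h).toSubgraph else ⊥)
  · intro T hT
    have hT' : T.card = t + 1 := (Finset.mem_powersetCard.mp hT).2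
    have hne : Nonempty (starGraph t ≃g ((f T hT').toSubgraph).coe) := ⟨(f T hT').isoToSubgraph⟩
    have hd : (if h : T.card = t + 1 then (f T h).toSubgraph else ⊥) = (f T hT').toSubgraph :=
      dif_pos hT'
    rw [hd]
    exact hne
  · intro T₁ hT₁ T₂ hT₂ h
    have h1 : T₁.card = t + 1 := (Finset.mem_powersetCard.mp (Finset.mem_coe.mp hT₁)).2
    have h2 : T₂.card = t + 1 := (Finset.mem_powersetCard.mp (Finset.mem_coe.mp hT₂)).2
    simp only [h1, h2, dite_true] at h
    have hv := congrArg SimpleGraph.Subgraph.verts h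
    rw [hf T₁ h1, hf T₂ h2] at hv
    exact Finset.coe_injective hv

end Vale.Agent.Lib.P064
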