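import Mathlib
import Vale.Agent.Lib.P064.Counting
import Vale.Agent.Lib.P064.Star
import Vale.Agent.Lib.P064.StarUnion
import Vale.Agent.Lib.P064.Numerics

namespace Vale.Agent.Lib.P064

open Finset

theorem indep_family_bound {W : Type*} [Fintype W] [DecidableEq W] (H : SimpleGraph W)
    [DecidableRel H.Adj] (n : ℕ) (q : ℝ) (hq0 : 0 ≤ q) (hq1 : q ≤ 1)
    (hyp : ∀ F : H.Subgraph,
      1 ≤ ((⊤ : SimpleGraph (Fin n)).copyCount F.coe : ℝ) * q ^ F.coe.edgeSet.ncard)
    (I : Finset W) (D : ℕ) (hdeg : ∀ i ∈ I, H.degree i = D)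
    (hind : ∀ u ∈ I, ∀ v ∈ I, ¬ H.Adj u v) :
    (I.card : ℝ) ≤ 3 * (n * n.choose D) * q ^ D := by
  rcases Nat.eq_zero_or_pos I.card with h0 | hpos
  · rw [h0]
    simp only [Nat.cast_zero]
    positivity
  · have h1 := hyp (starUnion H (I : Set W))
    have h2 : (((⊤ : SimpleGraph (Fin n)).copyCount (starUnion H (I : Set W)).coe : ℕ) : ℝ)
        ≤ (((n * n.choose D).choose I.card : ℕ) : ℝ) := by
      exact_mod_cast starUnion_copyCount_le H I D n hdeg
    have h3 : I.card * D ≤ (starUnion H (I : Set W)).coe.edgeSet.ncard :=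
      starUnion_edge_count H I D hdeg hind
    have h4 : q ^ (starUnion H (I : Set W)).coe.edgeSet.ncard ≤ q ^ (I.card * D) :=
      pow_le_pow_of_le_one hq0 hq1 h3
    have h5 : 1 ≤ (((n * n.choose D).choose I.card : ℕ) : ℝ) * q ^ (I.card * D) :=
      h1.trans (mul_le_mul h2 h4 (pow_nonneg hq0 _) (Nat.cast_nonneg _))
    have h6 := packing_numeric (n * n.choose D) I.card D q hq0 hpos h5
    push_cast at h6
    linarith

theorem degree_class_bound {W : Type*} [Fintype W] [DecidableEq W] (H : SimpleGraph W)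
    [DecidableRel H.Adj] (n : ℕ) (q : ℝ) (hq0 : 0 ≤ q) (hq1 : q ≤ 1)
    (hyp : ∀ F : H.Subgraph,
      1 ≤ ((⊤ : SimpleGraph (Fin n)).copyCount F.coe : ℝ) * q ^ F.coe.edgeSet.ncard)
    (D : ℕ) :
    ((((Finset.univ : Finset W).filter (fun v => H.degree v = D)).card : ℕ) : ℝ)
      ≤ 3 * (D + 1) * (n * n.choose D) * q ^ D := by
  obtain ⟨I, hIS, hind, hcard⟩ := exists_indep_subset H D
    ((Finset.univ : Finset W).filter (fun v => H.degree v = D))
    (fun v hv => (Finset.mem_filter.mp hv).2.le)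
  have hdeg : ∀ i ∈ I, H.degree i = D := fun i hi => (Finset.mem_filter.mp (hIS hi)).2
  have hI := indep_family_bound H n q hq0 hq1 hyp I D hdeg hind
  have hc : ((((Finset.univ : Finset W).filter (fun v => H.degree v = D)).card : ℕ) : ℝ)
      ≤ ((D : ℝ) + 1) * I.card := by exact_mod_cast hcard
  calc ((((Finset.univ : Finset W).filter (fun v => H.degree v = D)).card : ℕ) : ℝ)
      ≤ ((D : ℝ) + 1) * I.card := hc
    _ ≤ ((D : ℝ) + 1) * (3 * (n * n.choose D) * q ^ D) := by gcongr
    _ = 3 * (D + 1) * (n * n.choose D) * q ^ D := by ring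

theorem star_lemma {W : Type*} [Fintype W] (H : SimpleGraph W) (n : ℕ)
    (hW : Fintype.card W ≤ n) (q : ℝ) (hq0 : 0 ≤ q) (hq1 : q ≤ 1)
    (hyp : ∀ F : H.Subgraph,
      1 ≤ ((⊤ : SimpleGraph (Fin n)).copyCount F.coe : ℝ) * q ^ F.coe.edgeSet.ncard)
    (t : ℕ) (ht : 1 ≤ t) :
    (H.copyCount (starGraph t) : ℝ)
      ≤ ((⊤ : SimpleGraph (Fin n)).copyCount (starGraph t) : ℝ) * (min 1 (2000 * q)) ^ t := by
  classical
  by_cases hL : 1 ≤ 2000 * q
  · rw [min_eq_left hL, one_pow, mul_one]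
    have hcard : Fintype.card W ≤ Fintype.card (Fin n) := by rw [Fintype.card_fin]; exact hW
    obtain ⟨f⟩ := Function.Embedding.nonempty_of_card_le hcard
    have hhom : ∀ a b, H.Adj a b → (⊤ : SimpleGraph (Fin n)).Adj (f a) (f b) := by
      intro a b hab
      rw [SimpleGraph.top_adj]
      exact fun h => hab.ne (f.injective h)
    let c : SimpleGraph.Copy H (⊤ : SimpleGraph (Fin n)) :=
      ⟨⟨f, fun {a b} h => hhom a b h⟩, f.injective⟩
    exact_mod_cast copyCount_le_of_copy c (starGraph t)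
  · replace hL : 2000 * q < 1 := not_le.mp hL
    rw [min_eq_right hL.le]
    let a : ℕ → ℕ := fun D => ((Finset.univ : Finset W).filter (fun v => H.degree v = D)).card
    have hmaps : ∀ v ∈ (Finset.univ : Finset W), H.degree v ∈ range n := by
      intro v _
      rw [Finset.mem_range]
      exact lt_of_lt_of_le (H.degree_lt_card_verts v) hW
    have hsum : ∑ D ∈ range n, a D ≤ n := by
      have h1 : ∑ D ∈ range n, a D = (Finset.univ : Finset W).card :=
        (Finset.card_eq_sum_card_fiberwise hmaps).symm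
      rw [h1, Finset.card_univ]
      exact hW
    have ha : ∀ D, (a D : ℝ) ≤ 3 * (D + 1) * (n * n.choose D) * q ^ D :=
      fun D => degree_class_bound H n q hq0 hq1 hyp D
    have hnum := star_numeric n t ht q hq0 hL a hsum ha
    have hfib : ∑ v : W, ((H.degree v).choose t : ℝ) = ∑ D ∈ range n, (a D : ℝ) * (D.choose t) := by
      rw [← Finset.sum_fiberwise_of_maps_to hmaps]
      apply Finset.sum_congr rfl
      intro D _
      rw [Finset.sum_congr rfl (fun v hv => by rw [(Finset.mem_filter.mp hv).2]),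
        Finset.sum_const, nsmul_eq_mul]
    have h1 : (H.copyCount (starGraph t) : ℝ) ≤ ∑ v : W, ((H.degree v).choose t : ℝ) := by
      exact_mod_cast star_copyCount_le H t
    have h2 : (n.choose (t + 1) : ℝ) ≤ ((⊤ : SimpleGraph (Fin n)).copyCount (starGraph t) : ℝ) := by
      exact_mod_cast choose_le_star_copyCount_top n t
    calc (H.copyCount (starGraph t) : ℝ) ≤ ∑ v : W, ((H.degree v).choose t : ℝ) := h1
      _ = ∑ D ∈ range n, (a D : ℝ) * (D.choose t) := hfib
      _ ≤ (n.choose (t + 1) : ℝ) * (2000 * q) ^ t := hnum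
      _ ≤ ((⊤ : SimpleGraph (Fin n)).copyCount (starGraph t) : ℝ) * (2000 * q) ^ t := by
          gcongr

end Vale.Agent.Lib.P064
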